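import Vale.Agent.P028KM.Defs


/-!
Module AFM: the full sets. Compare Vale/Agent/P028EV/{Local,Intv,Diag,Result}.lean (there the sets
are `AS` with a coprimality condition; here there is no condition on `a`, everything is easier).
`AF γ ψ q ∩ [x0, x0+ℓ)` is a union of intervals of length `2ψ(q)/q` with centres `(a+γ)/q`.
-/

namespace Vale.Agent.P028KM

open Finset MeasureTheory
open Vale.Agent.P028EV (q1 r1 Del hh)

theorem AF_isOpen (γ : ℝ) (ψ : ℕ → ℝ) (q : ℕ) : IsOpen (AF γ ψ q) := by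
  have h : AF γ ψ q = ⋃ a : ℤ, {x : ℝ | |(q : ℝ) * x - a - γ| < ψ q} := by
    ext x
    simp [AF]
  rw [h]
  refine isOpen_iUnion fun a => ?_
  exact isOpen_lt (by fun_prop) continuous_const

theorem AF_mono {γ : ℝ} {ψ ψ' : ℕ → ℝ} {q : ℕ} (h : ψ' q ≤ ψ q) : AF γ ψ' q ⊆ AF γ ψ q := by
  rintro x ⟨a, hx⟩
  exact ⟨a, hx.trans_le h⟩

theorem AF_per (γ : ℝ) (ψ : ℕ → ℝ) (q : ℕ) (x : ℝ) : x ∈ AF γ ψ q ↔ x + 1 ∈ AF γ ψ q := by
  constructor
  · rintro ⟨a, ha⟩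
    refine ⟨a + q, ?_⟩
    have e : (q : ℝ) * (x + 1) - ((a + q : ℤ) : ℝ) - γ = (q : ℝ) * x - a - γ := by
      push_cast; ring
    rw [e]
    exact ha
  · rintro ⟨a, ha⟩
    refine ⟨a - q, ?_⟩
    have e : (q : ℝ) * x - ((a - q : ℤ) : ℝ) - γ = (q : ℝ) * (x + 1) - a - γ := by
      push_cast; ring
    rw [e]
    exact ha

/-- the interval attached to the numerator `a` -/
private def afmI (γ ψ : ℝ) (q : ℕ) (a : ℤ) : Set ℝ :=
  Set.Ioo ((a + γ - ψ) / q) ((a + γ + ψ) / q)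

private theorem afm_memI {γ ψ : ℝ} {q : ℕ} (hq : 0 < q) {a : ℤ} {x : ℝ} :
    x ∈ afmI γ ψ q a ↔ |(q : ℝ) * x - a - γ| < ψ := by
  have hq' : (0 : ℝ) < q := by exact_mod_cast hq
  unfold afmI
  rw [Set.mem_Ioo, div_lt_iff₀ hq', lt_div_iff₀ hq', abs_lt]
  constructor
  · rintro ⟨h1, h2⟩
    constructor <;> linarith
  · rintro ⟨h1, h2⟩
    constructor <;> linarith

private theorem afm_volI (γ ψ : ℝ) (q : ℕ) (a : ℤ) :
    volume (afmI γ ψ q a) = ENNReal.ofReal (2 * ψ / q) := by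
  unfold afmI
  rw [Real.volume_Ioo]
  congr 1
  ring

private theorem afm_card {u v : ℝ} (huv : u ≤ v) :
    v - u - 1 ≤ ((Finset.Ico ⌈u⌉ ⌈v⌉).card : ℝ) ∧ ((Finset.Ico ⌈u⌉ ⌈v⌉).card : ℝ) ≤ v - u + 1 := by
  have h1 : ⌈u⌉ ≤ ⌈v⌉ := Int.ceil_mono huv
  have h2 : ((Finset.Ico ⌈u⌉ ⌈v⌉).card : ℝ) = (⌈v⌉ : ℝ) - ⌈u⌉ := by
    rw [Int.card_Ico]
    have h3 : (((⌈v⌉ - ⌈u⌉).toNat : ℤ) : ℝ) = ((⌈v⌉ - ⌈u⌉ : ℤ) : ℝ) := by
      rw [Int.toNat_of_nonneg (by omega)]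
    rw [Int.cast_sub] at h3
    exact_mod_cast h3
  rw [h2]
  have a1 := Int.le_ceil u
  have a2 := Int.le_ceil v
  have a3 := Int.ceil_lt_add_one u
  have a4 := Int.ceil_lt_add_one v
  constructor <;> linarith

/-- upper bound on every interval -/
theorem AF_le (γ : ℝ) (ψ : ℕ → ℝ) (q : ℕ) (hq : 0 < q) (h0 : 0 ≤ ψ q) (h1 : ψ q < 1 / 2)
    (u v : ℝ) (huv : u ≤ v) :
    (volume (AF γ ψ q ∩ Set.Icc u v)).toReal ≤ (q * (v - u) + 2) * (2 * ψ q / q) := by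
  have hq' : (0 : ℝ) < q := by exact_mod_cast hq
  set s : ℝ := q * u - ψ q - γ with hs
  set t : ℝ := q * v + ψ q - γ with ht
  have hqx : (q : ℝ) * u ≤ q * v := mul_le_mul_of_nonneg_left huv hq'.le
  have hst : s ≤ t := by rw [hs, ht]; linarith
  have hsub : AF γ ψ q ∩ Set.Icc u v ⊆ ⋃ a ∈ Finset.Ico ⌈s⌉ ⌈t⌉, afmI γ (ψ q) q a := by
    rintro x ⟨⟨a, hax⟩, hxI⟩
    have hax' := hax
    rw [abs_lt] at hax
    have hx1 : (q : ℝ) * u ≤ q * x := mul_le_mul_of_nonneg_left hxI.1 hq'.le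
    have hx2 : (q : ℝ) * x ≤ q * v := mul_le_mul_of_nonneg_left hxI.2 hq'.le
    refine Set.mem_biUnion (x := a) ?_ ((afm_memI hq).mpr hax')
    rw [SetLike.mem_coe, Finset.mem_Ico, Int.ceil_le, Int.lt_ceil]
    refine ⟨?_, ?_⟩
    · rw [hs]; linarith [hax.2]
    · rw [ht]; linarith [hax.1]
  have hψq : 0 ≤ 2 * ψ q / q := by positivity
  have hvol : volume (AF γ ψ q ∩ Set.Icc u v)
      ≤ ENNReal.ofReal ((Finset.Ico ⌈s⌉ ⌈t⌉).card * (2 * ψ q / q)) := by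
    refine (measure_mono hsub).trans ((measure_biUnion_finset_le _ _).trans (le_of_eq ?_))
    rw [Finset.sum_congr rfl (fun a _ => afm_volI γ (ψ q) q a), Finset.sum_const, nsmul_eq_mul,
      ENNReal.ofReal_mul (Nat.cast_nonneg _), ENNReal.ofReal_natCast]
  have hreal : (volume (AF γ ψ q ∩ Set.Icc u v)).toReal
      ≤ (Finset.Ico ⌈s⌉ ⌈t⌉).card * (2 * ψ q / q) := by
    have h2 := ENNReal.toReal_mono ENNReal.ofReal_ne_top hvol
    rwa [ENNReal.toReal_ofReal (by positivity)] at h2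
  refine hreal.trans (mul_le_mul_of_nonneg_right ?_ hψq)
  have hc := (afm_card hst).2
  have hlen : t - s ≤ q * (v - u) + 1 := by
    rw [hs, ht, mul_sub]
    linarith
  linarith

private theorem afm_ge (γ : ℝ) (ψ : ℕ → ℝ) (q : ℕ) (hq : 0 < q) (h0 : 0 ≤ ψ q)
    (h1 : ψ q < 1 / 2) (x1 x2 : ℝ) (hx : x1 ≤ x2) :
    (q * (x2 - x1) - 2) * (2 * ψ q / q) ≤ (volume (AF γ ψ q ∩ Set.Ico x1 x2)).toReal := by
  have hq' : (0 : ℝ) < q := by exact_mod_cast hq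
  set u : ℝ := q * x1 + ψ q - γ with hu
  set v : ℝ := q * x2 - ψ q - γ with hv
  have hψq : 0 ≤ 2 * ψ q / q := by positivity
  rcases le_or_gt u v with huv | huv
  · have hsub : (⋃ a ∈ Finset.Ico ⌈u⌉ ⌈v⌉, afmI γ (ψ q) q a) ⊆ AF γ ψ q ∩ Set.Ico x1 x2 := by
      intro x hxU
      rw [Set.mem_iUnion₂] at hxU
      obtain ⟨a, ha, hxa⟩ := hxU
      rw [Finset.mem_Ico, Int.ceil_le, Int.lt_ceil] at ha
      rw [afm_memI hq] at hxa
      refine ⟨⟨a, hxa⟩, ?_⟩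
      rw [abs_lt] at hxa
      have hua := ha.1
      have hva := ha.2
      rw [hu] at hua
      rw [hv] at hva
      constructor
      · have h2 : (q : ℝ) * x1 < q * x := by linarith [hxa.1]
        exact (lt_of_mul_lt_mul_left h2 hq'.le).le
      · have h2 : (q : ℝ) * x < q * x2 := by linarith [hxa.2]
        exact lt_of_mul_lt_mul_left h2 hq'.le
    have hdisj : (↑(Finset.Ico ⌈u⌉ ⌈v⌉) : Set ℤ).PairwiseDisjoint (fun a => afmI γ (ψ q) q a) := by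
      intro a _ b _ hab
      rw [Function.onFun, Set.disjoint_left]
      intro x hxa hxb
      rw [afm_memI hq, abs_lt] at hxa hxb
      have h2 : (a : ℝ) - b < 1 := by linarith [hxa.1, hxb.2]
      have h3 : (b : ℝ) - a < 1 := by linarith [hxa.2, hxb.1]
      have h2' : a - b < 1 := by exact_mod_cast h2
      have h3' : b - a < 1 := by exact_mod_cast h3
      exact hab (by omega)
    have hmeas : ∀ a ∈ Finset.Ico ⌈u⌉ ⌈v⌉, MeasurableSet (afmI γ (ψ q) q a) :=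
      fun a _ => measurableSet_Ioo
    have hvolU : volume (⋃ a ∈ Finset.Ico ⌈u⌉ ⌈v⌉, afmI γ (ψ q) q a)
        = ENNReal.ofReal ((Finset.Ico ⌈u⌉ ⌈v⌉).card * (2 * ψ q / q)) := by
      rw [measure_biUnion_finset hdisj hmeas,
        Finset.sum_congr rfl (fun a _ => afm_volI γ (ψ q) q a), Finset.sum_const, nsmul_eq_mul,
        ENNReal.ofReal_mul (Nat.cast_nonneg _), ENNReal.ofReal_natCast]
    have hfin : volume (AF γ ψ q ∩ Set.Ico x1 x2) ≠ ⊤ := by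
      refine ne_top_of_le_ne_top ?_ (measure_mono Set.inter_subset_right)
      rw [Real.volume_Ico]
      exact ENNReal.ofReal_ne_top
    have hreal : ((Finset.Ico ⌈u⌉ ⌈v⌉).card : ℝ) * (2 * ψ q / q)
        ≤ (volume (AF γ ψ q ∩ Set.Ico x1 x2)).toReal := by
      have h2 := ENNReal.toReal_mono hfin (measure_mono hsub)
      rwa [hvolU, ENNReal.toReal_ofReal (by positivity)] at h2
    refine le_trans (mul_le_mul_of_nonneg_right ?_ hψq) hreal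
    have hc := (afm_card huv).1
    have hlen : q * (x2 - x1) - 1 ≤ v - u := by
      rw [hu, hv, mul_sub]
      linarith
    linarith
  · refine le_trans ?_ ENNReal.toReal_nonneg
    refine mul_nonpos_of_nonpos_of_nonneg ?_ hψq
    rw [hu, hv] at huv
    rw [mul_sub]
    linarith

theorem AF_bounds (ℓ : ℝ) (hℓ : 0 < ℓ) : ∃ Q : ℕ, 0 < Q ∧ ∀ q : ℕ, Q ≤ q →
    ∀ (γ : ℝ) (ψ : ℕ → ℝ) (x0 : ℝ), 0 ≤ ψ q → ψ q < 1 / 2 →
      ℓ * ψ q ≤ (volume (AF γ ψ q ∩ Set.Ico x0 (x0 + ℓ))).toReal ∧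
      (volume (AF γ ψ q ∩ Set.Ico x0 (x0 + ℓ))).toReal ≤ 4 * ℓ * ψ q := by
  refine ⟨⌈4 / ℓ⌉₊ + 1, Nat.succ_pos _, ?_⟩
  intro q hQ γ ψ x0 h0 h1
  have hq : 0 < q := by omega
  have hq' : (0 : ℝ) < q := by exact_mod_cast hq
  have h2 : 4 / ℓ ≤ q := by
    refine (Nat.le_ceil _).trans ?_
    exact_mod_cast (by omega : ⌈4 / ℓ⌉₊ ≤ q)
  rw [div_le_iff₀ hℓ] at h2
  have h3 : 0 ≤ ψ q / q := by positivity
  have h4 : (q : ℝ) * (ψ q / q) = ψ q := by field_simp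
  constructor
  · refine le_trans ?_ (afm_ge γ ψ q hq h0 h1 x0 (x0 + ℓ) (by linarith))
    have e : (q * (x0 + ℓ - x0) - 2) * (2 * ψ q / q) = 2 * ℓ * ψ q - 4 * (ψ q / q) := by
      field_simp; ring
    rw [e]
    nlinarith [mul_le_mul_of_nonneg_right h2 h3]
  · have hle := AF_le γ ψ q hq h0 h1 x0 (x0 + ℓ) (by linarith)
    have hmono : (volume (AF γ ψ q ∩ Set.Ico x0 (x0 + ℓ))).toReal ≤
        (volume (AF γ ψ q ∩ Set.Icc x0 (x0 + ℓ))).toReal := by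
      refine ENNReal.toReal_mono ?_ (measure_mono (Set.inter_subset_inter_right _ Set.Ico_subset_Icc_self))
      refine ne_top_of_le_ne_top ?_ (measure_mono Set.inter_subset_right)
      rw [Real.volume_Icc]
      exact ENNReal.ofReal_ne_top
    refine hmono.trans (hle.trans ?_)
    have e : (q * (x0 + ℓ - x0) + 2) * (2 * ψ q / q) = 2 * ℓ * ψ q + 4 * (ψ q / q) := by
      field_simp; ring
    rw [e]
    nlinarith [mul_le_mul_of_nonneg_right h2 h3]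

end Vale.Agent.P028KM
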