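import Vale.Agent.P028KM.Defs
import Vale.Agent.P028EV.Block


/-!
Module BK: choice of the block. `lam q = ε0 / max ε0 (m_k)` for `q` in `[2^(4^k), 2^(4^(k+1)))`,
`m_k` the mass of the block (compare Vale/Agent/P028EV/Block.lean, `blk_min_not_summable` etc.):
the masses become `min(m_k, ε0)`, still not summable. Removing the `q` with
`lam q * μ q < q^(-5/4)` removes a summable part. Take `S` = the remaining `q` in `[N, M]` with
`M` minimal such that the sum is `≥ 1`; each term is `≤ 1`.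
-/

namespace Vale.Agent.P028KM

open Finset MeasureTheory
open Vale.Agent.P028EV (q1 r1 Del hh)

open Vale.Agent.P028EV in
theorem bk (μ : ℕ → ℝ) (hμ : ∀ q, 0 ≤ μ q) (hμ1 : ∀ q, μ q ≤ 1) (hdiv : ¬ Summable μ) (ε0 : ℝ)
    (hε0 : 0 < ε0) (N : ℕ) :
    ∃ (lam : ℕ → ℝ) (S : Finset ℕ), (∀ q, 0 ≤ lam q ∧ lam q ≤ 1) ∧
      (∀ q ∈ S, N ≤ q ∧ 2 ≤ q ∧ (q : ℝ) ^ (-(5 / 4) : ℝ) ≤ lam q * μ q) ∧
      1 ≤ ∑ q ∈ S, lam q * μ q ∧ ∑ q ∈ S, lam q * μ q ≤ 2 ∧
      ∀ k : ℕ, ∑ q ∈ S with 2 ^ (4 ^ k) ≤ q ∧ q < 2 ^ (4 ^ (k + 1)), lam q * μ q ≤ ε0 := by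
  classical
  set m : ℕ → ℝ := fun k => ∑ q ∈ blkI k, μ q with hm
  have hm0 : ∀ k, 0 ≤ m k := fun k => Finset.sum_nonneg fun q _ => hμ q
  set w' : ℕ → ℝ := fun k => min (m k) ε0 with hw
  have hw0 : ∀ k, 0 ≤ w' k := fun k => le_min (hm0 k) hε0.le
  have hwε : ∀ k, w' k ≤ ε0 := fun k => min_le_right _ _
  have hwdiv : ¬ Summable w' := blk_min_not_summable hm0 (blk_not_summable hμ hdiv) hε0
  set lam : ℕ → ℝ := fun q => ε0 / max ε0 (m (blkK q)) with hlam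
  have hmaxpos : ∀ k, 0 < max ε0 (m k) := fun k => lt_max_of_lt_left hε0
  have hlam0 : ∀ q, 0 ≤ lam q := fun q => (div_pos hε0 (hmaxpos _)).le
  have hlam1 : ∀ q, lam q ≤ 1 := fun q => (div_le_one (hmaxpos _)).2 (le_max_left _ _)
  have hsumI : ∀ k, ∑ q ∈ blkI k, lam q * μ q = w' k := by
    intro k
    have h1 : ∀ q ∈ blkI k, lam q * μ q = ε0 / max ε0 (m k) * μ q := by
      intro q hq
      simp only [hlam, blkK_of_mem hq]
    rw [Finset.sum_congr rfl h1, ← Finset.mul_sum]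
    change ε0 / max ε0 (m k) * m k = min (m k) ε0
    rcases le_total (m k) ε0 with h | h
    · rw [max_eq_left h, min_eq_left h, div_self hε0.ne', one_mul]
    · rw [max_eq_right h, min_eq_right h, div_mul_cancel₀]
      exact (hε0.trans_le h).ne'
  set ν : ℕ → ℝ := fun q => lam q * μ q with hν
  have hν0 : ∀ q, 0 ≤ ν q := fun q => mul_nonneg (hlam0 q) (hμ q)
  have hν1 : ∀ q, ν q ≤ 1 := fun q => mul_le_one₀ (hlam1 q) (hμ q) (hμ1 q)
  have hνdiv : ¬ Summable ν := by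
    intro hs
    apply hwdiv
    refine summable_of_sum_range_le hw0 (c := ∑' q, ν q) fun K => ?_
    have h1 : ∑ k ∈ Finset.range K, w' k = ∑ q ∈ Finset.Ico (2 ^ (4 ^ 0)) (2 ^ (4 ^ K)), ν q := by
      rw [blk_sum ν (Nat.zero_le K), ← Finset.range_eq_Ico]
      exact Finset.sum_congr rfl fun k _ => (hsumI k).symm
    rw [h1]
    exact hs.sum_le_tsum _ (fun q _ => hν0 q)
  set ν' : ℕ → ℝ := fun q =>
    if N ≤ q ∧ 2 ≤ q ∧ (q : ℝ) ^ (-(5 / 4) : ℝ) ≤ ν q then ν q else 0 with hν'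
  have hν'0 : ∀ q, 0 ≤ ν' q := by
    intro q
    simp only [hν']
    split_ifs
    · exact hν0 q
    · exact le_rfl
  have hν'1 : ∀ q, ν' q ≤ 1 := by
    intro q
    simp only [hν']
    split_ifs
    · exact hν1 q
    · norm_num
  have hν'div : ¬ Summable ν' := by
    intro hs
    apply hνdiv
    have h1 : Summable (fun q : ℕ => (q : ℝ) ^ (-(5 / 4) : ℝ)) :=
      Real.summable_nat_rpow.2 (by norm_num)
    have h2 := hs.add h1
    rw [← summable_nat_add_iff (max N 2)] at h2 ⊢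
    refine Summable.of_nonneg_of_le (fun q => hν0 _) (fun q => ?_) h2
    have hN : N ≤ q + max N 2 := (le_max_left _ _).trans (Nat.le_add_left _ _)
    have h22 : 2 ≤ q + max N 2 := (le_max_right _ _).trans (Nat.le_add_left _ _)
    have hpow : (0 : ℝ) ≤ ((q + max N 2 : ℕ) : ℝ) ^ (-(5 / 4) : ℝ) :=
      Real.rpow_nonneg (Nat.cast_nonneg _) _
    by_cases hc : ((q + max N 2 : ℕ) : ℝ) ^ (-(5 / 4) : ℝ) ≤ ν (q + max N 2)
    · have h3 : ν' (q + max N 2) = ν (q + max N 2) := by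
        simp only [hν']
        rw [if_pos ⟨hN, h22, hc⟩]
      rw [h3]
      linarith
    · push Not at hc
      have := hν'0 (q + max N 2)
      linarith
  -- choice of `M`
  have hex : ∃ M : ℕ, 1 ≤ ∑ q ∈ Finset.range M, ν' q := by
    rw [not_summable_iff_tendsto_nat_atTop_of_nonneg hν'0] at hν'div
    obtain ⟨M, hM⟩ := Filter.eventually_atTop.1 (hν'div.eventually (Filter.eventually_ge_atTop 1))
    exact ⟨M, hM M le_rfl⟩
  have hM1 := Nat.find_spec hex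
  have hMmin : ∀ M', M' < Nat.find hex → ¬ (1 ≤ ∑ q ∈ Finset.range M', ν' q) :=
    fun M' h => Nat.find_min hex h
  generalize Nat.find hex = M at hM1 hMmin
  have hM2 : ∑ q ∈ Finset.range M, ν' q ≤ 2 := by
    rcases Nat.eq_zero_or_pos M with h | h
    · rw [h, Finset.sum_range_zero]; norm_num
    · obtain ⟨M', hM'⟩ : ∃ M', M = M' + 1 := ⟨M - 1, by omega⟩
      have h1 := hMmin M' (by omega)
      push Not at h1
      rw [hM', Finset.sum_range_succ]
      have := hν'1 M'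
      linarith
  have hS : ∑ q ∈ (Finset.range M).filter
      (fun q => N ≤ q ∧ 2 ≤ q ∧ (q : ℝ) ^ (-(5 / 4) : ℝ) ≤ ν q), ν q =
      ∑ q ∈ Finset.range M, ν' q := Finset.sum_filter _ _
  refine ⟨lam, (Finset.range M).filter
    (fun q => N ≤ q ∧ 2 ≤ q ∧ (q : ℝ) ^ (-(5 / 4) : ℝ) ≤ ν q), fun q => ⟨hlam0 q, hlam1 q⟩,
    ?_, ?_, ?_, ?_⟩
  · intro q hq
    exact (Finset.mem_filter.1 hq).2
  · exact hM1.trans (le_of_eq hS.symm)
  · exact (le_of_eq hS).trans hM2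
  · intro k
    refine le_trans ?_ ((le_of_eq (hsumI k)).trans (hwε k))
    refine Finset.sum_le_sum_of_subset_of_nonneg ?_ fun q _ _ => hν0 q
    intro q hq
    rw [blkI, Finset.mem_Ico]
    exact (Finset.mem_filter.1 hq).2

end Vale.Agent.P028KM
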