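import Vale.Agent.P028KM.Defs


/-!
Module BX: the three trivial box bounds. Write `g = gcd a b = gcd q r`, `q = a q'`, `r = b r'`.
`Ks ≠ 0` implies `r1 ψ(q) ≤ 1/s`, `r1 = r/g`, so `ψ q ≤ g/(s 2^j)`, similarly `ψ r ≤ g/(s 2^i)`.
`w q ≤ w a` if `a ∣ q`; the number of multiples of `a` in `[2^i, 2^(i+1))` is `≤ 2^(i+1)/a`.
(`ψ q ≤ g/(s 2^j)` holds only for those `q` that have an edge in the box.)
-/

namespace Vale.Agent.P028KM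

open Finset MeasureTheory
open Vale.Agent.P028EV (q1 r1 Del hh)

theorem BX_w (q : ℕ) (hq : 0 < q) : w q = ∏ p ∈ q.primeFactors, (1 - (p : ℝ)⁻¹) := by
  have h1 := Nat.totient_eq_mul_prod_factors q
  have h2 : (Nat.totient q : ℝ) = q * ∏ p ∈ q.primeFactors, (1 - (p : ℝ)⁻¹) := by
    have := congrArg (fun x : ℚ => (x : ℝ)) h1
    push_cast at this
    exact this
  have h3 : (q : ℝ) ≠ 0 := by positivity
  rw [w, h2]
  field_simp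

theorem BX_w_nonneg (q : ℕ) : 0 ≤ w q := by
  rw [w]
  positivity

theorem w_le_of_dvd (a q : ℕ) (hq : 0 < q) (h : a ∣ q) : w q ≤ w a := by
  have ha : 0 < a := Nat.pos_of_dvd_of_pos h hq
  rw [BX_w q hq, BX_w a ha, ← Finset.prod_sdiff (Nat.primeFactors_mono h hq.ne')]
  have h1 : ∀ p ∈ q.primeFactors, 0 ≤ 1 - (p : ℝ)⁻¹ ∧ 1 - (p : ℝ)⁻¹ ≤ 1 := by
    intro p hp
    have h2 : (1 : ℝ) ≤ p := by exact_mod_cast (Nat.prime_of_mem_primeFactors hp).one_lt.le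
    have h3 : (p : ℝ)⁻¹ ≤ 1 := inv_le_one_of_one_le₀ h2
    have h4 : 0 ≤ (p : ℝ)⁻¹ := by positivity
    exact ⟨by linarith, by linarith⟩
  have h5 : ∏ p ∈ q.primeFactors \ a.primeFactors, (1 - (p : ℝ)⁻¹) ≤ 1 :=
    Finset.prod_le_one (fun p hp => (h1 p (Finset.mem_sdiff.mp hp).1).1)
      fun p hp => (h1 p (Finset.mem_sdiff.mp hp).1).2
  have h6 : 0 ≤ ∏ p ∈ a.primeFactors, (1 - (p : ℝ)⁻¹) :=
    Finset.prod_nonneg fun p hp => (h1 p (Nat.primeFactors_mono h hq.ne' hp)).1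
  exact mul_le_of_le_one_left h6 h5

theorem BX_mu_nonneg {ψ : ℕ → ℝ} (hψ : ∀ q, 0 ≤ ψ q) (q : ℕ) : 0 ≤ mu ψ q :=
  mul_nonneg (BX_w_nonneg q) (hψ q)

theorem BX_Ks {γ : ℝ} {ψ : ℕ → ℝ} {s : ℝ} {q r : ℕ} {R : ℝ} (hR : 0 ≤ R)
    (h : Dm ψ q r ≤ 1 / s → mu ψ q * mu ψ r ≤ R) : Ks γ ψ s q r ≤ R := by
  rw [Ks]
  split_ifs with h1
  · exact h h1.2.2.2
  · exact hR

theorem BX_eij {γ : ℝ} {ψ : ℕ → ℝ} {s : ℝ} {V W : Finset ℕ} {a b i j : ℕ} (f h : ℕ → ℝ)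
    (hf : ∀ q, 0 ≤ f q) (hh' : ∀ r, 0 ≤ h r)
    (H : ∀ q ∈ V, Nat.log 2 q = i → ∀ r ∈ W, Nat.log 2 r = j → Nat.gcd q r = Nat.gcd a b →
      Ks γ ψ s q r ≤ f q * h r) :
    eij γ ψ s V W a b i j ≤
      (∑ q ∈ V with Nat.log 2 q = i, f q) * (∑ r ∈ W with Nat.log 2 r = j, h r) := by
  rw [eij, Finset.sum_mul]
  apply Finset.sum_le_sum
  intro q hq
  rw [Finset.mem_filter] at hq
  rw [Finset.mul_sum]
  calc ∑ r ∈ W with Nat.log 2 r = j ∧ Nat.gcd q r = Nat.gcd a b, Ks γ ψ s q r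
      ≤ ∑ r ∈ W with Nat.log 2 r = j ∧ Nat.gcd q r = Nat.gcd a b, f q * h r := by
        apply Finset.sum_le_sum
        intro r hr
        rw [Finset.mem_filter] at hr
        exact H q hq.1 hq.2 r hr.1 hr.2.1 hr.2.2
    _ ≤ ∑ r ∈ W with Nat.log 2 r = j, f q * h r := by
        apply Finset.sum_le_sum_of_subset_of_nonneg
        · intro r hr
          rw [Finset.mem_filter] at hr ⊢
          exact ⟨hr.1, hr.2.1⟩
        · intro r _ _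
          exact mul_nonneg (hf q) (hh' r)

theorem BX_card {W : Finset ℕ} {b j : ℕ} (hb : 0 < b) (hW : ∀ r ∈ W, 0 < r ∧ b ∣ r) :
    ((W.filter (fun r => Nat.log 2 r = j)).card : ℝ) ≤ 2 ^ (j + 1) / (b : ℝ) := by
  have h1 : (W.filter (fun r => Nat.log 2 r = j)).card ≤ (Finset.Ioc 0 (2 ^ (j + 1) / b)).card := by
    apply Finset.card_le_card_of_injOn (fun r => r / b)
    · intro r hr
      rw [Finset.mem_coe, Finset.mem_filter] at hr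
      obtain ⟨h1, h2⟩ := hr
      obtain ⟨h3, k, hk⟩ := hW r h1
      have h4 : r < 2 ^ (j + 1) := by
        rw [← h2]
        exact Nat.lt_pow_succ_log_self (by norm_num) r
      rw [Finset.mem_coe, Finset.mem_Ioc]
      constructor
      · exact Nat.div_pos (Nat.le_of_dvd h3 ⟨k, hk⟩) hb
      · exact Nat.div_le_div_right h4.le
    · intro r hr r' hr' h
      rw [Finset.mem_coe, Finset.mem_filter] at hr hr'
      obtain ⟨_, k, hk⟩ := hW r hr.1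
      obtain ⟨_, k', hk'⟩ := hW r' hr'.1
      simp only at h
      rw [hk, hk', Nat.mul_div_cancel_left _ hb, Nat.mul_div_cancel_left _ hb] at h
      rw [hk, hk', h]
  rw [Nat.card_Ioc, Nat.sub_zero] at h1
  have h2 : ((2 ^ (j + 1) / b : ℕ) : ℝ) ≤ ((2 ^ (j + 1) : ℕ) : ℝ) / (b : ℝ) := Nat.cast_div_le
  calc ((W.filter (fun r => Nat.log 2 r = j)).card : ℝ) ≤ ((2 ^ (j + 1) / b : ℕ) : ℝ) := by
        exact_mod_cast h1
    _ ≤ ((2 ^ (j + 1) : ℕ) : ℝ) / (b : ℝ) := h2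
    _ = 2 ^ (j + 1) / (b : ℝ) := by push_cast; rfl

/-- the bound for `ψ` from `x ψ ≤ 1/s`, `x g = q`, `2 ^ i ≤ q` -/
theorem BX_psi {x y g q s P : ℝ} (hs : 0 < s) (hP : 0 < P) (hg : 0 ≤ g) (hy : 0 ≤ y)
    (hx : x * g = q) (hq : P ≤ q) (h : x * y ≤ 1 / s) : y ≤ g / (s * P) := by
  rw [le_div_iff₀ (mul_pos hs hP)]
  have h1 : s * (x * y) ≤ 1 := by
    have := mul_le_mul_of_nonneg_left h hs.le
    rwa [mul_one_div, div_self hs.ne'] at this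
  have h2 : g * (s * (x * y)) ≤ g * 1 := mul_le_mul_of_nonneg_left h1 hg
  have h3 : y * (s * P) ≤ y * (s * q) :=
    mul_le_mul_of_nonneg_left (mul_le_mul_of_nonneg_left hq hs.le) hy
  rw [← hx] at h3
  nlinarith [h2, h3]

theorem BX_muq {ψ : ℕ → ℝ} (hψ : ∀ q, 0 ≤ ψ q) {s : ℝ} (hs : 0 < s) {a b q r j : ℕ}
    (hq : 0 < q) (haq : a ∣ q) (hr : 0 < r) (hj : Nat.log 2 r = j)
    (hg : Nat.gcd q r = Nat.gcd a b) (hD : Dm ψ q r ≤ 1 / s) :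
    mu ψ q ≤ w a * ((Nat.gcd a b : ℝ) / (s * 2 ^ j)) := by
  rw [mu]
  refine mul_le_mul (w_le_of_dvd a q hq haq) ?_ (hψ q) (BX_w_nonneg a)
  refine BX_psi (x := (r1 q r : ℝ)) (q := (r : ℝ)) hs (by positivity) (by positivity) (hψ q)
    ?_ ?_ (le_trans (le_max_left _ _) hD)
  · rw [← hg]
    exact_mod_cast Vale.Agent.P028EV.r1_mul q r
  · rw [← hj]
    exact_mod_cast Nat.pow_log_le_self 2 hr.ne'

theorem BX_mur {ψ : ℕ → ℝ} (hψ : ∀ q, 0 ≤ ψ q) {s : ℝ} (hs : 0 < s) {a b q r i : ℕ}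
    (hr : 0 < r) (hbr : b ∣ r) (hq : 0 < q) (hi : Nat.log 2 q = i)
    (hg : Nat.gcd q r = Nat.gcd a b) (hD : Dm ψ q r ≤ 1 / s) :
    mu ψ r ≤ w b * ((Nat.gcd a b : ℝ) / (s * 2 ^ i)) := by
  rw [mu]
  refine mul_le_mul (w_le_of_dvd b r hr hbr) ?_ (hψ r) (BX_w_nonneg b)
  refine BX_psi (x := (q1 q r : ℝ)) (q := (q : ℝ)) hs (by positivity) (by positivity) (hψ r)
    ?_ ?_ (le_trans (le_max_right _ _) hD)
  · rw [← hg]
    exact_mod_cast Vale.Agent.P028EV.q1_mul q r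
  · rw [← hi]
    exact_mod_cast Nat.pow_log_le_self 2 hq.ne'

theorem BX_MW {a b : ℕ} (ha : 0 < a) (hb : 0 < b) (s : ℝ) (hs : 0 < s) (i j : ℕ) :
    2 ^ (j + 1) / (b : ℝ) * (w b * ((Nat.gcd a b : ℝ) / (s * 2 ^ i)))
      = MW a b s * (2 : ℝ) ^ ((j : ℝ) - (i : ℝ)) := by
  have hg : 0 < Nat.gcd a b := Nat.gcd_pos_of_pos_left _ ha
  have h1 : (r1 a b : ℝ) * (Nat.gcd a b : ℝ) = b := by
    exact_mod_cast Vale.Agent.P028EV.r1_mul a b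
  have h2 : (0 : ℝ) < r1 a b := by
    rcases (Nat.cast_nonneg (α := ℝ) (r1 a b)).eq_or_lt with h | h
    · rw [← h, zero_mul] at h1
      have : (b : ℝ) ≠ 0 := by positivity
      exact absurd h1.symm this
    · exact h
  have hg' : (0 : ℝ) < Nat.gcd a b := by exact_mod_cast hg
  rw [MW, Real.rpow_sub two_pos, Real.rpow_natCast, Real.rpow_natCast, ← h1, pow_succ]
  field_simp

theorem BX_MV {a b : ℕ} (ha : 0 < a) (s : ℝ) (hs : 0 < s) (i j : ℕ) :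
    2 ^ (i + 1) / (a : ℝ) * (w a * ((Nat.gcd a b : ℝ) / (s * 2 ^ j)))
      = MV a b s * (2 : ℝ) ^ ((i : ℝ) - (j : ℝ)) := by
  have hg : 0 < Nat.gcd a b := Nat.gcd_pos_of_pos_left _ ha
  have h1 : (q1 a b : ℝ) * (Nat.gcd a b : ℝ) = a := by
    exact_mod_cast Vale.Agent.P028EV.q1_mul a b
  have h2 : (0 : ℝ) < q1 a b := by
    rcases (Nat.cast_nonneg (α := ℝ) (q1 a b)).eq_or_lt with h | h
    · rw [← h, zero_mul] at h1
      have : (a : ℝ) ≠ 0 := by positivity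
      exact absurd h1.symm this
    · exact h
  have hg' : (0 : ℝ) < Nat.gcd a b := by exact_mod_cast hg
  rw [MV, Real.rpow_sub two_pos, Real.rpow_natCast, Real.rpow_natCast, ← h1, pow_succ]
  field_simp

theorem bx1 (γ : ℝ) (ψ : ℕ → ℝ) (hψ : ∀ q, 0 ≤ ψ q) (s : ℝ) (V W : Finset ℕ) (a b i j : ℕ) :
    eij γ ψ s V W a b i j ≤ (∑ q ∈ V with Nat.log 2 q = i, mu ψ q) *
      (∑ r ∈ W with Nat.log 2 r = j, mu ψ r) :=
  BX_eij (mu ψ) (mu ψ) (BX_mu_nonneg hψ) (BX_mu_nonneg hψ) fun q _ _ r _ _ _ =>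
    BX_Ks (mul_nonneg (BX_mu_nonneg hψ q) (BX_mu_nonneg hψ r)) fun _ => le_rfl

theorem bx2 (γ : ℝ) (ψ : ℕ → ℝ) (hψ : ∀ q, 0 ≤ ψ q) (s : ℝ) (hs : 0 < s) (V W : Finset ℕ)
    (a b i j : ℕ) (ha : 0 < a) (hb : 0 < b) (hV : ∀ q ∈ V, 0 < q ∧ a ∣ q)
    (hW : ∀ r ∈ W, 0 < r ∧ b ∣ r) :
    eij γ ψ s V W a b i j ≤ (∑ q ∈ V with Nat.log 2 q = i, mu ψ q) * MW a b s *
      (2 : ℝ) ^ ((j : ℝ) - (i : ℝ)) := by
  have hY : 0 ≤ w b * ((Nat.gcd a b : ℝ) / (s * 2 ^ i)) :=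
    mul_nonneg (BX_w_nonneg b) (by positivity)
  refine le_trans (BX_eij (mu ψ) (fun _ => w b * ((Nat.gcd a b : ℝ) / (s * 2 ^ i)))
    (BX_mu_nonneg hψ) (fun _ => hY) ?_) ?_
  · intro q hq hi r hr hj hg
    exact BX_Ks (mul_nonneg (BX_mu_nonneg hψ q) hY) fun hD =>
      mul_le_mul_of_nonneg_left
        (BX_mur hψ hs (hW r hr).1 (hW r hr).2 (hV q hq).1 hi hg hD) (BX_mu_nonneg hψ q)
  · rw [Finset.sum_const, nsmul_eq_mul, mul_assoc, ← BX_MW ha hb s hs i j]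
    exact mul_le_mul_of_nonneg_left (mul_le_mul_of_nonneg_right (BX_card hb hW) hY)
      (Finset.sum_nonneg fun q _ => BX_mu_nonneg hψ q)

theorem bx3 (γ : ℝ) (ψ : ℕ → ℝ) (hψ : ∀ q, 0 ≤ ψ q) (s : ℝ) (hs : 0 < s) (V W : Finset ℕ)
    (a b i j : ℕ) (ha : 0 < a) (hb : 0 < b) (hV : ∀ q ∈ V, 0 < q ∧ a ∣ q)
    (hW : ∀ r ∈ W, 0 < r ∧ b ∣ r) :
    eij γ ψ s V W a b i j ≤ (∑ r ∈ W with Nat.log 2 r = j, mu ψ r) * MV a b s *
      (2 : ℝ) ^ ((i : ℝ) - (j : ℝ)) := by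
  have hX : 0 ≤ w a * ((Nat.gcd a b : ℝ) / (s * 2 ^ j)) :=
    mul_nonneg (BX_w_nonneg a) (by positivity)
  refine le_trans (BX_eij (fun _ => w a * ((Nat.gcd a b : ℝ) / (s * 2 ^ j))) (mu ψ)
    (fun _ => hX) (BX_mu_nonneg hψ) ?_) ?_
  · intro q hq hi r hr hj hg
    exact BX_Ks (mul_nonneg hX (BX_mu_nonneg hψ r)) fun hD =>
      mul_le_mul_of_nonneg_right
        (BX_muq hψ hs (hV q hq).1 (hV q hq).2 (hW r hr).1 hj hg hD) (BX_mu_nonneg hψ r)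
  · rw [Finset.sum_const, nsmul_eq_mul, mul_assoc (∑ r ∈ W with Nat.log 2 r = j, mu ψ r),
      ← BX_MV ha s hs i j, mul_comm]
    exact mul_le_mul_of_nonneg_left (mul_le_mul_of_nonneg_right (BX_card ha hV) hX)
      (Finset.sum_nonneg fun q _ => BX_mu_nonneg hψ q)

theorem bx4 (γ : ℝ) (ψ : ℕ → ℝ) (hψ : ∀ q, 0 ≤ ψ q) (s : ℝ) (hs : 0 < s) (V W : Finset ℕ)
    (a b i j : ℕ) (ha : 0 < a) (hb : 0 < b) (hV : ∀ q ∈ V, 0 < q ∧ a ∣ q)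
    (hW : ∀ r ∈ W, 0 < r ∧ b ∣ r) :
    eij γ ψ s V W a b i j ≤ MV a b s * MW a b s := by
  have hX : 0 ≤ w a * ((Nat.gcd a b : ℝ) / (s * 2 ^ j)) :=
    mul_nonneg (BX_w_nonneg a) (by positivity)
  have hY : 0 ≤ w b * ((Nat.gcd a b : ℝ) / (s * 2 ^ i)) :=
    mul_nonneg (BX_w_nonneg b) (by positivity)
  refine le_trans (BX_eij (fun _ => w a * ((Nat.gcd a b : ℝ) / (s * 2 ^ j)))
    (fun _ => w b * ((Nat.gcd a b : ℝ) / (s * 2 ^ i))) (fun _ => hX) (fun _ => hY) ?_) ?_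
  · intro q hq hi r hr hj hg
    exact BX_Ks (mul_nonneg hX hY) fun hD =>
      mul_le_mul (BX_muq hψ hs (hV q hq).1 (hV q hq).2 (hW r hr).1 hj hg hD)
        (BX_mur hψ hs (hW r hr).1 (hW r hr).2 (hV q hq).1 hi hg hD)
        (BX_mu_nonneg hψ r) hX
  · rw [Finset.sum_const, nsmul_eq_mul, Finset.sum_const, nsmul_eq_mul]
    have h1 := mul_le_mul_of_nonneg_right (BX_card ha hV (j := i)) hX
    have h2 := mul_le_mul_of_nonneg_right (BX_card hb hW (j := j)) hY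
    rw [BX_MV ha s hs i j] at h1
    rw [BX_MW ha hb s hs i j] at h2
    have h3 := mul_le_mul h1 h2 (mul_nonneg (Nat.cast_nonneg _) hY)
      (le_trans (mul_nonneg (Nat.cast_nonneg _) hX) h1)
    refine le_trans h3 (le_of_eq ?_)
    have h4 : (2 : ℝ) ^ ((i : ℝ) - (j : ℝ)) * (2 : ℝ) ^ ((j : ℝ) - (i : ℝ)) = 1 := by
      rw [← Real.rpow_add two_pos]
      simp
    calc MV a b s * (2 : ℝ) ^ ((i : ℝ) - (j : ℝ)) * (MW a b s * (2 : ℝ) ^ ((j : ℝ) - (i : ℝ)))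
        = MV a b s * MW a b s *
          ((2 : ℝ) ^ ((i : ℝ) - (j : ℝ)) * (2 : ℝ) ^ ((j : ℝ) - (i : ℝ))) := by ring
      _ = MV a b s * MW a b s := by rw [h4, mul_one]

end Vale.Agent.P028KM
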