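import Vale.Agent.P028KM.Defs


/-!
Module CNT: counting coincidences on a line. `N = ⌊P^(1/2)⌋`; Dirichlet for `al*γ`, `b` minimal:
`|b al γ - a| ≤ 1/(N+1)`, `1 ≤ b ≤ N`. `Dio` for `al*b` gives `b ≥ s`. If `0 < j < b/2` then
`‖j al γ‖ ≥ 1/(2b)`, so `n ↦ (⌊2(n-y)/b⌋, ⌊2b(al n γ - θ - t)⌋)` is injective.
-/

namespace Vale.Agent.P028KM

open Finset MeasureTheory
open Vale.Agent.P028EV (q1 r1 Del hh)

theorem cnt_sep (β : ℝ) (N b : ℕ) (hb : 0 < b) (hbN : b ≤ N) (a : ℤ)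
    (ha : |(b : ℝ) * β - a| ≤ 1 / ((N : ℝ) + 1))
    (hmin : ∀ k : ℕ, 0 < k → k < b → ¬ |(k : ℝ) * β - round ((k : ℝ) * β)| ≤ 1 / ((N : ℝ) + 1))
    (j : ℕ) (hj : 0 < j) (hjb : 2 * j < b) (t : ℤ) : 1 / (2 * (b : ℝ)) ≤ |(j : ℝ) * β - t| := by
  by_contra hcon
  push Not at hcon
  have hb0 : (0 : ℝ) < b := by exact_mod_cast hb
  have hN0 : (0 : ℝ) < (N : ℝ) + 1 := by positivity
  have hbN' : (b : ℝ) ≤ N := by exact_mod_cast hbN
  have hj0 : (0 : ℝ) < j := by exact_mod_cast hj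
  have hjb' : 2 * (j : ℝ) < b := by exact_mod_cast hjb
  have h1 : |(j : ℝ) * a - t * b| < 1 := by
    have e : (j : ℝ) * a - t * b = -((j : ℝ) * ((b : ℝ) * β - a)) + b * ((j : ℝ) * β - t) := by ring
    rw [e]
    have h2 : |(j : ℝ) * ((b : ℝ) * β - a)| ≤ j * (1 / ((N : ℝ) + 1)) := by
      rw [abs_mul, abs_of_pos hj0]
      exact mul_le_mul_of_nonneg_left ha hj0.le
    have h3 : |(b : ℝ) * ((j : ℝ) * β - t)| < 1 / 2 := by
      rw [abs_mul, abs_of_pos hb0]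
      calc (b : ℝ) * |(j : ℝ) * β - t| < b * (1 / (2 * b)) := mul_lt_mul_of_pos_left hcon hb0
        _ = 1 / 2 := by field_simp
    have h4 : (j : ℝ) * (1 / ((N : ℝ) + 1)) ≤ 1 / 2 := by
      rw [mul_one_div, div_le_iff₀ hN0]
      linarith
    calc |-((j : ℝ) * ((b : ℝ) * β - a)) + b * ((j : ℝ) * β - t)|
        ≤ |-((j : ℝ) * ((b : ℝ) * β - a))| + |(b : ℝ) * ((j : ℝ) * β - t)| := abs_add_le _ _
      _ < 1 / 2 + 1 / 2 := by
        rw [abs_neg]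
        linarith
      _ = 1 := by norm_num
  have h5 : (j : ℤ) * a - t * b = 0 := by
    have h6 : |((j : ℤ) * a - t * b : ℤ)| < 1 := by
      have : ((|((j : ℤ) * a - t * b : ℤ)| : ℤ) : ℝ) < 1 := by
        push_cast
        exact h1
      exact_mod_cast this
    exact Int.abs_lt_one_iff.mp h6
  have h5' : (j : ℝ) * a = t * b := by
    have : (((j : ℤ) * a - t * b : ℤ) : ℝ) = 0 := by
      rw [h5]
      simp
    push_cast at this
    linarith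
  have h7 : (j : ℝ) * β - t = (j / b : ℝ) * ((b : ℝ) * β - a) := by
    field_simp
    linarith
  have h8 : |(j : ℝ) * β - t| ≤ 1 / ((N : ℝ) + 1) := by
    rw [h7, abs_mul, abs_of_pos (div_pos hj0 hb0)]
    have h9 : (j / b : ℝ) ≤ 1 := by
      rw [div_le_one hb0]
      linarith
    calc (j / b : ℝ) * |(b : ℝ) * β - a| ≤ 1 * |(b : ℝ) * β - a| :=
          mul_le_mul_of_nonneg_right h9 (abs_nonneg _)
      _ ≤ 1 / ((N : ℝ) + 1) := by rw [one_mul]; exact ha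
  exact hmin j hj (by omega) (le_trans (round_le _ _) h8)

theorem cnt (c : ℝ) (hc : 0 < c) (m : ℕ) : ∃ C8 : ℝ, 1 ≤ C8 ∧ ∀ γ : ℝ, Dio c m γ →
    ∀ (al : ℕ) (P s y θ : ℝ), 1 ≤ al → 2 ≤ s → C8 * ((al : ℝ) * s) ^ (4 * m + 4) ≤ P →
    ∀ T : Finset ℕ, (∀ n ∈ T, y ≤ (n : ℝ) ∧ (n : ℝ) ≤ y + P) →
      (∀ n ∈ T, ∃ t : ℤ, |(al : ℝ) * n * γ - θ - t| < 2 / s) →
      (T.card : ℝ) ≤ C8 * P / s := by
  refine ⟨30 + 1 / c ^ 2, ?_, ?_⟩
  · have : 0 < 1 / c ^ 2 := by positivity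
    linarith
  intro γ hD al P s y θ hal hs hP T hT1 hT2
  have hal' : (1 : ℝ) ≤ al := by exact_mod_cast hal
  have has : (2 : ℝ) ≤ al * s := by nlinarith
  have has1 : (1 : ℝ) ≤ (al : ℝ) * s := by linarith
  have hpow1 : (1 : ℝ) ≤ ((al : ℝ) * s) ^ (4 * m + 4) := one_le_pow₀ has1
  have hci : 0 < 1 / c ^ 2 := by positivity
  have hP30 : 30 ≤ P := by nlinarith
  have hPc : (((al : ℝ) * s) ^ (2 * m + 2) / c) ^ 2 ≤ P := by
    have e : (((al : ℝ) * s) ^ (2 * m + 2) / c) ^ 2 = 1 / c ^ 2 * ((al : ℝ) * s) ^ (4 * m + 4) := by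
      rw [div_pow, ← pow_mul, show (2 * m + 2) * 2 = 4 * m + 4 by ring]
      ring
    rw [e]
    nlinarith
  have hsq : ((al : ℝ) * s) ^ (2 * m + 2) / c ≤ √P := Real.le_sqrt_of_sq_le hPc
  set N : ℕ := ⌊√P⌋₊ with hN
  have hN1 : √P < (N : ℝ) + 1 := Nat.lt_floor_add_one _
  have hN2 : (N : ℝ) ≤ √P := Nat.floor_le (Real.sqrt_nonneg _)
  have hsP1 : 1 ≤ √P := by
    rw [Real.one_le_sqrt]
    linarith
  have hsP : √P ≤ P := by
    have h := Real.sq_sqrt (show (0 : ℝ) ≤ P by linarith)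
    nlinarith
  have hNpos : 0 < N := Nat.floor_pos.mpr hsP1
  -- Dirichlet
  have hex : ∃ k : ℕ, 0 < k ∧ |(k : ℝ) * ((al : ℝ) * γ) - round ((k : ℝ) * ((al : ℝ) * γ))| ≤ 1 / ((N : ℝ) + 1) := by
    obtain ⟨k, hk, _, h⟩ := Real.exists_nat_abs_mul_sub_round_le ((al : ℝ) * γ) hNpos
    exact ⟨k, hk, h⟩
  classical
  set b : ℕ := Nat.find hex with hbdef
  have hbspec := Nat.find_spec hex
  rw [← hbdef] at hbspec
  obtain ⟨hb0, hbap⟩ := hbspec
  have hbN : b ≤ N := by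
    obtain ⟨k, hk, hkN, h⟩ := Real.exists_nat_abs_mul_sub_round_le ((al : ℝ) * γ) hNpos
    exact le_trans (Nat.find_min' hex ⟨hk, h⟩) hkN
  have hmin : ∀ k : ℕ, 0 < k → k < b →
      ¬ |(k : ℝ) * ((al : ℝ) * γ) - round ((k : ℝ) * ((al : ℝ) * γ))| ≤ 1 / ((N : ℝ) + 1) := by
    intro k hk hkb h
    exact Nat.find_min hex hkb ⟨hk, h⟩
  have hb0' : (0 : ℝ) < b := by exact_mod_cast hb0
  have hbN' : (b : ℝ) ≤ N := by exact_mod_cast hbN
  have hbP : (b : ℝ) ≤ P := le_trans hbN' (le_trans hN2 hsP)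
  have hs0 : 0 < s := by linarith
  -- b is at least s
  have hbs : s ≤ b := by
    by_contra hcon
    push Not at hcon
    have hpos : 0 < b * al := Nat.mul_pos hb0 hal
    have h1 := hD (b * al) hpos (round ((b : ℝ) * ((al : ℝ) * γ)))
    have h2 : c / ((b * al : ℕ) : ℝ) ^ m ≤ 1 / ((N : ℝ) + 1) := by
      refine le_trans h1 ?_
      have e : ((b * al : ℕ) : ℝ) * γ = (b : ℝ) * ((al : ℝ) * γ) := by
        push_cast
        ring
      rw [e]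
      exact hbap
    have hpos' : (0 : ℝ) < ((b * al : ℕ) : ℝ) := by exact_mod_cast hpos
    have h3 : c * ((N : ℝ) + 1) ≤ ((b * al : ℕ) : ℝ) ^ m := by
      rw [div_le_div_iff₀ (pow_pos hpos' m) (by positivity)] at h2
      linarith
    have h4 : ((al : ℝ) * s) ^ (2 * m + 2) < c * ((N : ℝ) + 1) := by
      have : ((al : ℝ) * s) ^ (2 * m + 2) / c < (N : ℝ) + 1 := lt_of_le_of_lt hsq hN1
      rw [div_lt_iff₀ hc] at this
      linarith
    have h5 : ((b * al : ℕ) : ℝ) ^ m ≤ ((al : ℝ) * s) ^ m := by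
      refine pow_le_pow_left₀ hpos'.le ?_ m
      push_cast
      nlinarith
    have h6 : ((al : ℝ) * s) ^ m ≤ ((al : ℝ) * s) ^ (2 * m + 2) := pow_le_pow_right₀ has1 (by omega)
    linarith
  choose! tt htt using hT2
  set f : ℕ → ℤ × ℤ := fun n => (⌊((n : ℝ) - y) * (2 / b)⌋, ⌊((al : ℝ) * n * γ - θ - tt n) * (2 * b)⌋) with hf
  have hmaps : ∀ n ∈ T, f n ∈ (Finset.Icc (0 : ℤ) ⌊P * (2 / b)⌋) ×ˢ
      (Finset.Icc ⌊-(2 / s) * (2 * b)⌋ ⌊(2 / s) * (2 * b)⌋) := by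
    intro n hn
    rw [Finset.mem_product, Finset.mem_Icc, Finset.mem_Icc]
    have h1 := hT1 n hn
    have h2 := htt n hn
    rw [abs_lt] at h2
    have hb2 : (0 : ℝ) ≤ 2 / b := by positivity
    have hb3 : (0 : ℝ) ≤ 2 * b := by positivity
    refine ⟨⟨?_, ?_⟩, ?_, ?_⟩
    · exact Int.floor_nonneg.mpr (mul_nonneg (by linarith) hb2)
    · exact Int.floor_le_floor (mul_le_mul_of_nonneg_right (by linarith) hb2)
    · exact Int.floor_le_floor (mul_le_mul_of_nonneg_right h2.1.le hb3)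
    · exact Int.floor_le_floor (mul_le_mul_of_nonneg_right h2.2.le hb3)
  have hlt : ∀ n ∈ T, ∀ n' ∈ T, n' < n → f n ≠ f n' := by
    intro n hn n' hn' hlt heq
    have h1 : ⌊((n : ℝ) - y) * (2 / b)⌋ = ⌊((n' : ℝ) - y) * (2 / b)⌋ := congrArg Prod.fst heq
    have h2 : ⌊((al : ℝ) * n * γ - θ - tt n) * (2 * b)⌋ = ⌊((al : ℝ) * n' * γ - θ - tt n') * (2 * b)⌋ :=
      congrArg Prod.snd heq
    have h3 := Int.abs_sub_lt_one_of_floor_eq_floor h1
    have h4 := Int.abs_sub_lt_one_of_floor_eq_floor h2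
    obtain ⟨j, rfl⟩ : ∃ j, n = n' + j := ⟨n - n', by omega⟩
    have hj : 0 < j := by omega
    have h5 : 2 * j < b := by
      have e : (((n' + j : ℕ) : ℝ) - y) * (2 / b) - ((n' : ℝ) - y) * (2 / b) = 2 * j / b := by
        push_cast
        ring
      rw [e, abs_of_nonneg (by positivity), div_lt_one hb0'] at h3
      exact_mod_cast h3
    have h6 := cnt_sep ((al : ℝ) * γ) N b hb0 hbN _ hbap hmin j hj h5 (tt (n' + j) - tt n')
    have e : ((al : ℝ) * ((n' + j : ℕ) : ℝ) * γ - θ - tt (n' + j)) * (2 * b) -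
        ((al : ℝ) * n' * γ - θ - tt n') * (2 * b) =
        ((j : ℝ) * ((al : ℝ) * γ) - ((tt (n' + j) - tt n' : ℤ) : ℝ)) * (2 * b) := by
      push_cast
      ring
    rw [e, abs_mul, abs_of_pos (show (0 : ℝ) < 2 * b by positivity)] at h4
    have h7 : 1 ≤ |(j : ℝ) * ((al : ℝ) * γ) - ((tt (n' + j) - tt n' : ℤ) : ℝ)| * (2 * b) := by
      calc (1 : ℝ) = 1 / (2 * (b : ℝ)) * (2 * b) := by field_simp
        _ ≤ _ := mul_le_mul_of_nonneg_right h6 (by positivity)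
    linarith
  have hinj : Set.InjOn f (T : Set ℕ) := by
    intro n hn n' hn' heq
    rcases lt_trichotomy n n' with h | h | h
    · exact absurd heq.symm (hlt n' hn' n hn h)
    · exact h
    · exact absurd heq (hlt n hn n' hn' h)
  have hcard := Finset.card_le_card_of_injOn f hmaps hinj
  rw [Finset.card_product, Int.card_Icc, Int.card_Icc] at hcard
  have hcard' : (T.card : ℝ) ≤ (((⌊P * (2 / b)⌋ + 1 - 0).toNat : ℕ) : ℝ) *
      (((⌊(2 / s) * (2 * b)⌋ + 1 - ⌊-(2 / s) * (2 * b)⌋).toNat : ℕ) : ℝ) := by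
    exact_mod_cast hcard
  have hA : (((⌊P * (2 / b)⌋ + 1 - 0).toNat : ℕ) : ℝ) ≤ 3 * P / b := by
    have h0 : (0 : ℤ) ≤ ⌊P * (2 / b)⌋ + 1 - 0 := by
      have : (0 : ℤ) ≤ ⌊P * (2 / b)⌋ := Int.floor_nonneg.mpr (by positivity)
      omega
    have h1 : (((⌊P * (2 / b)⌋ + 1 - 0).toNat : ℕ) : ℝ) = ((⌊P * (2 / b)⌋ + 1 - 0 : ℤ) : ℝ) := by
      rw [← Int.cast_natCast, Int.toNat_of_nonneg h0]
    rw [h1]
    push_cast
    have h2 : (⌊P * (2 / b)⌋ : ℝ) ≤ P * (2 / b) := Int.floor_le _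
    have h3 : 1 ≤ P / b := by
      rw [le_div_iff₀ hb0']
      linarith
    have h4 : P * (2 / b) = 2 * (P / b) := by ring
    have h5 : 3 * P / b = 3 * (P / b) := by ring
    rw [h5]
    linarith
  have hB : (((⌊(2 / s) * (2 * b)⌋ + 1 - ⌊-(2 / s) * (2 * b)⌋).toNat : ℕ) : ℝ) ≤ 10 * b / s := by
    have h0 : (0 : ℤ) ≤ ⌊(2 / s) * (2 * b)⌋ + 1 - ⌊-(2 / s) * (2 * b)⌋ := by
      have : ⌊-(2 / s) * (2 * (b : ℝ))⌋ ≤ ⌊(2 / s) * (2 * (b : ℝ))⌋ := by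
        refine Int.floor_le_floor (mul_le_mul_of_nonneg_right ?_ (by positivity))
        have : 0 < 2 / s := by positivity
        linarith
      omega
    have h1 : (((⌊(2 / s) * (2 * b)⌋ + 1 - ⌊-(2 / s) * (2 * b)⌋).toNat : ℕ) : ℝ) =
        ((⌊(2 / s) * (2 * b)⌋ + 1 - ⌊-(2 / s) * (2 * b)⌋ : ℤ) : ℝ) := by
      rw [← Int.cast_natCast, Int.toNat_of_nonneg h0]
    rw [h1]
    push_cast
    have h2 : (⌊(2 / s) * (2 * (b : ℝ))⌋ : ℝ) ≤ (2 / s) * (2 * b) := Int.floor_le _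
    have h3 : -(2 / s) * (2 * (b : ℝ)) - 1 < (⌊-(2 / s) * (2 * (b : ℝ))⌋ : ℝ) := Int.sub_one_lt_floor _
    have h4 : 1 ≤ b / s := by
      rw [le_div_iff₀ hs0]
      linarith
    have h5 : (2 / s) * (2 * (b : ℝ)) = 4 * (b / s) := by ring
    have h6 : -(2 / s) * (2 * (b : ℝ)) = -(4 * (b / s)) := by ring
    have h7 : 10 * b / s = 10 * (b / s) := by ring
    rw [h7]
    rw [h5] at h2 ⊢
    rw [h6] at h3 ⊢
    linarith
  have hfin : (T.card : ℝ) ≤ 30 * P / s := by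
    calc (T.card : ℝ) ≤ _ := hcard'
      _ ≤ (3 * P / b) * (10 * b / s) := by
        refine mul_le_mul hA hB (Nat.cast_nonneg _) (by positivity)
      _ = 30 * P / s := by
        field_simp
        ring
  refine le_trans hfin ?_
  rw [div_le_div_iff_of_pos_right hs0]
  nlinarith

end Vale.Agent.P028KM
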