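import Vale.Agent.P028KM.Defs
import Vale.Agent.P028KM.CNT
import Vale.Agent.P028KM.BX

/-!
Module BX5: box bound with saving `1/s`. Let `g = gcd a b`, `al = q1 a b = a/g`. If the box has an
edge `(q,r)`: `u = q1 q r = al q'` (`q = a q'`), `r1 q r ≤ u`, `ψ ≤ X^(-ε)` so
`1/(2s) < Dm ≤ u X^(-ε)`, `u ≥ X^(ε-c5)/2`, `q' ≥ X^(ε-c5-c4)/2`, so `P := 2^i/a ≥ X^(ε-c5-c4)/4
≥ C8 (al s)^(4m+4)` for `X` large (`(c4+c5)(4m+4) < ε/3`). For fixed `r` the `q'` lie in
`[P, 2P]` and satisfy `|al q' γ - γ r1 - t| < Del ≤ 2 Dm ≤ 2/s`: `cnt` gives at most `C8 P/s`.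
At most `2^(j+1)/b` values of `r`; each term is `≤ w a g/(s 2^j) * w b g/(s 2^i)`.
-/

namespace Vale.Agent.P028KM

open Finset MeasureTheory
open Vale.Agent.P028EV (q1 r1 Del hh)

theorem bx5_w_nonneg (q : ℕ) : 0 ≤ w q := by
  unfold w
  positivity

/-- the exponents -/
theorem bx5_exp (m : ℕ) (ε : ℝ) (hε : 0 < ε) :
    ε / 2 + (c4 ε m + c5 ε m) * (4 * m + 5) ≤ ε := by
  unfold c5 c4
  have hm : (0 : ℝ) < m + 1 := by positivity
  have e : (ε / (16 * (m + 1)) + ε / (16 * ((m : ℝ) + 1)) / 1000) * (4 * m + 5) =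
      ε * ((1001 / 16000) * ((4 * m + 5) / (m + 1))) := by
    field_simp
    ring
  rw [e]
  have h : (4 * (m : ℝ) + 5) / (m + 1) ≤ 5 := by
    rw [div_le_iff₀ hm]
    have : (0 : ℝ) ≤ m := Nat.cast_nonneg m
    linarith
  nlinarith

theorem bx5_card_mult (b j : ℕ) (hb : 0 < b) (W : Finset ℕ) (hW : ∀ r ∈ W, b ∣ r)
    (hW0 : ∀ r ∈ W, 0 < r) :
    ((W.filter (fun r => Nat.log 2 r = j)).card : ℝ) ≤ 2 * 2 ^ j / b := by
  have hb' : (0 : ℝ) < b := by exact_mod_cast hb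
  have h1 : (W.filter (fun r => Nat.log 2 r = j)).card ≤ (Finset.Icc 1 (2 ^ (j + 1) / b)).card := by
    refine Finset.card_le_card_of_injOn (fun r => r / b) ?_ ?_
    · intro r hr
      have hr' := Finset.mem_filter.mp hr
      obtain ⟨k, hk⟩ := hW r hr'.1
      have h0 := hW0 r hr'.1
      have hlt : r < 2 ^ (j + 1) := by
        rw [← hr'.2]
        exact Nat.lt_pow_succ_log_self (by norm_num) r
      show r / b ∈ Finset.Icc 1 (2 ^ (j + 1) / b)
      rw [Finset.mem_Icc]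
      refine ⟨?_, Nat.div_le_div_right hlt.le⟩
      exact Nat.div_pos (Nat.le_of_dvd h0 ⟨k, hk⟩) hb
    · intro r hr r' hr' he
      have h2 := hW r (Finset.mem_filter.mp hr).1
      have h3 := hW r' (Finset.mem_filter.mp hr').1
      have he' : r / b = r' / b := he
      calc r = r / b * b := (Nat.div_mul_cancel h2).symm
        _ = r' / b * b := by rw [he']
        _ = r' := Nat.div_mul_cancel h3
  rw [Nat.card_Icc, Nat.add_sub_cancel] at h1
  calc ((W.filter (fun r => Nat.log 2 r = j)).card : ℝ) ≤ ((2 ^ (j + 1) / b : ℕ) : ℝ) := by exact_mod_cast h1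
    _ ≤ ((2 ^ (j + 1) : ℕ) : ℝ) / b := Nat.cast_div_le
    _ = 2 * 2 ^ j / b := by
      push_cast
      ring

/-- an edge forces the box to be long -/
theorem bx5_long (c : ℝ) (m : ℕ) (ε : ℝ) (hε : 0 < ε) (C8 : ℝ) (hC8 : 1 ≤ C8) (X γ : ℝ) (ψ : ℕ → ℝ)
    (S : Finset ℕ) (hX2 : 2 ≤ X) (hX : (4 * C8) ^ (2 / ε) ≤ X) (hB : Blk c m ε X γ ψ S) (s : ℝ) (hs : 2 ≤ s)
    (hsX : s ≤ X ^ c5 ε m) (al : ℕ) (hal : 1 ≤ al) (halX : (al : ℝ) ≤ X ^ c4 ε m) (q r k : ℕ) (P : ℝ)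
    (hq : q ∈ S) (hr : r ∈ S) (hrq : r < q) (hu : q1 q r = al * k) (hkP : (k : ℝ) ≤ 2 * P)
    (hD : 1 / (2 * s) < Dm ψ q r) : C8 * ((al : ℝ) * s) ^ (4 * m + 4) ≤ P := by
  have hX0 : 0 < X := by linarith
  have hX1 : 1 ≤ X := by linarith
  have hs0 : 0 < s := by linarith
  have hψ : ∀ n ∈ S, ψ n ≤ X ^ (-ε) := by
    intro n hn
    refine le_trans (hB.psi1 n hn) ?_
    exact Real.rpow_le_rpow_of_nonpos hX0 (hB.lo n hn) (by linarith)
  have hr1q1 : (r1 q r : ℝ) ≤ (q1 q r : ℝ) := by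
    have : r1 q r ≤ q1 q r := Nat.div_le_div_right hrq.le
    exact_mod_cast this
  have hq1 : (0 : ℝ) ≤ (q1 q r : ℝ) := Nat.cast_nonneg _
  have hXe : 0 < X ^ (-ε) := Real.rpow_pos_of_pos hX0 _
  have hDm : Dm ψ q r ≤ (q1 q r : ℝ) * X ^ (-ε) := by
    unfold Dm
    refine max_le ?_ ?_
    · calc (r1 q r : ℝ) * ψ q ≤ (q1 q r : ℝ) * ψ q := mul_le_mul_of_nonneg_right hr1q1 (hB.psi0 q)
        _ ≤ _ := mul_le_mul_of_nonneg_left (hψ q hq) hq1
    · exact mul_le_mul_of_nonneg_left (hψ r hr) hq1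
  have h1 : 1 / (2 * s) < (q1 q r : ℝ) * X ^ (-ε) := lt_of_lt_of_le hD hDm
  have h2 : X ^ ε < 2 * s * (q1 q r : ℝ) := by
    have h3 : (1 : ℝ) < 2 * s * ((q1 q r : ℝ) * X ^ (-ε)) := by
      rw [div_lt_iff₀ (by positivity)] at h1
      linarith
    have h4 : X ^ ε * X ^ (-ε) = 1 := by
      rw [← Real.rpow_add hX0, add_neg_cancel, Real.rpow_zero]
    have h5 : 0 < X ^ ε := Real.rpow_pos_of_pos hX0 _
    have h6 : X ^ ε * 1 < X ^ ε * (2 * s * ((q1 q r : ℝ) * X ^ (-ε))) := mul_lt_mul_of_pos_left h3 h5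
    have h7 : X ^ ε * (2 * s * ((q1 q r : ℝ) * X ^ (-ε))) = 2 * s * (q1 q r : ℝ) * (X ^ ε * X ^ (-ε)) := by ring
    rw [h7, h4] at h6
    linarith
  set κ := c4 ε m + c5 ε m with hκ
  have hX4 : 0 < X ^ c4 ε m := Real.rpow_pos_of_pos hX0 _
  have hX5 : 0 < X ^ c5 ε m := Real.rpow_pos_of_pos hX0 _
  have halk : (q1 q r : ℝ) = al * k := by
    rw [hu]
    push_cast
    rfl
  have hk0 : (0 : ℝ) ≤ k := Nat.cast_nonneg k
  have hal0 : (0 : ℝ) < al := by exact_mod_cast hal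
  have hals : (al : ℝ) * s ≤ X ^ κ := by
    rw [hκ, Real.rpow_add hX0]
    exact mul_le_mul halX hsX hs0.le hX4.le
  have h8 : X ^ ε < 4 * X ^ κ * P := by
    calc X ^ ε < 2 * s * (q1 q r : ℝ) := h2
      _ = 2 * ((al : ℝ) * s) * k := by rw [halk]; ring
      _ ≤ 2 * X ^ κ * (2 * P) := by
        refine mul_le_mul (by linarith) hkP hk0 ?_
        have : 0 < X ^ κ := Real.rpow_pos_of_pos hX0 _
        positivity
      _ = 4 * X ^ κ * P := by ring
  have h9 : ((al : ℝ) * s) ^ (4 * m + 4) ≤ X ^ (κ * (4 * m + 4)) := by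
    calc ((al : ℝ) * s) ^ (4 * m + 4) ≤ (X ^ κ) ^ (4 * m + 4) := pow_le_pow_left₀ (by positivity) hals _
      _ = X ^ (κ * (4 * m + 4)) := by
        rw [← Real.rpow_natCast, ← Real.rpow_mul hX0.le]
        push_cast
        rfl
  have h10 : 4 * C8 ≤ X ^ (ε / 2) := by
    have h11 : ((4 * C8) ^ (2 / ε)) ^ (ε / 2) ≤ X ^ (ε / 2) :=
      Real.rpow_le_rpow (by positivity) hX (by positivity)
    rw [← Real.rpow_mul (by positivity)] at h11
    have h12 : 2 / ε * (ε / 2) = 1 := by field_simp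
    rw [h12, Real.rpow_one] at h11
    exact h11
  have h13 : 4 * X ^ κ * (C8 * ((al : ℝ) * s) ^ (4 * m + 4)) ≤ X ^ ε := by
    have hκ0 : 0 < X ^ κ := Real.rpow_pos_of_pos hX0 _
    calc 4 * X ^ κ * (C8 * ((al : ℝ) * s) ^ (4 * m + 4))
        = (4 * C8) * (X ^ κ * ((al : ℝ) * s) ^ (4 * m + 4)) := by ring
      _ ≤ X ^ (ε / 2) * (X ^ κ * X ^ (κ * (4 * m + 4))) := by
        refine mul_le_mul h10 (mul_le_mul_of_nonneg_left h9 hκ0.le) (by positivity) (by positivity)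
      _ = X ^ (ε / 2 + κ * (4 * m + 5)) := by
        rw [← Real.rpow_add hX0, ← Real.rpow_add hX0]
        congr 1
        ring
      _ ≤ X ^ ε := Real.rpow_le_rpow_of_exponent_le hX1 (bx5_exp m ε hε)
  have hκ0 : 0 < 4 * X ^ κ := by
    have : 0 < X ^ κ := Real.rpow_pos_of_pos hX0 _
    positivity
  have h14 : 4 * X ^ κ * (C8 * ((al : ℝ) * s) ^ (4 * m + 4)) ≤ 4 * X ^ κ * P := le_trans h13 h8.le
  exact le_of_mul_le_mul_left h14 hκ0

theorem bx5 (c : ℝ) (hc : 0 < c) (m : ℕ) (ε : ℝ) (hε : 0 < ε) (hε1 : ε ≤ 1) :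
    ∃ C : ℝ, 1 ≤ C ∧ ∃ X0 : ℝ, 2 ≤ X0 ∧ ∀ (X γ : ℝ) (ψ : ℕ → ℝ) (S : Finset ℕ), X0 ≤ X →
    Blk c m ε X γ ψ S → ∀ s : ℝ, 2 ≤ s → s ≤ X ^ c5 ε m → ∀ (V W : Finset ℕ) (a b i j : ℕ),
    0 < a → 0 < b → V ⊆ S → W ⊆ S → (∀ q ∈ V, a ∣ q) → (∀ r ∈ W, b ∣ r) →
    (q1 a b : ℝ) * (r1 a b : ℝ) ≤ X ^ c4 ε m →
    eij γ ψ s V W a b i j ≤ C * (MV a b s * MW a b s) / s := by
  obtain ⟨C8, hC8, hcnt⟩ := cnt c hc m
  refine ⟨C8, hC8, max 2 ((4 * C8) ^ (2 / ε)), le_max_left _ _, ?_⟩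
  intro X γ ψ S hX hB s hs hsX V W a b i j ha hb hVS hWS hVa hWb hab
  have hX2 : 2 ≤ X := le_trans (le_max_left _ _) hX
  have hX8 : (4 * C8) ^ (2 / ε) ≤ X := le_trans (le_max_right _ _) hX
  have hX0 : 0 < X := by linarith
  have hs0 : 0 < s := by linarith
  have hpos : ∀ n ∈ S, 0 < n := by
    intro n hn
    have := hB.lo n hn
    have h : (0 : ℝ) < n := by linarith
    exact_mod_cast h
  set g := Nat.gcd a b with hg
  have hg0 : 0 < g := Nat.gcd_pos_of_pos_left _ ha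
  have hg0' : (0 : ℝ) < g := by exact_mod_cast hg0
  have ha0' : (0 : ℝ) < a := by exact_mod_cast ha
  have hb0' : (0 : ℝ) < b := by exact_mod_cast hb
  have hqa : q1 a b * g = a := Vale.Agent.P028EV.q1_mul a b
  have hrb : r1 a b * g = b := Vale.Agent.P028EV.r1_mul a b
  have hqa1 : 1 ≤ q1 a b := by
    rcases Nat.eq_zero_or_pos (q1 a b) with h | h
    · rw [h, zero_mul] at hqa
      omega
    · exact h
  have hrb1 : 1 ≤ r1 a b := by
    rcases Nat.eq_zero_or_pos (r1 a b) with h | h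
    · rw [h, zero_mul] at hrb
      omega
    · exact h
  have hqaR : (q1 a b : ℝ) = a / g := by
    rw [eq_div_iff hg0'.ne']
    exact_mod_cast hqa
  have hrbR : (r1 a b : ℝ) = b / g := by
    rw [eq_div_iff hg0'.ne']
    exact_mod_cast hrb
  have halX : (q1 a b : ℝ) ≤ X ^ c4 ε m := by
    have h1 : (1 : ℝ) ≤ r1 a b := by exact_mod_cast hrb1
    have h2 : (0 : ℝ) ≤ q1 a b := Nat.cast_nonneg _
    nlinarith
  set P : ℝ := 2 ^ i / a with hP
  have hP0 : 0 < P := by positivity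
  set M : ℝ := (w a * (g / (s * 2 ^ j))) * (w b * (g / (s * 2 ^ i))) with hM
  have hM0 : 0 ≤ M := by
    have := bx5_w_nonneg a
    have := bx5_w_nonneg b
    positivity
  set V' := V.filter (fun q => Nat.log 2 q = i) with hV'
  set W' := W.filter (fun r => Nat.log 2 r = j) with hW'
  have hV2 : ∀ q ∈ V', q ∈ S ∧ a ∣ q ∧ (2 : ℝ) ^ i ≤ q ∧ (q : ℝ) < 2 * 2 ^ i := by
    intro q hq
    have hq' := Finset.mem_filter.mp hq
    have hS := hVS hq'.1
    have h0 := hpos q hS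
    refine ⟨hS, hVa q hq'.1, ?_, ?_⟩
    · have : 2 ^ i ≤ q := by
        rw [← hq'.2]
        exact Nat.pow_log_le_self 2 h0.ne'
      exact_mod_cast this
    · have : q < 2 ^ (i + 1) := by
        rw [← hq'.2]
        exact Nat.lt_pow_succ_log_self (by norm_num) q
      have h : (q : ℝ) < 2 ^ (i + 1) := by exact_mod_cast this
      rw [pow_succ] at h
      linarith
  have hW2 : ∀ r ∈ W', r ∈ S ∧ b ∣ r ∧ (2 : ℝ) ^ j ≤ r := by
    intro r hr
    have hr' := Finset.mem_filter.mp hr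
    have hS := hWS hr'.1
    have h0 := hpos r hS
    refine ⟨hS, hWb r hr'.1, ?_⟩
    have : 2 ^ j ≤ r := by
      rw [← hr'.2]
      exact Nat.pow_log_le_self 2 h0.ne'
    exact_mod_cast this
  -- term bound
  have hterm : ∀ q ∈ V', ∀ r ∈ W', Nat.gcd q r = g → Dm ψ q r ≤ 1 / s → mu ψ q * mu ψ r ≤ M := by
    intro q hq r hr hgcd hD
    obtain ⟨hqS, haq, hq1, hq2⟩ := hV2 q hq
    obtain ⟨hrS, hbr, hr1⟩ := hW2 r hr
    have h1 : (r1 q r : ℝ) * ψ q ≤ 1 / s := le_trans (le_max_left _ _) hD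
    have h2 : (q1 q r : ℝ) * ψ r ≤ 1 / s := le_trans (le_max_right _ _) hD
    have e1 : (q1 q r : ℝ) = q / g := by
      rw [eq_div_iff hg0'.ne', ← hgcd]
      exact_mod_cast Vale.Agent.P028EV.q1_mul q r
    have e2 : (r1 q r : ℝ) = r / g := by
      rw [eq_div_iff hg0'.ne', ← hgcd]
      exact_mod_cast Vale.Agent.P028EV.r1_mul q r
    rw [e2] at h1
    rw [e1] at h2
    have hψq := hB.psi0 q
    have hψr := hB.psi0 r
    have h2j : (0 : ℝ) < 2 ^ j := by positivity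
    have h2i : (0 : ℝ) < 2 ^ i := by positivity
    have h3 : ψ q ≤ g / (s * 2 ^ j) := by
      rw [le_div_iff₀ (by positivity)]
      have h4 : (2 : ℝ) ^ j / g * ψ q ≤ 1 / s :=
        le_trans (mul_le_mul_of_nonneg_right (div_le_div_of_nonneg_right hr1 hg0'.le) hψq) h1
      have h5 : (2 : ℝ) ^ j / g * ψ q * (g * s) ≤ 1 / s * (g * s) := mul_le_mul_of_nonneg_right h4 (by positivity)
      have h6 : (2 : ℝ) ^ j / g * ψ q * (g * s) = ψ q * (s * 2 ^ j) := by field_simp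
      have h7 : 1 / s * (g * s) = g := by field_simp
      rw [h6, h7] at h5
      exact h5
    have h3' : ψ r ≤ g / (s * 2 ^ i) := by
      rw [le_div_iff₀ (by positivity)]
      have h4 : (2 : ℝ) ^ i / g * ψ r ≤ 1 / s :=
        le_trans (mul_le_mul_of_nonneg_right (div_le_div_of_nonneg_right hq1 hg0'.le) hψr) h2
      have h5 : (2 : ℝ) ^ i / g * ψ r * (g * s) ≤ 1 / s * (g * s) := mul_le_mul_of_nonneg_right h4 (by positivity)
      have h6 : (2 : ℝ) ^ i / g * ψ r * (g * s) = ψ r * (s * 2 ^ i) := by field_simp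
      have h7 : 1 / s * (g * s) = g := by field_simp
      rw [h6, h7] at h5
      exact h5
    have hwq := w_le_of_dvd a q (hpos q hqS) haq
    have hwr := w_le_of_dvd b r (hpos r hrS) hbr
    have hwq0 := bx5_w_nonneg q
    have hwr0 := bx5_w_nonneg r
    have hwa0 := bx5_w_nonneg a
    have hwb0 := bx5_w_nonneg b
    unfold mu
    have m1 : w q * ψ q ≤ w a * (g / (s * 2 ^ j)) := mul_le_mul hwq h3 hψq hwa0
    have m2 : w r * ψ r ≤ w b * (g / (s * 2 ^ i)) := mul_le_mul hwr h3' hψr hwb0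
    exact mul_le_mul m1 m2 (mul_nonneg hwr0 hψr) (by positivity)
  -- counting for fixed r
  classical
  have hcount : ∀ r ∈ W', ((V'.filter (fun q => Nat.gcd q r = g ∧ r < q ∧ CO γ ψ q r ∧ 1 / (2 * s) < Dm ψ q r ∧
      Dm ψ q r ≤ 1 / s)).card : ℝ) ≤ C8 * P / s := by
    intro r hr
    set T0 := V'.filter (fun q => Nat.gcd q r = g ∧ r < q ∧ CO γ ψ q r ∧ 1 / (2 * s) < Dm ψ q r ∧
      Dm ψ q r ≤ 1 / s) with hT0
    obtain ⟨hrS, hbr, hr1⟩ := hW2 r hr
    have hdata : ∀ q ∈ T0, q ∈ S ∧ q = a * (q / a) ∧ q1 q r = q1 a b * (q / a) ∧ P ≤ ((q / a : ℕ) : ℝ) ∧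
        ((q / a : ℕ) : ℝ) ≤ 2 * P ∧ Nat.gcd q r = g ∧ r < q ∧ CO γ ψ q r ∧ 1 / (2 * s) < Dm ψ q r ∧
        Dm ψ q r ≤ 1 / s := by
      intro q hq
      obtain ⟨hqV, hgcd, hrq, hco, hD1, hD2⟩ := Finset.mem_filter.mp hq
      obtain ⟨hqS, haq, hq1, hq2⟩ := hV2 q hqV
      have e0 : q = a * (q / a) := (Nat.mul_div_cancel' haq).symm
      have e0R : (q : ℝ) = a * ((q / a : ℕ) : ℝ) := by exact_mod_cast e0
      refine ⟨hqS, e0, ?_, ?_, ?_, hgcd, hrq, hco, hD1, hD2⟩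
      · have h1 : q1 q r * g = q := by
          rw [← hgcd]
          exact Vale.Agent.P028EV.q1_mul q r
        have h2 : q1 a b * (q / a) * g = q := by
          calc q1 a b * (q / a) * g = (q1 a b * g) * (q / a) := by ring
            _ = a * (q / a) := by rw [hqa]
            _ = q := e0.symm
        exact Nat.eq_of_mul_eq_mul_right hg0 (h1.trans h2.symm)
      · rw [hP, div_le_iff₀ ha0']
        rw [e0R] at hq1
        linarith
      · rw [e0R] at hq2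
        have h3 : 2 * P = 2 * 2 ^ i / a := by rw [hP]; ring
        rw [h3, le_div_iff₀ ha0']
        linarith
    rcases T0.eq_empty_or_nonempty with hemp | ⟨q0, hq0⟩
    · rw [hemp]
      simp only [Finset.card_empty, Nat.cast_zero]
      positivity
    · obtain ⟨hqS, _, hu, _, hk2, _, hrq, _, hD1, _⟩ := hdata q0 hq0
      have hlong := bx5_long c m ε hε C8 hC8 X γ ψ S hX2 hX8 hB s hs hsX (q1 a b) hqa1 halX q0 r (q0 / a) P
        hqS hrS hrq hu hk2 hD1
      have hc2 := hcnt γ hB.dio (q1 a b) P s P (γ * ((r / g : ℕ) : ℝ)) hqa1 hs hlong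
        (T0.image (fun q => q / a)) ?_ ?_
      · have hcard : (T0.image (fun q => q / a)).card = T0.card := by
          refine Finset.card_image_of_injOn ?_
          intro q hq q' hq' he
          have h1 := (hdata q hq).2.1
          have h2 := (hdata q' hq').2.1
          have he' : q / a = q' / a := he
          rw [h1, h2, he']
        rw [hcard] at hc2
        exact hc2
      · intro n hn
        obtain ⟨q, hq, rfl⟩ := Finset.mem_image.mp hn
        obtain ⟨_, _, _, h1, h2, _⟩ := hdata q hq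
        exact ⟨h1, by linarith⟩
      · intro n hn
        obtain ⟨q, hq, rfl⟩ := Finset.mem_image.mp hn
        obtain ⟨_, _, hu', _, _, hgcd, _, hco, _, hD2⟩ := hdata q hq
        obtain ⟨_, t, ht⟩ := hco
        refine ⟨t, lt_of_lt_of_le (b := Del ψ q r) ?_ ?_⟩
        · have e1 : hh q r = ((r / g : ℕ) : ℤ) - ((q1 a b * (q / a) : ℕ) : ℤ) := by
            unfold hh
            rw [hu']
            have : r1 q r = r / g := by
              rw [← hgcd]
              rfl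
            rw [this]
          rw [e1] at ht
          push_cast at ht ⊢
          have e2 : (q1 a b : ℝ) * ((q / a : ℕ) : ℝ) * γ - γ * ((r / g : ℕ) : ℝ) - t =
              -((t : ℝ) + γ * (((r / g : ℕ) : ℝ) - (q1 a b : ℝ) * ((q / a : ℕ) : ℝ))) := by ring
          rw [e2, abs_neg]
          exact ht
        · have h1 : (r1 q r : ℝ) * ψ q ≤ Dm ψ q r := le_max_left _ _
          have h2 : (q1 q r : ℝ) * ψ r ≤ Dm ψ q r := le_max_right _ _
          have h3 : Del ψ q r = (r1 q r : ℝ) * ψ q + (q1 q r : ℝ) * ψ r := rfl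
          have h4 : 2 / s = 1 / s + 1 / s := by ring
          rw [h3, h4]
          linarith
  -- the sum
  have hsum : eij γ ψ s V W a b i j ≤ ∑ r ∈ W', C8 * P / s * M := by
    have e1 : eij γ ψ s V W a b i j = ∑ q ∈ V', ∑ r ∈ W', if Nat.gcd q r = g then Ks γ ψ s q r else 0 := by
      unfold eij
      refine Finset.sum_congr rfl (fun q _ => ?_)
      rw [← Finset.sum_filter, hW', Finset.filter_filter]
    rw [e1, Finset.sum_comm]
    refine Finset.sum_le_sum (fun r hr => ?_)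
    have h1 : ∀ q ∈ V', (if Nat.gcd q r = g then Ks γ ψ s q r else 0) ≤
        if (Nat.gcd q r = g ∧ r < q ∧ CO γ ψ q r ∧ 1 / (2 * s) < Dm ψ q r ∧ Dm ψ q r ≤ 1 / s) then M else 0 := by
      intro q hq
      by_cases hA : Nat.gcd q r = g ∧ r < q ∧ CO γ ψ q r ∧ 1 / (2 * s) < Dm ψ q r ∧ Dm ψ q r ≤ 1 / s
      · rw [if_pos hA, if_pos hA.1]
        unfold Ks
        rw [if_pos hA.2]
        exact hterm q hq r hr hA.1 hA.2.2.2.2
      · rw [if_neg hA]
        by_cases hG : Nat.gcd q r = g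
        · rw [if_pos hG]
          unfold Ks
          rw [if_neg (fun h => hA ⟨hG, h⟩)]
        · rw [if_neg hG]
    refine le_trans (Finset.sum_le_sum h1) ?_
    rw [← Finset.sum_filter, Finset.sum_const, nsmul_eq_mul]
    exact mul_le_mul_of_nonneg_right (hcount r hr) hM0
  refine le_trans hsum ?_
  rw [Finset.sum_const, nsmul_eq_mul]
  have hcW := bx5_card_mult b j hb W hWb (fun r hr => hpos r (hWS hr))
  have hwa0 := bx5_w_nonneg a
  have hwb0 := bx5_w_nonneg b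
  have hnn : 0 ≤ C8 * P / s * M := by positivity
  refine le_trans (mul_le_mul_of_nonneg_right hcW hnn) ?_
  have hfin : 2 * 2 ^ j / (b : ℝ) * (C8 * P / s * M) = 2 * C8 * (w a * w b * g ^ 2 / (a * b * s ^ 3)) := by
    rw [hP, hM]
    field_simp
  have hfin2 : C8 * (MV a b s * MW a b s) / s = 4 * C8 * (w a * w b * g ^ 2 / (a * b * s ^ 3)) := by
    unfold MV MW
    rw [hqaR, hrbR]
    field_simp
    ring
  rw [hfin, hfin2]
  have h9 : 0 ≤ w a * w b * g ^ 2 / (a * b * s ^ 3) := by positivity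
  have h10 : 0 ≤ C8 * (w a * w b * g ^ 2 / (a * b * s ^ 3)) := by positivity
  linarith

end Vale.Agent.P028KM
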