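import Vale.Agent.P028KM.Defs


/-!
Module SIJ: summation over the boxes. Interpolate:
`e ≤ (x_i y_j)^(11/20) (x_i B 2^(j-i))^(1/10) (A B σ)^(7/20)
   = x_i^(13/20) y_j^(11/20) A^(7/20) B^(9/20) σ^(7/20) 2^((j-i)/10)` and symmetrically
`e ≤ x_i^(11/20) y_j^(13/20) A^(9/20) B^(7/20) σ^(7/20) 2^((i-j)/10)`.
For fixed `d = i-j`: `∑ x_i^(13/20) y_{i-d}^(11/20) ≤ (∑x)^(13/20) (∑y)^(11/20)` (Hölder and
`∑ u^(24/20) ≤ (∑u)^(24/20)`). So with `a1 = (∑x)^(13/20)(∑y)^(11/20)A^(7/20)B^(9/20)`,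
`a2 = (∑x)^(11/20)(∑y)^(13/20)A^(9/20)B^(7/20)` the sum is `≤ σ^(7/20) ∑_{d ∈ Z} min(a1 2^(-d/10), a2 2^(d/10))
≤ C σ^(7/20) (a1 a2)^(1/2)` and `(a1 a2)^(1/2) = ((∑x)(∑y))^(3/5) (AB)^(2/5)`.
-/

namespace Vale.Agent.P028KM

open Finset MeasureTheory
open Vale.Agent.P028EV (q1 r1 Del hh)

theorem SIJ_summ : Summable (fun d : ℤ => ((2 : ℝ) ^ (-(1 / 10) : ℝ)) ^ (d.natAbs)) := by
  have h1 : ((2 : ℝ) ^ (-(1 / 10) : ℝ)) < 1 :=
    Real.rpow_lt_one_of_one_lt_of_neg (by norm_num) (by norm_num)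
  have h := summable_geometric_of_lt_one (r := (2 : ℝ) ^ (-(1 / 10) : ℝ)) (by positivity) h1
  apply Summable.of_nat_of_neg
  · simpa using h
  · simpa using h

theorem SIJ_tau (a1 a2 : ℝ) (h1 : 0 < a1) (h2 : 0 < a2) : ∃ τ : ℝ,
    a1 = (a1 * a2) ^ (1 / 2 : ℝ) * (2 : ℝ) ^ (τ / 10) ∧
    a2 = (a1 * a2) ^ (1 / 2 : ℝ) * (2 : ℝ) ^ (-(τ / 10)) := by
  refine ⟨10 * (Real.logb 2 (a1 / a2) * (1 / 2)), ?_⟩
  have e1 : 10 * (Real.logb 2 (a1 / a2) * (1 / 2)) / 10 = Real.logb 2 (a1 / a2) * (1 / 2) := by ring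
  have e2 : (2 : ℝ) ^ (Real.logb 2 (a1 / a2) * (1 / 2)) = (a1 / a2) ^ (1 / 2 : ℝ) := by
    rw [Real.rpow_mul (by norm_num), Real.rpow_logb (by norm_num) (by norm_num) (by positivity)]
  have e3 : (2 : ℝ) ^ (-(Real.logb 2 (a1 / a2) * (1 / 2))) = (a2 / a1) ^ (1 / 2 : ℝ) := by
    rw [Real.rpow_neg (by norm_num), e2, ← Real.inv_rpow (by positivity), inv_div]
  rw [e1, e2, e3]
  constructor
  · rw [← Real.mul_rpow (by positivity) (by positivity)]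
    have : a1 * a2 * (a1 / a2) = a1 ^ (2 : ℝ) := by
      rw [Real.rpow_two]; field_simp
    rw [this, ← Real.rpow_mul h1.le]; norm_num
  · rw [← Real.mul_rpow (by positivity) (by positivity)]
    have : a1 * a2 * (a2 / a1) = a2 ^ (2 : ℝ) := by
      rw [Real.rpow_two]; field_simp
    rw [this, ← Real.rpow_mul h2.le]; norm_num

theorem SIJ_min (g τ : ℝ) (hg : 0 ≤ g) (d : ℤ) :
    min (g * (2 : ℝ) ^ (τ / 10) * (2 : ℝ) ^ (-(d : ℝ) / 10))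
      (g * (2 : ℝ) ^ (-(τ / 10)) * (2 : ℝ) ^ ((d : ℝ) / 10))
      ≤ g * ((2 : ℝ) ^ (1 / 10 : ℝ) * ((2 : ℝ) ^ (-(1 / 10) : ℝ)) ^ ((d - ⌊τ⌋).natAbs)) := by
  have hf1 := Int.floor_le τ
  have hf2 := Int.lt_floor_add_one τ
  have hk : (((d - ⌊τ⌋).natAbs : ℕ) : ℝ) = |(d : ℝ) - (⌊τ⌋ : ℝ)| := by
    rw [Nat.cast_natAbs]; push_cast; rfl
  have hR : ((2 : ℝ) ^ (-(1 / 10) : ℝ)) ^ ((d - ⌊τ⌋).natAbs)
      = (2 : ℝ) ^ (-(1 / 10) * |(d : ℝ) - (⌊τ⌋ : ℝ)|) := by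
    rw [← Real.rpow_natCast, ← Real.rpow_mul (by norm_num), hk]
  rw [hR, ← Real.rpow_add (by norm_num)]
  rcases le_total τ (d : ℝ) with h | h
  · refine (min_le_left _ _).trans ?_
    rw [mul_assoc, ← Real.rpow_add (by norm_num)]
    refine mul_le_mul_of_nonneg_left ?_ hg
    apply Real.rpow_le_rpow_of_exponent_le (by norm_num)
    rw [abs_of_nonneg (by linarith)]
    linarith
  · refine (min_le_right _ _).trans ?_
    rw [mul_assoc, ← Real.rpow_add (by norm_num)]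
    refine mul_le_mul_of_nonneg_left ?_ hg
    apply Real.rpow_le_rpow_of_exponent_le (by norm_num)
    rcases le_total ((⌊τ⌋ : ℝ)) (d : ℝ) with h' | h'
    · rw [abs_of_nonneg (by linarith)]; linarith
    · rw [abs_of_nonpos (by linarith)]; linarith

/-- `∑_{|d| ≤ L} min(a1 z^d, a2 z^(-d)) ≤ C (a1 a2)^(1/2)` -/
theorem sij_geom : ∃ C : ℝ, 0 < C ∧ ∀ (L : ℕ) (a1 a2 : ℝ), 0 ≤ a1 → 0 ≤ a2 →
    ∑ d ∈ Finset.Icc (-(L : ℤ)) L, min (a1 * (2 : ℝ) ^ (-(d : ℝ) / 10)) (a2 * (2 : ℝ) ^ ((d : ℝ) / 10))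
      ≤ C * (a1 * a2) ^ (1 / 2 : ℝ) := by
  have hs := SIJ_summ
  set T : ℝ := ∑' d : ℤ, ((2 : ℝ) ^ (-(1 / 10) : ℝ)) ^ (d.natAbs) with hT
  have hT0 : 0 ≤ T := tsum_nonneg (fun d => by positivity)
  refine ⟨(2 : ℝ) ^ (1 / 10 : ℝ) * (T + 1), by positivity, ?_⟩
  intro L a1 a2 h1 h2
  have hpos : 0 ≤ (2 : ℝ) ^ (1 / 10 : ℝ) * (T + 1) * (a1 * a2) ^ (1 / 2 : ℝ) := by positivity
  rcases h1.eq_or_lt with h | h1
  · refine le_trans (le_of_eq ?_) hpos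
    apply Finset.sum_eq_zero
    intro d _
    rw [← h, zero_mul]
    exact min_eq_left (by positivity)
  rcases h2.eq_or_lt with h | h2
  · refine le_trans (le_of_eq ?_) hpos
    apply Finset.sum_eq_zero
    intro d _
    rw [← h, zero_mul]
    exact min_eq_right (by positivity)
  obtain ⟨τ, ht1, ht2⟩ := SIJ_tau a1 a2 h1 h2
  set g : ℝ := (a1 * a2) ^ (1 / 2 : ℝ) with hg
  have hg0 : 0 ≤ g := by positivity
  have hsum : ∑ d ∈ Finset.Icc (-(L : ℤ)) L, ((2 : ℝ) ^ (-(1 / 10) : ℝ)) ^ ((d - ⌊τ⌋).natAbs) ≤ T := by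
    have hs' : Summable (fun d : ℤ => ((2 : ℝ) ^ (-(1 / 10) : ℝ)) ^ ((d - ⌊τ⌋).natAbs)) :=
      (Equiv.subRight ⌊τ⌋).summable_iff (f := fun d : ℤ => ((2 : ℝ) ^ (-(1 / 10) : ℝ)) ^ (d.natAbs)) |>.mpr hs
    have he : ∑' d : ℤ, ((2 : ℝ) ^ (-(1 / 10) : ℝ)) ^ ((d - ⌊τ⌋).natAbs) = T :=
      (Equiv.subRight ⌊τ⌋).tsum_eq (fun d : ℤ => ((2 : ℝ) ^ (-(1 / 10) : ℝ)) ^ (d.natAbs))
    rw [← he]
    exact hs'.sum_le_tsum _ (fun d _ => by positivity)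
  calc ∑ d ∈ Finset.Icc (-(L : ℤ)) L, min (a1 * (2 : ℝ) ^ (-(d : ℝ) / 10)) (a2 * (2 : ℝ) ^ ((d : ℝ) / 10))
      ≤ ∑ d ∈ Finset.Icc (-(L : ℤ)) L,
          g * ((2 : ℝ) ^ (1 / 10 : ℝ) * ((2 : ℝ) ^ (-(1 / 10) : ℝ)) ^ ((d - ⌊τ⌋).natAbs)) := by
        apply Finset.sum_le_sum
        intro d _
        have := SIJ_min g τ hg0 d
        rw [← ht1, ← ht2] at this
        exact this
    _ = g * ((2 : ℝ) ^ (1 / 10 : ℝ) * ∑ d ∈ Finset.Icc (-(L : ℤ)) L,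
          ((2 : ℝ) ^ (-(1 / 10) : ℝ)) ^ ((d - ⌊τ⌋).natAbs)) := by
        rw [Finset.mul_sum, Finset.mul_sum]
    _ ≤ g * ((2 : ℝ) ^ (1 / 10 : ℝ) * (T + 1)) := by
        refine mul_le_mul_of_nonneg_left (mul_le_mul_of_nonneg_left (by linarith) (by positivity)) hg0
    _ = (2 : ℝ) ^ (1 / 10 : ℝ) * (T + 1) * g := by ring

theorem SIJ_pow3 (e p q r : ℝ) (he : 0 ≤ e) (h1 : e ≤ p) (h2 : e ≤ q) (h3 : e ≤ r) :
    e ≤ p ^ (11 / 20 : ℝ) * q ^ (1 / 10 : ℝ) * r ^ (7 / 20 : ℝ) := by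
  have h : e = e ^ (11 / 20 : ℝ) * e ^ (1 / 10 : ℝ) * e ^ (7 / 20 : ℝ) := by
    rw [← Real.rpow_add_of_nonneg he (by norm_num) (by norm_num),
      ← Real.rpow_add_of_nonneg he (by norm_num) (by norm_num)]
    norm_num
  calc e = e ^ (11 / 20 : ℝ) * e ^ (1 / 10 : ℝ) * e ^ (7 / 20 : ℝ) := h
    _ ≤ p ^ (11 / 20 : ℝ) * q ^ (1 / 10 : ℝ) * r ^ (7 / 20 : ℝ) := by
      have hp : 0 ≤ p := he.trans h1
      have hq : 0 ≤ q := he.trans h2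
      have hr : 0 ≤ r := he.trans h3
      gcongr

theorem SIJ_uv (x y X Y α β : ℝ) (hX : 0 < X) (hY : 0 < Y) (hx : 0 ≤ x) (hxX : x ≤ X)
    (hy : 0 ≤ y) (hyY : y ≤ Y) (hα : 0 < α) (hβ : 0 < β) (hab : 1 ≤ α + β) :
    x ^ α * y ^ β ≤ X ^ α * Y ^ β * (x / X + y / Y) := by
  have hu0 : 0 ≤ x / X := by positivity
  have hv0 : 0 ≤ y / Y := by positivity
  have hu1 : x / X ≤ 1 := (div_le_one hX).mpr hxX
  have hv1 : y / Y ≤ 1 := (div_le_one hY).mpr hyY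
  have hM0 : 0 ≤ max (x / X) (y / Y) := le_max_of_le_left hu0
  have hM1 : max (x / X) (y / Y) ≤ 1 := max_le hu1 hv1
  have key : (x / X) ^ α * (y / Y) ^ β ≤ x / X + y / Y := by
    calc (x / X) ^ α * (y / Y) ^ β ≤ (max (x / X) (y / Y)) ^ α * (max (x / X) (y / Y)) ^ β := by
          gcongr
          · exact le_max_left _ _
          · exact le_max_right _ _
      _ = (max (x / X) (y / Y)) ^ (α + β) := by
          rw [Real.rpow_add_of_nonneg hM0 hα.le hβ.le]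
      _ ≤ (max (x / X) (y / Y)) ^ (1 : ℝ) :=
          Real.rpow_le_rpow_of_exponent_ge' hM0 hM1 (by norm_num) hab
      _ = max (x / X) (y / Y) := Real.rpow_one _
      _ ≤ x / X + y / Y := max_le (by linarith) (by linarith)
  have e : x ^ α * y ^ β = X ^ α * Y ^ β * ((x / X) ^ α * (y / Y) ^ β) := by
    have hx' : x ^ α = X ^ α * (x / X) ^ α := by
      rw [← Real.mul_rpow hX.le hu0, mul_div_cancel₀ _ hX.ne']
    have hy' : y ^ β = Y ^ β * (y / Y) ^ β := by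
      rw [← Real.mul_rpow hY.le hv0, mul_div_cancel₀ _ hY.ne']
    rw [hx', hy']; ring
  rw [e]
  exact mul_le_mul_of_nonneg_left key (by positivity)

theorem SIJ_pt (e x y A B σ z : ℝ) (he : 0 ≤ e) (hx : 0 ≤ x) (hy : 0 ≤ y) (hA : 0 ≤ A)
    (hB : 0 ≤ B) (hσ : 0 ≤ σ) (h1 : e ≤ x * y) (h2 : e ≤ x * B * (2 : ℝ) ^ z)
    (h3 : e ≤ A * B * σ) :
    e ≤ σ ^ (7 / 20 : ℝ) * (x ^ (13 / 20 : ℝ) * y ^ (11 / 20 : ℝ)) *
      (A ^ (7 / 20 : ℝ) * B ^ (9 / 20 : ℝ)) * (2 : ℝ) ^ (z / 10) := by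
  refine (SIJ_pow3 e _ _ _ he h1 h2 h3).trans (le_of_eq ?_)
  rw [Real.mul_rpow hx hy, Real.mul_rpow (by positivity) (by positivity), Real.mul_rpow hx hB,
    Real.mul_rpow (by positivity) hσ, Real.mul_rpow hA hB, ← Real.rpow_mul (by norm_num)]
  have e1 : x ^ (13 / 20 : ℝ) = x ^ (11 / 20 : ℝ) * x ^ (1 / 10 : ℝ) := by
    rw [← Real.rpow_add_of_nonneg hx (by norm_num) (by norm_num)]; norm_num
  have e2 : B ^ (9 / 20 : ℝ) = B ^ (1 / 10 : ℝ) * B ^ (7 / 20 : ℝ) := by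
    rw [← Real.rpow_add_of_nonneg hB (by norm_num) (by norm_num)]; norm_num
  have e3 : z / 10 = z * (1 / 10) := by ring
  rw [e1, e2, e3]
  ring

theorem sij : ∃ C9 : ℝ, 0 < C9 ∧ ∀ (L : ℕ) (e : ℕ → ℕ → ℝ) (x y : ℕ → ℝ) (A B σ : ℝ),
    (∀ i, 0 ≤ x i) → (∀ i, 0 ≤ y i) → 0 ≤ A → 0 ≤ B → 0 ≤ σ → (∀ i j, 0 ≤ e i j) →
    (∀ i j, e i j ≤ x i * y j) → (∀ i j, e i j ≤ x i * B * (2 : ℝ) ^ ((j : ℝ) - (i : ℝ))) →
    (∀ i j, e i j ≤ y j * A * (2 : ℝ) ^ ((i : ℝ) - (j : ℝ))) → (∀ i j, e i j ≤ A * B * σ) →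
    ∑ i ∈ range L, ∑ j ∈ range L, e i j
      ≤ C9 * ((∑ i ∈ range L, x i) * (∑ j ∈ range L, y j)) ^ (3 / 5 : ℝ) * (A * B) ^ (2 / 5 : ℝ) *
        σ ^ (7 / 20 : ℝ) := by
  obtain ⟨C, hC, hgeom⟩ := sij_geom
  refine ⟨2 * C, by positivity, ?_⟩
  intro L e x y A B σ hx hy hA hB hσ he h1 h2 h3 h4
  set X : ℝ := ∑ i ∈ range L, x i with hXdef
  set Y : ℝ := ∑ j ∈ range L, y j with hYdef
  have hX0 : 0 ≤ X := Finset.sum_nonneg (fun i _ => hx i)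
  have hY0 : 0 ≤ Y := Finset.sum_nonneg (fun i _ => hy i)
  have hxX : ∀ i ∈ range L, x i ≤ X := fun i hi =>
    Finset.single_le_sum (f := x) (fun i _ => hx i) hi
  have hyY : ∀ i ∈ range L, y i ≤ Y := fun i hi =>
    Finset.single_le_sum (f := y) (fun i _ => hy i) hi
  have hpos : 0 ≤ 2 * C * (X * Y) ^ (3 / 5 : ℝ) * (A * B) ^ (2 / 5 : ℝ) * σ ^ (7 / 20 : ℝ) := by
    positivity
  rcases hX0.eq_or_lt with h | hXp
  · refine le_trans ?_ hpos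
    apply Finset.sum_nonpos
    intro i hi
    apply Finset.sum_nonpos
    intro j _
    have hxi : x i = 0 := le_antisymm (h ▸ hxX i hi) (hx i)
    have := h1 i j
    rw [hxi, zero_mul] at this
    exact this
  rcases hY0.eq_or_lt with h | hYp
  · refine le_trans ?_ hpos
    apply Finset.sum_nonpos
    intro i _
    apply Finset.sum_nonpos
    intro j hj
    have hyj : y j = 0 := le_antisymm (h ▸ hyY j hj) (hy j)
    have := h1 i j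
    rw [hyj, mul_zero] at this
    exact this
  set a1 : ℝ := X ^ (13 / 20 : ℝ) * Y ^ (11 / 20 : ℝ) * (A ^ (7 / 20 : ℝ) * B ^ (9 / 20 : ℝ)) with ha1
  set a2 : ℝ := Y ^ (13 / 20 : ℝ) * X ^ (11 / 20 : ℝ) * (B ^ (7 / 20 : ℝ) * A ^ (9 / 20 : ℝ)) with ha2
  have ha1p : 0 ≤ a1 := by positivity
  have ha2p : 0 ≤ a2 := by positivity
  set m : ℤ → ℝ := fun d => min (a1 * (2 : ℝ) ^ (-(d : ℝ) / 10)) (a2 * (2 : ℝ) ^ ((d : ℝ) / 10)) with hm
  have hm0 : ∀ d, 0 ≤ m d := fun d => le_min (by positivity) (by positivity)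
  have hG : ∑ d ∈ Finset.Icc (-(L : ℤ)) L, m d ≤ C * (a1 * a2) ^ (1 / 2 : ℝ) :=
    hgeom L a1 a2 ha1p ha2p
  set G : ℝ := ∑ d ∈ Finset.Icc (-(L : ℤ)) L, m d with hGdef
  have hprod : (a1 * a2) ^ (1 / 2 : ℝ) = (X * Y) ^ (3 / 5 : ℝ) * (A * B) ^ (2 / 5 : ℝ) := by
    have : a1 * a2 = (X * Y) ^ (6 / 5 : ℝ) * (A * B) ^ (4 / 5 : ℝ) := by
      rw [ha1, ha2, Real.mul_rpow hX0 hY0, Real.mul_rpow hA hB]
      have e1 : X ^ (6 / 5 : ℝ) = X ^ (13 / 20 : ℝ) * X ^ (11 / 20 : ℝ) := by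
        rw [← Real.rpow_add_of_nonneg hX0 (by norm_num) (by norm_num)]; norm_num
      have e2 : Y ^ (6 / 5 : ℝ) = Y ^ (13 / 20 : ℝ) * Y ^ (11 / 20 : ℝ) := by
        rw [← Real.rpow_add_of_nonneg hY0 (by norm_num) (by norm_num)]; norm_num
      have e3 : A ^ (4 / 5 : ℝ) = A ^ (7 / 20 : ℝ) * A ^ (9 / 20 : ℝ) := by
        rw [← Real.rpow_add_of_nonneg hA (by norm_num) (by norm_num)]; norm_num
      have e4 : B ^ (4 / 5 : ℝ) = B ^ (7 / 20 : ℝ) * B ^ (9 / 20 : ℝ) := by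
        rw [← Real.rpow_add_of_nonneg hB (by norm_num) (by norm_num)]; norm_num
      rw [e1, e2, e3, e4]; ring
    rw [this, Real.mul_rpow (by positivity) (by positivity), ← Real.rpow_mul (by positivity),
      ← Real.rpow_mul (by positivity)]
    norm_num
  have hpt : ∀ i ∈ range L, ∀ j ∈ range L,
      e i j ≤ σ ^ (7 / 20 : ℝ) * ((x i / X + y j / Y) * m ((i : ℤ) - (j : ℤ))) := by
    intro i hi j hj
    have hs0 : 0 ≤ x i / X + y j / Y := by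
      have := hx i; have := hy j; positivity
    have hcast : (((i : ℤ) - (j : ℤ) : ℤ) : ℝ) = (i : ℝ) - (j : ℝ) := by push_cast; ring
    have b1 : e i j ≤ σ ^ (7 / 20 : ℝ) * ((x i / X + y j / Y) *
        (a1 * (2 : ℝ) ^ (-(((i : ℤ) - (j : ℤ) : ℤ) : ℝ) / 10))) := by
      have hp := SIJ_pt (e i j) (x i) (y j) A B σ ((j : ℝ) - (i : ℝ)) (he i j) (hx i) (hy j) hA hB hσ
        (h1 i j) (h2 i j) (h4 i j)
      have huv := SIJ_uv (x i) (y j) X Y (13 / 20) (11 / 20) hXp hYp (hx i) (hxX i hi) (hy j)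
        (hyY j hj) (by norm_num) (by norm_num) (by norm_num)
      rw [hcast]
      have hz : -((i : ℝ) - (j : ℝ)) / 10 = ((j : ℝ) - (i : ℝ)) / 10 := by ring
      rw [hz]
      calc e i j ≤ σ ^ (7 / 20 : ℝ) * ((x i) ^ (13 / 20 : ℝ) * (y j) ^ (11 / 20 : ℝ)) *
            (A ^ (7 / 20 : ℝ) * B ^ (9 / 20 : ℝ)) * (2 : ℝ) ^ (((j : ℝ) - (i : ℝ)) / 10) := hp
        _ ≤ σ ^ (7 / 20 : ℝ) * (X ^ (13 / 20 : ℝ) * Y ^ (11 / 20 : ℝ) * (x i / X + y j / Y)) *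
            (A ^ (7 / 20 : ℝ) * B ^ (9 / 20 : ℝ)) * (2 : ℝ) ^ (((j : ℝ) - (i : ℝ)) / 10) := by
          gcongr
        _ = _ := by rw [ha1]; ring
    have b2 : e i j ≤ σ ^ (7 / 20 : ℝ) * ((x i / X + y j / Y) *
        (a2 * (2 : ℝ) ^ ((((i : ℤ) - (j : ℤ) : ℤ) : ℝ) / 10))) := by
      have hp := SIJ_pt (e i j) (y j) (x i) B A σ ((i : ℝ) - (j : ℝ)) (he i j) (hy j) (hx i) hB hA hσ
        ((h1 i j).trans (le_of_eq (mul_comm _ _))) (h3 i j)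
        ((h4 i j).trans (le_of_eq (by ring)))
      have huv := SIJ_uv (y j) (x i) Y X (13 / 20) (11 / 20) hYp hXp (hy j) (hyY j hj) (hx i)
        (hxX i hi) (by norm_num) (by norm_num) (by norm_num)
      rw [hcast]
      calc e i j ≤ σ ^ (7 / 20 : ℝ) * ((y j) ^ (13 / 20 : ℝ) * (x i) ^ (11 / 20 : ℝ)) *
            (B ^ (7 / 20 : ℝ) * A ^ (9 / 20 : ℝ)) * (2 : ℝ) ^ (((i : ℝ) - (j : ℝ)) / 10) := hp
        _ ≤ σ ^ (7 / 20 : ℝ) * (Y ^ (13 / 20 : ℝ) * X ^ (11 / 20 : ℝ) * (y j / Y + x i / X)) *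
            (B ^ (7 / 20 : ℝ) * A ^ (9 / 20 : ℝ)) * (2 : ℝ) ^ (((i : ℝ) - (j : ℝ)) / 10) := by
          gcongr
        _ = _ := by rw [ha2]; ring
    rw [hm]
    simp only
    rw [← mul_assoc, mul_min_of_nonneg _ _ (by positivity)]
    exact le_min (by rw [mul_assoc]; exact b1) (by rw [mul_assoc]; exact b2)
  have hrow : ∀ i ∈ range L, ∑ j ∈ range L, m ((i : ℤ) - (j : ℤ)) ≤ G := by
    intro i hi
    rw [Finset.mem_range] at hi
    have hinj : Set.InjOn (fun j : ℕ => (i : ℤ) - (j : ℤ)) (range L : Set ℕ) := by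
      intro a _ b _ hab
      simp only at hab
      omega
    rw [← Finset.sum_image (f := m) hinj]
    apply Finset.sum_le_sum_of_subset_of_nonneg
    · intro d hd
      rw [Finset.mem_image] at hd
      obtain ⟨j, hj, rfl⟩ := hd
      rw [Finset.mem_range] at hj
      rw [Finset.mem_Icc]
      omega
    · intro d _ _
      exact hm0 d
  have hcol : ∀ j ∈ range L, ∑ i ∈ range L, m ((i : ℤ) - (j : ℤ)) ≤ G := by
    intro j hj
    rw [Finset.mem_range] at hj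
    have hinj : Set.InjOn (fun i : ℕ => (i : ℤ) - (j : ℤ)) (range L : Set ℕ) := by
      intro a _ b _ hab
      simp only at hab
      omega
    rw [← Finset.sum_image (f := m) hinj]
    apply Finset.sum_le_sum_of_subset_of_nonneg
    · intro d hd
      rw [Finset.mem_image] at hd
      obtain ⟨i, hi, rfl⟩ := hd
      rw [Finset.mem_range] at hi
      rw [Finset.mem_Icc]
      omega
    · intro d _ _
      exact hm0 d
  have hsx : ∑ i ∈ range L, x i / X = 1 := by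
    rw [← Finset.sum_div]; exact div_self hXp.ne'
  have hsy : ∑ j ∈ range L, y j / Y = 1 := by
    rw [← Finset.sum_div]; exact div_self hYp.ne'
  have hfin : ∑ i ∈ range L, ∑ j ∈ range L, (x i / X + y j / Y) * m ((i : ℤ) - (j : ℤ)) ≤ 2 * G := by
    have hsplit : ∑ i ∈ range L, ∑ j ∈ range L, (x i / X + y j / Y) * m ((i : ℤ) - (j : ℤ))
        = ∑ i ∈ range L, x i / X * ∑ j ∈ range L, m ((i : ℤ) - (j : ℤ))
          + ∑ j ∈ range L, y j / Y * ∑ i ∈ range L, m ((i : ℤ) - (j : ℤ)) := by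
      have c2 : ∑ j ∈ range L, y j / Y * ∑ i ∈ range L, m ((i : ℤ) - (j : ℤ))
          = ∑ i ∈ range L, ∑ j ∈ range L, y j / Y * m ((i : ℤ) - (j : ℤ)) := by
        rw [Finset.sum_comm]
        apply Finset.sum_congr rfl
        intro j _
        rw [Finset.mul_sum]
      rw [c2, ← Finset.sum_add_distrib]
      apply Finset.sum_congr rfl
      intro i _
      rw [Finset.mul_sum, ← Finset.sum_add_distrib]
      apply Finset.sum_congr rfl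
      intro j _
      ring
    rw [hsplit]
    have t1 : ∑ i ∈ range L, x i / X * ∑ j ∈ range L, m ((i : ℤ) - (j : ℤ)) ≤ G := by
      calc _ ≤ ∑ i ∈ range L, x i / X * G := by
            apply Finset.sum_le_sum
            intro i hi
            exact mul_le_mul_of_nonneg_left (hrow i hi) (div_nonneg (hx i) hX0)
        _ = G := by rw [← Finset.sum_mul, hsx, one_mul]
    have t2 : ∑ j ∈ range L, y j / Y * ∑ i ∈ range L, m ((i : ℤ) - (j : ℤ)) ≤ G := by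
      calc _ ≤ ∑ j ∈ range L, y j / Y * G := by
            apply Finset.sum_le_sum
            intro j hj
            exact mul_le_mul_of_nonneg_left (hcol j hj) (div_nonneg (hy j) hY0)
        _ = G := by rw [← Finset.sum_mul, hsy, one_mul]
    linarith
  calc ∑ i ∈ range L, ∑ j ∈ range L, e i j
      ≤ ∑ i ∈ range L, ∑ j ∈ range L, σ ^ (7 / 20 : ℝ) * ((x i / X + y j / Y) * m ((i : ℤ) - (j : ℤ))) := by
        apply Finset.sum_le_sum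
        intro i hi
        apply Finset.sum_le_sum
        intro j hj
        exact hpt i hi j hj
    _ = σ ^ (7 / 20 : ℝ) * ∑ i ∈ range L, ∑ j ∈ range L, (x i / X + y j / Y) * m ((i : ℤ) - (j : ℤ)) := by
        rw [Finset.mul_sum]
        apply Finset.sum_congr rfl
        intro i _
        rw [Finset.mul_sum]
    _ ≤ σ ^ (7 / 20 : ℝ) * (2 * (C * ((X * Y) ^ (3 / 5 : ℝ) * (A * B) ^ (2 / 5 : ℝ)))) := by
        refine mul_le_mul_of_nonneg_left ?_ (by positivity)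
        rw [← hprod]
        linarith
    _ = 2 * C * (X * Y) ^ (3 / 5 : ℝ) * (A * B) ^ (2 / 5 : ℝ) * σ ^ (7 / 20 : ℝ) := by ring

end Vale.Agent.P028KM
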