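import Vale.Agent.P028KM.Defs
import Vale.Agent.P028KM.BX
import Vale.Agent.P028KM.BX5
import Vale.Agent.P028KM.SIJ

/-!
Module BS: the base inequality. The left side is `∑_{i,j<L} eij` (all `Nat.log 2 q < L`). Apply
`sij` with `x i = ∑_{log q = i} mu`, `A = MV`, `B = MW`, `σ = C/s` if `q1 r1 ≤ X^c4` (`bx5`), `σ = 1`
otherwise (`bx4`). `(MV MW)^(2/5) = (4/s^2)^(2/5) ((αβ)^(-1) w_a w_b)^(2/5)`
`= 4^(2/5) s^(-4/5) Th η a b (αβ)^(-2η/5)`, and `(αβ)^(2η/5) ≥ 1`, `≥ s^(7/20)` if `αβ > X^c4`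
(`X^(2 c4 η/5) = s^(7/20)` by the choice of `eta`). `4/5 + 7/20 = 23/20`.
-/

namespace Vale.Agent.P028KM

open Finset MeasureTheory
open Vale.Agent.P028EV (q1 r1 Del hh)

theorem BS_w_nonneg (q : ℕ) : 0 ≤ w q := by unfold w; positivity

theorem BS_mu_nonneg {ψ : ℕ → ℝ} (hψ : ∀ q, 0 ≤ ψ q) (q : ℕ) : 0 ≤ mu ψ q :=
  mul_nonneg (BS_w_nonneg q) (hψ q)

theorem BS_Ks_nonneg {ψ : ℕ → ℝ} (hψ : ∀ q, 0 ≤ ψ q) (γ s : ℝ) (q r : ℕ) : 0 ≤ Ks γ ψ s q r := by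
  unfold Ks
  split_ifs
  · exact mul_nonneg (BS_mu_nonneg hψ q) (BS_mu_nonneg hψ r)
  · exact le_refl _

theorem BS_split (γ : ℝ) (ψ : ℕ → ℝ) (s : ℝ) (V W : Finset ℕ) (a b L : ℕ)
    (hV : ∀ q ∈ V, Nat.log 2 q < L) (hW : ∀ r ∈ W, Nat.log 2 r < L) :
    ∑ q ∈ V, ∑ r ∈ W with Nat.gcd q r = Nat.gcd a b, Ks γ ψ s q r =
      ∑ i ∈ range L, ∑ j ∈ range L, eij γ ψ s V W a b i j := by
  have h1 : ∀ q, ∑ r ∈ W with Nat.gcd q r = Nat.gcd a b, Ks γ ψ s q r =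
      ∑ j ∈ range L, ∑ r ∈ W with Nat.log 2 r = j ∧ Nat.gcd q r = Nat.gcd a b, Ks γ ψ s q r := by
    intro q
    rw [← Finset.sum_fiberwise_of_maps_to (s := W.filter fun r => Nat.gcd q r = Nat.gcd a b)
      (t := range L) (g := fun r => Nat.log 2 r)
      (fun r hr => Finset.mem_range.2 (hW r (Finset.mem_filter.1 hr).1))]
    refine Finset.sum_congr rfl fun j _ => ?_
    rw [Finset.filter_filter]
    refine Finset.sum_congr ?_ fun _ _ => rfl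
    refine Finset.filter_congr fun r _ => ?_
    exact and_comm
  simp only [h1]
  rw [← Finset.sum_fiberwise_of_maps_to (s := V) (t := range L) (g := fun q => Nat.log 2 q)
      (fun q hq => Finset.mem_range.2 (hV q hq))]
  refine Finset.sum_congr rfl fun i _ => ?_
  rw [Finset.sum_comm]
  rfl

theorem BS_sum (ψ : ℕ → ℝ) (V : Finset ℕ) (L : ℕ) (hV : ∀ q ∈ V, Nat.log 2 q < L) :
    ∑ i ∈ range L, ∑ q ∈ V with Nat.log 2 q = i, mu ψ q = ∑ q ∈ V, mu ψ q :=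
  Finset.sum_fiberwise_of_maps_to (fun q hq => Finset.mem_range.2 (hV q hq)) _

/-- the numerical part -/
theorem BS_num {C5 C9 ε X s η α wa wb σ M : ℝ} {m : ℕ} (hC5 : 1 ≤ C5) (hC9 : 0 < C9)
    (hε : 0 < ε) (hX : 2 ≤ X) (hs : 2 ≤ s) (hη : η = eta ε m X s) (hα : 1 ≤ α)
    (hwa : 0 ≤ wa) (hwb : 0 ≤ wb) (hM : 0 ≤ M)
    (hσ : (α ≤ X ^ c4 ε m ∧ σ = C5 / s) ∨ (X ^ c4 ε m < α ∧ σ = 1)) :
    C9 * M * ((4 / s ^ 2) * (α⁻¹ * (wa * wb))) ^ (2 / 5 : ℝ) * σ ^ (7 / 20 : ℝ) ≤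
      (1 + (4 : ℝ) ^ (2 / 5 : ℝ) * C9 * C5 ^ (7 / 20 : ℝ)) * s ^ (-(23 / 20) : ℝ) *
        ((α ^ (-(1 - η)) * (wa * wb)) ^ (2 / 5 : ℝ)) * M := by
  have hs0 : 0 < s := by linarith
  have hX0 : 0 < X := by linarith
  have hα0 : 0 < α := by linarith
  have hc4 : 0 < c4 ε m := by unfold c4; positivity
  have hlX : 0 < Real.log X := Real.log_pos (by linarith)
  have hls : 0 < Real.log s := Real.log_pos (by linarith)
  have hη0 : 0 ≤ η := by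
    rw [hη]; unfold eta; positivity
  have hηX : c4 ε m * Real.log X * η = 7 / 8 * Real.log s := by
    rw [hη]; unfold eta; field_simp
  have e1 : (4 / s ^ 2) * (α⁻¹ * (wa * wb)) =
      4 * (s ^ (-2 : ℝ)) * (α ^ (-η) * (α ^ (-(1 - η)) * (wa * wb))) := by
    have e2 : s ^ (-2 : ℝ) = (s ^ 2)⁻¹ := by
      rw [Real.rpow_neg hs0.le]
      norm_num
    have e3 : α ^ (-η) * α ^ (-(1 - η)) = α⁻¹ := by
      rw [← Real.rpow_add hα0, ← Real.rpow_neg_one]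
      congr 1
      ring
    rw [e2, ← e3]
    ring
  have hw0 : 0 ≤ wa * wb := mul_nonneg hwa hwb
  have hp1 : 0 ≤ α ^ (-(1 - η)) * (wa * wb) := mul_nonneg (Real.rpow_nonneg hα0.le _) hw0
  have e4 : ((4 / s ^ 2) * (α⁻¹ * (wa * wb))) ^ (2 / 5 : ℝ) =
      (4 : ℝ) ^ (2 / 5 : ℝ) * s ^ (-(4 / 5) : ℝ) * (α ^ (-(2 / 5) * η) *
        (α ^ (-(1 - η)) * (wa * wb)) ^ (2 / 5 : ℝ)) := by
    rw [e1, Real.mul_rpow (by positivity) (mul_nonneg (Real.rpow_nonneg hα0.le _) hp1),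
      Real.mul_rpow (by norm_num) (Real.rpow_nonneg hs0.le _),
      Real.mul_rpow (Real.rpow_nonneg hα0.le _) hp1, ← Real.rpow_mul hs0.le,
      ← Real.rpow_mul hα0.le]
    congr 2
    · congr 2; norm_num
    · congr 1; ring
  obtain ⟨D, hD⟩ : ∃ D, D = (α ^ (-(1 - η)) * (wa * wb)) ^ (2 / 5 : ℝ) := ⟨_, rfl⟩
  have hD0 : 0 ≤ D := by rw [hD]; exact Real.rpow_nonneg hp1 _
  rw [e4, ← hD]
  have hC51 : 1 ≤ C5 ^ (7 / 20 : ℝ) := Real.one_le_rpow hC5 (by norm_num)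
  have key : α ^ (-(2 / 5) * η) * σ ^ (7 / 20 : ℝ) ≤ C5 ^ (7 / 20 : ℝ) * s ^ (-(7 / 20) : ℝ) := by
    rcases hσ with ⟨_, h2⟩ | ⟨h1, h2⟩
    · have e5 : C5 ^ (7 / 20 : ℝ) / s ^ (7 / 20 : ℝ) = C5 ^ (7 / 20 : ℝ) * s ^ (-(7 / 20) : ℝ) := by
        rw [Real.rpow_neg hs0.le]
        exact div_eq_mul_inv _ _
      rw [h2, Real.div_rpow (by linarith) hs0.le, e5]
      have h3 : α ^ (-(2 / 5) * η) ≤ 1 :=
        Real.rpow_le_one_of_one_le_of_nonpos hα (by nlinarith)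
      exact mul_le_of_le_one_left (by positivity) h3
    · rw [h2, Real.one_rpow, mul_one]
      have h3 : α ^ (-(2 / 5) * η) ≤ (X ^ c4 ε m) ^ (-(2 / 5) * η) :=
        Real.rpow_le_rpow_of_nonpos (by positivity) h1.le (by nlinarith)
      have h4 : (X ^ c4 ε m) ^ (-(2 / 5) * η) = s ^ (-(7 / 20) : ℝ) := by
        rw [← Real.rpow_mul hX0.le, Real.rpow_def_of_pos hX0, Real.rpow_def_of_pos hs0]
        congr 1
        have : Real.log X * (c4 ε m * (-(2 / 5) * η)) = -(2 / 5) * (c4 ε m * Real.log X * η) := by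
          ring
        rw [this, hηX]
        ring
      rw [h4] at h3
      have h5 : 0 ≤ s ^ (-(7 / 20) : ℝ) := Real.rpow_nonneg hs0.le _
      nlinarith
  have h45 : s ^ (-(4 / 5) : ℝ) * s ^ (-(7 / 20) : ℝ) = s ^ (-(23 / 20) : ℝ) := by
    rw [← Real.rpow_add hs0]
    norm_num
  have h6 : 0 ≤ s ^ (-(4 / 5) : ℝ) := Real.rpow_nonneg hs0.le _
  have h7 : 0 ≤ s ^ (-(23 / 20) : ℝ) := Real.rpow_nonneg hs0.le _
  have h8 : (0 : ℝ) ≤ (4 : ℝ) ^ (2 / 5 : ℝ) := by positivity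
  calc C9 * M * ((4 : ℝ) ^ (2 / 5 : ℝ) * s ^ (-(4 / 5) : ℝ) * (α ^ (-(2 / 5) * η) * D)) *
        σ ^ (7 / 20 : ℝ)
      = (C9 * M * (4 : ℝ) ^ (2 / 5 : ℝ) * s ^ (-(4 / 5) : ℝ) * D) *
        (α ^ (-(2 / 5) * η) * σ ^ (7 / 20 : ℝ)) := by ring
    _ ≤ (C9 * M * (4 : ℝ) ^ (2 / 5 : ℝ) * s ^ (-(4 / 5) : ℝ) * D) *
        (C5 ^ (7 / 20 : ℝ) * s ^ (-(7 / 20) : ℝ)) := mul_le_mul_of_nonneg_left key (by positivity)
    _ = ((4 : ℝ) ^ (2 / 5 : ℝ) * C9 * C5 ^ (7 / 20 : ℝ)) *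
        (s ^ (-(4 / 5) : ℝ) * s ^ (-(7 / 20) : ℝ)) * D * M := by ring
    _ = ((4 : ℝ) ^ (2 / 5 : ℝ) * C9 * C5 ^ (7 / 20 : ℝ)) * s ^ (-(23 / 20) : ℝ) * D * M := by
        rw [h45]
    _ ≤ (1 + (4 : ℝ) ^ (2 / 5 : ℝ) * C9 * C5 ^ (7 / 20 : ℝ)) * s ^ (-(23 / 20) : ℝ) * D * M := by
        gcongr
        linarith

theorem bs (c : ℝ) (hc : 0 < c) (m : ℕ) (ε : ℝ) (hε : 0 < ε) (hε1 : ε ≤ 1) :
    ∃ C : ℝ, 1 ≤ C ∧ ∃ X0 : ℝ, 2 ≤ X0 ∧ ∀ (X γ : ℝ) (ψ : ℕ → ℝ) (S : Finset ℕ), X0 ≤ X →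
    Blk c m ε X γ ψ S → ∀ s : ℝ, 2 ≤ s → s ≤ X ^ c5 ε m →
    BASE (eta ε m X s) (C * s ^ (-(23 / 20) : ℝ)) S (mu ψ) (mu ψ) (Ks γ ψ s) := by
  obtain ⟨C5, hC5, X0, hX0, h5⟩ := bx5 c hc m ε hε hε1
  obtain ⟨C9, hC9, h9⟩ := sij
  refine ⟨1 + (4 : ℝ) ^ (2 / 5 : ℝ) * C9 * C5 ^ (7 / 20 : ℝ), ?_, X0, hX0, ?_⟩
  · have : 0 ≤ (4 : ℝ) ^ (2 / 5 : ℝ) * C9 * C5 ^ (7 / 20 : ℝ) := by positivity
    linarith
  intro X γ ψ S hX hB s hs hsX a b ha hb V W hV hW hVa hWb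
  have hψ := hB.psi0
  have hs0 : 0 < s := by linarith
  have hX2 : 2 ≤ X := hX0.trans hX
  have hposS : ∀ q ∈ S, 0 < q := by
    intro q hq
    have := hB.lo q hq
    have h : (0 : ℝ) < q := by linarith
    exact_mod_cast h
  have hVp : ∀ q ∈ V, 0 < q ∧ a ∣ q := fun q hq => ⟨hposS q (hV hq), hVa q hq⟩
  have hWp : ∀ r ∈ W, 0 < r ∧ b ∣ r := fun r hr => ⟨hposS r (hW hr), hWb r hr⟩
  let L : ℕ := (V ∪ W).sup (fun q => Nat.log 2 q) + 1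
  have hVL : ∀ q ∈ V, Nat.log 2 q < L := fun q hq =>
    Nat.lt_succ_of_le (Finset.le_sup (f := fun q => Nat.log 2 q) (Finset.mem_union_left _ hq))
  have hWL : ∀ q ∈ W, Nat.log 2 q < L := fun q hq =>
    Nat.lt_succ_of_le (Finset.le_sup (f := fun q => Nat.log 2 q) (Finset.mem_union_right _ hq))
  rw [BS_split γ ψ s V W a b L hVL hWL]
  have hg : 0 < Nat.gcd a b := Nat.gcd_pos_of_pos_left b ha
  have hq1 : 0 < q1 a b := Nat.div_pos (Nat.le_of_dvd ha (Nat.gcd_dvd_left a b)) hg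
  have hr1 : 0 < r1 a b := Nat.div_pos (Nat.le_of_dvd hb (Nat.gcd_dvd_right a b)) hg
  have hq1r : (1 : ℝ) ≤ q1 a b := by exact_mod_cast hq1
  have hr1r : (1 : ℝ) ≤ r1 a b := by exact_mod_cast hr1
  have hwa := BS_w_nonneg a
  have hwb := BS_w_nonneg b
  have hMV : 0 ≤ MV a b s := by unfold MV; positivity
  have hMW : 0 ≤ MW a b s := by unfold MW; positivity
  have hα : (1 : ℝ) ≤ (q1 a b : ℝ) * (r1 a b : ℝ) := one_le_mul_of_one_le_of_one_le hq1r hr1r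
  obtain ⟨σ, hσ0, hσ, hbound⟩ : ∃ σ : ℝ, 0 ≤ σ ∧
      (((q1 a b : ℝ) * (r1 a b : ℝ) ≤ X ^ c4 ε m ∧ σ = C5 / s) ∨
        (X ^ c4 ε m < (q1 a b : ℝ) * (r1 a b : ℝ) ∧ σ = 1)) ∧
      ∀ i j, eij γ ψ s V W a b i j ≤ MV a b s * MW a b s * σ := by
    rcases le_or_gt ((q1 a b : ℝ) * (r1 a b : ℝ)) (X ^ c4 ε m) with h | h
    · refine ⟨C5 / s, by positivity, Or.inl ⟨h, rfl⟩, fun i j => ?_⟩
      have := h5 X γ ψ S hX hB s hs hsX V W a b i j ha hb hV hW hVa hWb h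
      calc eij γ ψ s V W a b i j ≤ C5 * (MV a b s * MW a b s) / s := this
        _ = MV a b s * MW a b s * (C5 / s) := by ring
    · refine ⟨1, zero_le_one, Or.inr ⟨h, rfl⟩, fun i j => ?_⟩
      rw [mul_one]
      exact bx4 γ ψ hψ s hs0 V W a b i j ha hb hVp hWp
  have h := h9 L (fun i j => eij γ ψ s V W a b i j)
    (fun i => ∑ q ∈ V with Nat.log 2 q = i, mu ψ q) (fun j => ∑ r ∈ W with Nat.log 2 r = j, mu ψ r)
    (MV a b s) (MW a b s) σ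
    (fun i => Finset.sum_nonneg fun q _ => BS_mu_nonneg hψ q)
    (fun j => Finset.sum_nonneg fun q _ => BS_mu_nonneg hψ q) hMV hMW hσ0
    (fun i j => Finset.sum_nonneg fun q _ => Finset.sum_nonneg fun r _ => BS_Ks_nonneg hψ γ s q r)
    (fun i j => bx1 γ ψ hψ s V W a b i j)
    (fun i j => bx2 γ ψ hψ s hs0 V W a b i j ha hb hVp hWp)
    (fun i j => bx3 γ ψ hψ s hs0 V W a b i j ha hb hVp hWp) hbound
  rw [BS_sum ψ V L hVL, BS_sum ψ W L hWL] at h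
  refine h.trans ?_
  have hnum := BS_num (m := m) (M := MN (mu ψ) (mu ψ) V W) hC5 hC9 hε hX2 hs rfl hα hwa hwb
    (Real.rpow_nonneg (mul_nonneg (Finset.sum_nonneg fun q _ => BS_mu_nonneg hψ q)
      (Finset.sum_nonneg fun q _ => BS_mu_nonneg hψ q)) _) hσ
  have e1 : MV a b s * MW a b s =
      (4 / s ^ 2) * (((q1 a b : ℝ) * (r1 a b : ℝ))⁻¹ * (w a * w b)) := by
    unfold MV MW
    have h1 : (q1 a b : ℝ) ≠ 0 := by positivity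
    have h2 : (r1 a b : ℝ) ≠ 0 := by positivity
    field_simp
    ring
  rw [e1]
  exact hnum

end Vale.Agent.P028KM
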