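import Vale.Agent.P028KM.Defs


/-!
Module THB: elementary bounds for the local factor (`p ≥ 2` prime, `0 ≤ η ≤ 1/40`):
`(2/5)(1-η) ≥ 39/100`.
-/

namespace Vale.Agent.P028KM

open Finset MeasureTheory
open Vale.Agent.P028EV (q1 r1 Del hh)

theorem th_pos (η : ℝ) (p k l : ℕ) (hp : 2 ≤ p) : 0 < th η p k l := by
  have h2 : (2 : ℝ) ≤ p := by exact_mod_cast hp
  have h3 : 1 / (p : ℝ) ≤ 1 / 2 := one_div_le_one_div_of_le (by norm_num) h2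
  unfold th
  exact mul_pos (Real.rpow_pos_of_pos (by linarith) _) (Real.rpow_pos_of_pos (by linarith) _)

theorem th_le (η : ℝ) (hη0 : 0 ≤ η) (hη1 : η ≤ 1 / 40) (p k l : ℕ) (hp : 2 ≤ p) :
    th η p k l ≤ (p : ℝ) ^ (-(39 / 100 : ℝ) * |(k : ℝ) - (l : ℝ)|) := by
  have h2 : (2 : ℝ) ≤ p := by exact_mod_cast hp
  have h3 : 1 / (p : ℝ) ≤ 1 / 2 := one_div_le_one_div_of_le (by norm_num) h2
  have h4 : 0 < 1 / (p : ℝ) := by positivity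
  have he : (0 : ℝ) ≤ (2 / 5 : ℝ) * ((if k = 0 then 0 else 1) + (if l = 0 then 0 else 1)) := by
    split_ifs <;> norm_num
  have h5 : (1 - 1 / (p : ℝ)) ^ ((2 / 5 : ℝ) * ((if k = 0 then 0 else 1) +
      (if l = 0 then 0 else 1))) ≤ 1 :=
    Real.rpow_le_one (by linarith) (by linarith) he
  have h6 : (p : ℝ) ^ (-(2 / 5 : ℝ) * (1 - η) * |(k : ℝ) - (l : ℝ)|) ≤
      (p : ℝ) ^ (-(39 / 100 : ℝ) * |(k : ℝ) - (l : ℝ)|) := by
    apply Real.rpow_le_rpow_of_exponent_le (by linarith)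
    have h7 : 0 ≤ |(k : ℝ) - (l : ℝ)| := abs_nonneg _
    nlinarith
  have h8 : 0 ≤ (p : ℝ) ^ (-(39 / 100 : ℝ) * |(k : ℝ) - (l : ℝ)|) :=
    Real.rpow_nonneg (by linarith) _
  have h9 : 0 ≤ (1 - 1 / (p : ℝ)) ^ ((2 / 5 : ℝ) * ((if k = 0 then 0 else 1) +
      (if l = 0 then 0 else 1))) := Real.rpow_nonneg (by linarith) _
  unfold th
  calc _ ≤ (p : ℝ) ^ (-(39 / 100 : ℝ) * |(k : ℝ) - (l : ℝ)|) * 1 :=
        mul_le_mul h6 h5 h9 h8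
    _ = _ := mul_one _

theorem th_zero (η : ℝ) (p : ℕ) (hp : 2 ≤ p) : th η p 0 0 = 1 := by
  unfold th
  simp

end Vale.Agent.P028KM
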