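import Vale.Agent.P028KM.Defs
import Vale.Agent.P028KM.THB

/-!
Module CONC1: rough concentration. Diagonal: `∑ (x_k y_k)^(3/5) ≤ (∑ x^(6/5))^(1/2) (∑ y^(6/5))^(1/2)
≤ (max x)^(1/10) (max y)^(1/10)`. Off-diagonal: for each `d ≠ 0`,
`∑_k (x_k y_{k-d})^(3/5) ≤ 1` (Cauchy-Schwarz and `6/5 ≥ 1`) so the total is
`≤ 2 ∑_{j≥1} p^(-39 j/100) ≤ 4 p^(-39/100)` for `p ≥ p0`. Hence both maxima are `≥ 0.99`; if the
two maximal indices differ, the diagonal sum is `≤ 2 (0.01)^(3/5) + 0.01 < 1/2`, contradiction.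
-/

namespace Vale.Agent.P028KM

open Finset MeasureTheory
open Vale.Agent.P028EV (q1 r1 Del hh)

theorem CONC1_geo {ρ : ℝ} (h0 : 0 ≤ ρ) (h1 : ρ ≤ 1 / 2) (n : ℕ) :
    ∑ j ∈ range n, (if j = 0 then 0 else ρ ^ j) ≤ 2 * ρ := by
  have key : ∀ n : ℕ, ∑ j ∈ range (n + 1), (if j = 0 then 0 else ρ ^ j) ≤
      2 * ρ * (1 - (1 / 2 : ℝ) ^ n) := by
    intro n
    induction n with
    | zero => simp
    | succ n ih =>
      rw [sum_range_succ, if_neg (Nat.succ_ne_zero n)]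
      have h2 : ρ ^ (n + 1) ≤ ρ * (1 / 2 : ℝ) ^ n := by
        rw [pow_succ']
        exact mul_le_mul_of_nonneg_left (pow_le_pow_left₀ h0 h1 n) h0
      have h3 : 2 * ρ * (1 - (1 / 2 : ℝ) ^ (n + 1)) =
          2 * ρ * (1 - (1 / 2 : ℝ) ^ n) + ρ * (1 / 2 : ℝ) ^ n := by
        rw [pow_succ]
        ring
      rw [h3]
      linarith
  cases n with
  | zero => simpa using h0
  | succ n =>
    refine (key n).trans ?_
    have h4 : 0 ≤ (1 / 2 : ℝ) ^ n := by positivity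
    nlinarith

/-- distance of natural numbers -/
def CONC1_d (k l : ℕ) : ℕ := (k - l) + (l - k)

theorem CONC1_dist (k l : ℕ) : |(k : ℝ) - (l : ℝ)| = (CONC1_d k l : ℝ) := by
  unfold CONC1_d
  rcases le_total k l with h | h
  · rw [Nat.sub_eq_zero_of_le h, zero_add, Nat.cast_sub h, abs_of_nonpos (by
      have : (k : ℝ) ≤ l := by exact_mod_cast h
      linarith)]
    ring
  · rw [Nat.sub_eq_zero_of_le h, add_zero, Nat.cast_sub h, abs_of_nonneg (by
      have : (l : ℝ) ≤ k := by exact_mod_cast h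
      linarith)]

theorem CONC1_row {ρ : ℝ} (h0 : 0 ≤ ρ) (h1 : ρ ≤ 1 / 2) {L k : ℕ} (hk : k < L) :
    ∑ l ∈ range L, (if CONC1_d k l = 0 then 0 else ρ ^ CONC1_d k l) ≤ 4 * ρ := by
  rw [← sum_range_add_sum_Ico _ (show k + 1 ≤ L from hk)]
  have e1 : ∑ l ∈ range (k + 1), (if CONC1_d k l = 0 then 0 else ρ ^ CONC1_d k l) =
      ∑ j ∈ range (k + 1), (if j = 0 then 0 else ρ ^ j) := by
    rw [← sum_range_reflect]
    refine sum_congr rfl fun j hj => ?_
    have hj' := mem_range.1 hj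
    have h2 : CONC1_d k (k + 1 - 1 - j) = j := by
      unfold CONC1_d
      omega
    rw [h2]
  have e2 : ∑ l ∈ Ico (k + 1) L, (if CONC1_d k l = 0 then 0 else ρ ^ CONC1_d k l) ≤
      ∑ j ∈ range (L - (k + 1) + 1), (if j = 0 then 0 else ρ ^ j) := by
    rw [sum_Ico_eq_sum_range, sum_range_succ']
    simp only [if_true, add_zero]
    refine le_of_eq (sum_congr rfl fun j _ => ?_)
    have h2 : CONC1_d k (k + 1 + j) = j + 1 := by
      unfold CONC1_d
      omega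
    rw [h2]
  rw [e1]
  have h3 := CONC1_geo h0 h1 (k + 1)
  have h4 := CONC1_geo h0 h1 (L - (k + 1) + 1)
  linarith

theorem CONC1_comm (k l : ℕ) : CONC1_d k l = CONC1_d l k := by
  unfold CONC1_d
  omega

theorem CONC1_pt {x y m : ℝ} (hx : 0 ≤ x) (hy : 0 ≤ y) (hm : (x * y) ^ (1 / 10 : ℝ) ≤ m) :
    (x * y) ^ (3 / 5 : ℝ) ≤ (x + y) / 2 * m := by
  have hxy : 0 ≤ x * y := mul_nonneg hx hy
  have h1 : (x * y) ^ (3 / 5 : ℝ) = (x * y) ^ (1 / 2 : ℝ) * (x * y) ^ (1 / 10 : ℝ) := by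
    rw [← Real.rpow_add_of_nonneg hxy (by norm_num) (by norm_num)]
    norm_num
  have h2 : (x * y) ^ (1 / 2 : ℝ) ≤ (x + y) / 2 := by
    rw [← Real.sqrt_eq_rpow, Real.sqrt_le_left (by positivity)]
    nlinarith [sq_nonneg (x - y)]
  rw [h1]
  exact mul_le_mul h2 hm (Real.rpow_nonneg hxy _) (by positivity)

theorem conc1 : ∃ p0 : ℕ, 2 ≤ p0 ∧ ∀ p : ℕ, p0 ≤ p → ∀ η : ℝ, 0 ≤ η → η ≤ 1 / 40 →
    ∀ (L : ℕ) (x y : ℕ → ℝ), (∀ k, 0 ≤ x k) → (∀ k, 0 ≤ y k) → ∑ k ∈ range L, x k = 1 →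
    ∑ k ∈ range L, y k = 1 →
    1 ≤ ∑ k ∈ range L, ∑ l ∈ range L, th η p k l * (x k * y l) ^ (3 / 5 : ℝ) →
    ∃ k0 ∈ range L, 9 / 10 ≤ x k0 ∧ 9 / 10 ≤ y k0 := by
  have hlim : Filter.Tendsto (fun p : ℕ => (p : ℝ) ^ (-(39 / 100 : ℝ))) Filter.atTop (nhds 0) :=
    (tendsto_rpow_neg_atTop (by norm_num)).comp tendsto_natCast_atTop_atTop
  obtain ⟨N, hN⟩ := Filter.eventually_atTop.1
    (hlim.eventually (eventually_le_nhds (show (0 : ℝ) < 1 / 400 by norm_num)))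
  refine ⟨max N 2, le_max_right _ _, ?_⟩
  intro p hp η hη0 hη1 L x y hx hy hxs hys hsum
  have hp2 : 2 ≤ p := (le_max_right _ _).trans hp
  have hp0 : (0 : ℝ) < p := by
    have : (2 : ℝ) ≤ p := by exact_mod_cast hp2
    linarith
  obtain ⟨ρ, hρ⟩ : ∃ ρ : ℝ, ρ = (p : ℝ) ^ (-(39 / 100 : ℝ)) := ⟨_, rfl⟩
  have hρ0 : 0 ≤ ρ := by rw [hρ]; positivity
  have hρ1 : ρ ≤ 1 / 400 := by rw [hρ]; exact hN p ((le_max_left _ _).trans hp)
  have hth : ∀ k l, th η p k l ≤ ρ ^ CONC1_d k l := by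
    intro k l
    refine (th_le η hη0 hη1 p k l hp2).trans (le_of_eq ?_)
    rw [CONC1_dist, Real.rpow_mul hp0.le, ← hρ, Real.rpow_natCast]
  -- the maximal index
  have hLne : (range L).Nonempty := by
    rw [nonempty_range_iff]
    rintro rfl
    simp at hxs
  obtain ⟨k0, hk0, hmax⟩ := exists_max_image (range L) (fun k => x k * y k) hLne
  obtain ⟨m, hm⟩ : ∃ m : ℝ, m = (x k0 * y k0) ^ (1 / 10 : ℝ) := ⟨_, rfl⟩
  have hm0 : 0 ≤ m := by rw [hm]; exact Real.rpow_nonneg (mul_nonneg (hx _) (hy _)) _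
  have hx1 : ∀ k ∈ range L, x k ≤ 1 := fun k hk =>
    hxs ▸ single_le_sum (fun i _ => hx i) hk
  have hy1 : ∀ k ∈ range L, y k ≤ 1 := fun k hk =>
    hys ▸ single_le_sum (fun i _ => hy i) hk
  have hterm : ∀ k ∈ range L, ∀ l ∈ range L, th η p k l * (x k * y l) ^ (3 / 5 : ℝ) ≤
      (if CONC1_d k l = 0 then (x k + y l) / 2 * m else 0) +
        (if CONC1_d k l = 0 then 0 else ρ ^ CONC1_d k l) * ((x k + y l) / 2) := by
    intro k hk l hl
    have hxy : 0 ≤ (x k * y l) ^ (3 / 5 : ℝ) :=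
      Real.rpow_nonneg (mul_nonneg (hx _) (hy _)) _
    by_cases h : CONC1_d k l = 0
    · have hkl : k = l := by
        unfold CONC1_d at h
        omega
      rw [if_pos h, if_pos h, zero_mul, add_zero]
      subst hkl
      have h1 : th η p k k ≤ 1 := by
        have := hth k k
        rwa [h, pow_zero] at this
      have h2 : (x k * y k) ^ (3 / 5 : ℝ) ≤ (x k + y k) / 2 * m := by
        refine CONC1_pt (hx _) (hy _) ?_
        rw [hm]
        exact Real.rpow_le_rpow (mul_nonneg (hx _) (hy _)) (hmax k hk) (by norm_num)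
      calc th η p k k * (x k * y k) ^ (3 / 5 : ℝ) ≤ 1 * (x k * y k) ^ (3 / 5 : ℝ) :=
            mul_le_mul_of_nonneg_right h1 hxy
        _ ≤ (x k + y k) / 2 * m := by rw [one_mul]; exact h2
    · rw [if_neg h, if_neg h, zero_add]
      have h2 : (x k * y l) ^ (3 / 5 : ℝ) ≤ (x k + y l) / 2 * 1 := by
        refine CONC1_pt (hx _) (hy _) ?_
        refine Real.rpow_le_one (mul_nonneg (hx _) (hy _)) ?_ (by norm_num)
        exact mul_le_one₀ (hx1 k hk) (hy _) (hy1 l hl)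
      rw [mul_one] at h2
      exact mul_le_mul (hth k l) h2 hxy (by positivity)
  have hD : ∑ k ∈ range L, ∑ l ∈ range L, (if CONC1_d k l = 0 then (x k + y l) / 2 * m else 0) =
      m := by
    have h1 : ∀ k ∈ range L, ∑ l ∈ range L, (if CONC1_d k l = 0 then (x k + y l) / 2 * m else 0) =
        (x k + y k) / 2 * m := by
      intro k hk
      have h2 : ∀ l, (CONC1_d k l = 0) ↔ k = l := by
        intro l
        unfold CONC1_d
        omega
      simp only [h2]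
      rw [sum_ite_eq, if_pos hk]
    rw [sum_congr rfl h1, ← sum_mul, ← sum_div, sum_add_distrib, hxs, hys]
    norm_num
  have hO : ∑ k ∈ range L, ∑ l ∈ range L,
      (if CONC1_d k l = 0 then 0 else ρ ^ CONC1_d k l) * ((x k + y l) / 2) ≤ 4 * ρ := by
    have h1 : ∑ k ∈ range L, ∑ l ∈ range L,
        (if CONC1_d k l = 0 then 0 else ρ ^ CONC1_d k l) * ((x k + y l) / 2) =
        (∑ k ∈ range L, (∑ l ∈ range L, (if CONC1_d k l = 0 then 0 else ρ ^ CONC1_d k l)) *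
          (x k / 2)) +
        ∑ l ∈ range L, (∑ k ∈ range L, (if CONC1_d l k = 0 then 0 else ρ ^ CONC1_d l k)) *
          (y l / 2) := by
      simp only [sum_mul]
      rw [sum_comm (f := fun l k => (if CONC1_d l k = 0 then 0 else ρ ^ CONC1_d l k) * (y l / 2)),
        ← sum_add_distrib]
      refine sum_congr rfl fun k _ => ?_
      rw [← sum_add_distrib]
      refine sum_congr rfl fun l _ => ?_
      rw [CONC1_comm l k]
      ring
    rw [h1]
    have h2 : ∀ (z : ℕ → ℝ), (∀ k, 0 ≤ z k) → ∑ k ∈ range L, z k = 1 →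
        ∑ k ∈ range L, (∑ l ∈ range L, (if CONC1_d k l = 0 then 0 else ρ ^ CONC1_d k l)) *
          (z k / 2) ≤ 2 * ρ := by
      intro z hz hzs
      have h3 : ∑ k ∈ range L, (∑ l ∈ range L,
          (if CONC1_d k l = 0 then 0 else ρ ^ CONC1_d k l)) * (z k / 2) ≤
          ∑ k ∈ range L, (4 * ρ) * (z k / 2) := by
        refine sum_le_sum fun k hk => ?_
        exact mul_le_mul_of_nonneg_right (CONC1_row hρ0 (by linarith) (mem_range.1 hk))
          (by have := hz k; positivity)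
      refine h3.trans (le_of_eq ?_)
      rw [← mul_sum, ← sum_div, hzs]
      ring
    have h4 := h2 x hx hxs
    have h5 := h2 y hy hys
    linarith
  have htot : 1 ≤ m + 4 * ρ := by
    refine hsum.trans ?_
    refine (sum_le_sum fun k hk => sum_le_sum fun l hl => hterm k hk l hl).trans ?_
    simp only [sum_add_distrib]
    rw [hD]
    linarith
  have hm1 : 99 / 100 ≤ m := by linarith
  have hm10 : m ^ 10 = x k0 * y k0 := by
    rw [hm, ← Real.rpow_natCast, ← Real.rpow_mul (mul_nonneg (hx _) (hy _))]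
    norm_num
  have h9 : (9 / 10 : ℝ) ≤ x k0 * y k0 := by
    rw [← hm10]
    calc (9 / 10 : ℝ) ≤ (99 / 100) ^ 10 := by norm_num
      _ ≤ m ^ 10 := pow_le_pow_left₀ (by norm_num) hm1 10
  refine ⟨k0, hk0, ?_, ?_⟩
  · have := mul_le_mul_of_nonneg_left (hy1 k0 hk0) (hx k0)
    linarith
  · have := mul_le_mul_of_nonneg_right (hx1 k0 hk0) (hy k0)
    linarith

end Vale.Agent.P028KM
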