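import Vale.Agent.P028KM.Defs
import Vale.Agent.P028KM.THB

/-!
Module CONC2: refined concentration. Put `ξ = 1 - x k0`, `ζ = 1 - y k0`, both `≤ 1/10`.
The double sum is at most
`(x k0 * y k0)^(3/5)  [≤ exp(-(3/5)(ξ+ζ)) ≤ 1 - 0.56 (ξ+ζ)]`
`+ ∑_{k ≠ k0} th(k,k0) x_k^(3/5) [Hölder 5/3, 5/2: ≤ (∑_{j≠0} p^(-39|j|/40))^(2/5) ξ^(3/5) ≤ (4 p^(-39/40))^(2/5) ξ^(3/5)]`
`+ the same with y`
`+ ∑_{k ≠ k0} (x_k y_k)^(3/5) [≤ (ξ ζ)^(3/5) ≤ 0.32 (ξ+ζ)]`
`+ ∑_{k,l ≠ k0, k ≠ l} th(k,l)(x_k y_l)^(3/5) [≤ 4 p^(-39/100) (ξ ζ)^(3/5)]`.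
(`∑_k (u_k v_k)^(3/5) ≤ ((∑u)(∑v))^(3/5)` by Cauchy-Schwarz and `6/5 ≥ 1`.)
So `0.23 (ξ+ζ) ≤ 2 (4 p^(-39/40))^(2/5) (ξ+ζ)^(3/5)`, whence `ξ+ζ ≤ C p^(-39/40)`.
-/

namespace Vale.Agent.P028KM

open Finset MeasureTheory
open Vale.Agent.P028EV (q1 r1 Del hh)

theorem CONC2_geo (r : ℝ) (h0 : 0 ≤ r) (h1 : r ≤ 1 / 2) (n : ℕ) :
    ∑ j ∈ range n, r ^ (j + 1) ≤ 2 * r := by
  have h2 : (∑ j ∈ range n, r ^ j) * (1 - r) = 1 - r ^ n := by
    have := geom_sum_mul_neg r n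
    exact this
  have h3 : 0 ≤ r ^ n := pow_nonneg h0 n
  have h4 : 0 ≤ ∑ j ∈ range n, r ^ j := Finset.sum_nonneg fun j _ => pow_nonneg h0 j
  have h5 : ∑ j ∈ range n, r ^ j ≤ 2 := by nlinarith
  have h6 : ∑ j ∈ range n, r ^ (j + 1) = r * ∑ j ∈ range n, r ^ j := by
    rw [Finset.mul_sum]
    exact Finset.sum_congr rfl fun j _ => pow_succ' r j
  rw [h6]
  nlinarith

theorem CONC2_row (r : ℝ) (h0 : 0 ≤ r) (h1 : r ≤ 1 / 2) (L k : ℕ) :
    ∑ l ∈ (range L).erase k, r ^ ((k - l) + (l - k)) ≤ 4 * r := by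
  have hA : ∀ l ∈ (range L).erase k, r ^ ((k - l) + (l - k))
      ≤ (if l < k then r ^ (k - l) else 0) + (if k < l then r ^ (l - k) else 0) := by
    intro l hl
    have hlk : l ≠ k := (Finset.mem_erase.1 hl).1
    rcases lt_or_gt_of_ne hlk with h | h
    · rw [if_pos h, if_neg (by omega), add_zero]
      have : (k - l) + (l - k) = k - l := by omega
      rw [this]
    · rw [if_neg (by omega), if_pos h, zero_add]
      have : (k - l) + (l - k) = l - k := by omega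
      rw [this]
  refine (Finset.sum_le_sum hA).trans ?_
  rw [Finset.sum_add_distrib]
  have hB : ∑ l ∈ (range L).erase k, (if l < k then r ^ (k - l) else 0) ≤ 2 * r := by
    rw [← Finset.sum_filter]
    have hsub : ((range L).erase k).filter (fun l => l < k) ⊆ range k := by
      intro l hl
      exact Finset.mem_range.2 (Finset.mem_filter.1 hl).2
    refine (Finset.sum_le_sum_of_subset_of_nonneg hsub fun l _ _ => pow_nonneg h0 _).trans ?_
    have hrefl : ∑ l ∈ range k, r ^ (k - l) = ∑ j ∈ range k, r ^ (j + 1) := by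
      rw [← Finset.sum_range_reflect (fun j => r ^ (j + 1)) k]
      refine Finset.sum_congr rfl fun l hl => ?_
      have := Finset.mem_range.1 hl
      congr 1
      omega
    rw [hrefl]
    exact CONC2_geo r h0 h1 k
  have hC : ∑ l ∈ (range L).erase k, (if k < l then r ^ (l - k) else 0) ≤ 2 * r := by
    rw [← Finset.sum_filter]
    have himg : ∑ l ∈ ((range L).erase k).filter (fun l => k < l), r ^ (l - k)
        = ∑ j ∈ (((range L).erase k).filter (fun l => k < l)).image (fun l => l - k - 1),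
          r ^ (j + 1) := by
      rw [Finset.sum_image]
      · refine Finset.sum_congr rfl fun l hl => ?_
        have := (Finset.mem_filter.1 hl).2
        congr 1
        omega
      · intro a ha b hb hab
        have h3 := (Finset.mem_filter.1 (Finset.mem_coe.1 ha)).2
        have h4 := (Finset.mem_filter.1 (Finset.mem_coe.1 hb)).2
        simp only at hab
        omega
    rw [himg]
    have hsub : (((range L).erase k).filter (fun l => k < l)).image (fun l => l - k - 1)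
        ⊆ range L := by
      intro j hj
      obtain ⟨l, hl, rfl⟩ := Finset.mem_image.1 hj
      have h5 := Finset.mem_range.1 (Finset.mem_erase.1 (Finset.mem_filter.1 hl).1).2
      exact Finset.mem_range.2 (by omega)
    refine (Finset.sum_le_sum_of_subset_of_nonneg hsub fun l _ _ => pow_nonneg h0 _).trans ?_
    exact CONC2_geo r h0 h1 L
  linarith

theorem CONC2_young (a x : ℝ) (ha : 0 ≤ a) (hx : 0 ≤ x) :
    a * x ^ (3 / 5 : ℝ) ≤ x / 20 + (2 / 5 * (12 : ℝ) ^ (3 / 2 : ℝ)) * a ^ (5 / 2 : ℝ) := by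
  have hpq : (5 / 2 : ℝ).HolderConjugate (5 / 3) := by
    rw [Real.holderConjugate_iff]
    constructor <;> norm_num
  have h1 := Real.young_inequality_of_nonneg (a := a * (12 : ℝ) ^ (3 / 5 : ℝ))
    (b := (x / 12) ^ (3 / 5 : ℝ)) (by positivity) (by positivity) hpq
  have e1 : a * (12 : ℝ) ^ (3 / 5 : ℝ) * (x / 12) ^ (3 / 5 : ℝ) = a * x ^ (3 / 5 : ℝ) := by
    rw [mul_assoc, ← Real.mul_rpow (by norm_num) (by positivity)]
    congr 2
    field_simp
  have e2 : (a * (12 : ℝ) ^ (3 / 5 : ℝ)) ^ (5 / 2 : ℝ)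
      = a ^ (5 / 2 : ℝ) * (12 : ℝ) ^ (3 / 2 : ℝ) := by
    rw [Real.mul_rpow ha (by positivity), ← Real.rpow_mul (by norm_num)]
    norm_num
  have e3 : ((x / 12) ^ (3 / 5 : ℝ)) ^ (5 / 3 : ℝ) = x / 12 := by
    rw [← Real.rpow_mul (by positivity)]
    norm_num
  rw [e1, e2, e3] at h1
  calc a * x ^ (3 / 5 : ℝ) ≤ _ := h1
    _ = x / 20 + (2 / 5 * (12 : ℝ) ^ (3 / 2 : ℝ)) * a ^ (5 / 2 : ℝ) := by ring

theorem CONC2_six (x ξ : ℝ) (hx : 0 ≤ x) (hxξ : x ≤ ξ) (hξ : ξ ≤ 1 / 10) :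
    x ^ (6 / 5 : ℝ) ≤ 632 / 1000 * x := by
  have h1 : x ^ (6 / 5 : ℝ) = x ^ (1 / 5 : ℝ) * x := by
    rcases hx.eq_or_lt with h | h
    · rw [← h, Real.zero_rpow (by norm_num), mul_zero]
    · rw [show (6 / 5 : ℝ) = 1 / 5 + 1 by norm_num, Real.rpow_add h, Real.rpow_one]
  rw [h1]
  refine mul_le_mul_of_nonneg_right ?_ hx
  have h2 : x ^ (1 / 5 : ℝ) ≤ ((632 / 1000 : ℝ) ^ (5 : ℕ)) ^ (1 / 5 : ℝ) := by
    refine Real.rpow_le_rpow hx ?_ (by norm_num)
    calc x ≤ 1 / 10 := hxξ.trans hξ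
      _ ≤ (632 / 1000 : ℝ) ^ (5 : ℕ) := by norm_num
  refine h2.trans_eq ?_
  rw [← Real.rpow_natCast, ← Real.rpow_mul (by norm_num)]
  norm_num

theorem CONC2_th (η : ℝ) (hη0 : 0 ≤ η) (hη1 : η ≤ 1 / 40) (p k l : ℕ) (hp : 2 ≤ p) :
    th η p k l ≤ ((p : ℝ) ^ (-(39 / 100) : ℝ)) ^ ((k - l) + (l - k)) := by
  refine (th_le η hη0 hη1 p k l hp).trans_eq ?_
  have hp0 : (0 : ℝ) ≤ p := Nat.cast_nonneg p
  rw [← Real.rpow_natCast, ← Real.rpow_mul hp0]
  congr 2
  rcases le_total k l with h | h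
  · have : (k - l) + (l - k) = l - k := by omega
    rw [this, Nat.cast_sub h, abs_sub_comm, abs_of_nonneg (by
      have : (k : ℝ) ≤ l := by exact_mod_cast h
      linarith)]
  · have : (k - l) + (l - k) = k - l := by omega
    rw [this, Nat.cast_sub h, abs_of_nonneg (by
      have : (l : ℝ) ≤ k := by exact_mod_cast h
      linarith)]

theorem conc2 : ∃ C2 : ℝ, 0 < C2 ∧ ∃ p0 : ℕ, 2 ≤ p0 ∧ ∀ p : ℕ, p0 ≤ p → ∀ η : ℝ, 0 ≤ η →
    η ≤ 1 / 40 → ∀ (L : ℕ) (x y : ℕ → ℝ), (∀ k, 0 ≤ x k) → (∀ k, 0 ≤ y k) →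
    ∑ k ∈ range L, x k = 1 → ∑ k ∈ range L, y k = 1 →
    1 ≤ ∑ k ∈ range L, ∑ l ∈ range L, th η p k l * (x k * y l) ^ (3 / 5 : ℝ) →
    ∀ k0 ∈ range L, 9 / 10 ≤ x k0 → 9 / 10 ≤ y k0 →
      1 - x k0 ≤ C2 * (p : ℝ) ^ (-(39 / 40) : ℝ) ∧ 1 - y k0 ≤ C2 * (p : ℝ) ^ (-(39 / 40) : ℝ) := by
  have hlim : Filter.Tendsto (fun p : ℕ => (p : ℝ) ^ (-(39 / 100) : ℝ)) Filter.atTop (nhds 0) :=
    (tendsto_rpow_neg_atTop (by norm_num : (0 : ℝ) < 39 / 100)).comp tendsto_natCast_atTop_atTop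
  have hev := hlim.eventually (gt_mem_nhds (show (0 : ℝ) < 1 / 40 by norm_num))
  obtain ⟨p1, hp1⟩ := Filter.eventually_atTop.1 hev
  set C0 : ℝ := 2 / 5 * (12 : ℝ) ^ (3 / 2 : ℝ) with hC0
  have hC0p : 0 < C0 := by positivity
  refine ⟨44 * C0, by positivity, max 2 p1, le_max_left _ _, ?_⟩
  intro p hp η hη0 hη1 L x y hx hy hsx hsy hsum k0 hk0 hxk hyk
  have hp2 : 2 ≤ p := (le_max_left _ _).trans hp
  have hpr : (0 : ℝ) < p := by
    have : 0 < p := by omega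
    exact_mod_cast this
  set r : ℝ := (p : ℝ) ^ (-(39 / 100) : ℝ) with hr
  have hr0 : 0 ≤ r := by positivity
  have hr1 : r ≤ 1 / 40 := (hp1 p ((le_max_right _ _).trans hp)).le
  set R : ℝ := (p : ℝ) ^ (-(39 / 40) : ℝ) with hR
  have hR0 : 0 ≤ R := by positivity
  have hRr : r ^ (5 / 2 : ℝ) = R := by
    rw [hr, hR, ← Real.rpow_mul hpr.le]
    norm_num
  have hR1 : R ≤ 1 / 2 := by
    rw [← hRr]
    calc r ^ (5 / 2 : ℝ) ≤ r ^ (1 : ℝ) :=
          Real.rpow_le_rpow_of_exponent_ge' hr0 (by linarith) (by norm_num) (by norm_num)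
      _ = r := Real.rpow_one r
      _ ≤ 1 / 2 := by linarith
  set E : Finset ℕ := (range L).erase k0 with hE
  have hxE : ∑ k ∈ E, x k = 1 - x k0 := by
    have := Finset.add_sum_erase (range L) x hk0
    rw [hsx] at this
    linarith
  have hyE : ∑ k ∈ E, y k = 1 - y k0 := by
    have := Finset.add_sum_erase (range L) y hk0
    rw [hsy] at this
    linarith
  have hξ0 : 0 ≤ 1 - x k0 := hxE ▸ Finset.sum_nonneg fun k _ => hx k
  have hζ0 : 0 ≤ 1 - y k0 := hyE ▸ Finset.sum_nonneg fun k _ => hy k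
  have hxle : ∀ k ∈ E, x k ≤ 1 - x k0 := fun k hk =>
    hxE ▸ Finset.single_le_sum (fun j _ => hx j) hk
  have hyle : ∀ k ∈ E, y k ≤ 1 - y k0 := fun k hk =>
    hyE ▸ Finset.single_le_sum (fun j _ => hy j) hk
  -- the split
  have hsplit : ∑ k ∈ range L, ∑ l ∈ range L, th η p k l * (x k * y l) ^ (3 / 5 : ℝ)
      = (th η p k0 k0 * (x k0 * y k0) ^ (3 / 5 : ℝ)
          + ∑ l ∈ E, th η p k0 l * (x k0 * y l) ^ (3 / 5 : ℝ))
        + ((∑ k ∈ E, th η p k k0 * (x k * y k0) ^ (3 / 5 : ℝ))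
          + ∑ k ∈ E, ∑ l ∈ E, th η p k l * (x k * y l) ^ (3 / 5 : ℝ)) := by
    rw [← Finset.add_sum_erase (range L) _ hk0, ← Finset.sum_add_distrib]
    congr 1
    · rw [← Finset.add_sum_erase (range L) _ hk0]
    · refine Finset.sum_congr rfl fun k _ => ?_
      rw [← Finset.add_sum_erase (range L) _ hk0]
  have hth0 : ∀ k l, 0 ≤ th η p k l := fun k l => (th_pos η p k l hp2).le
  have hthr : ∀ k l, th η p k l ≤ r ^ ((k - l) + (l - k)) := fun k l =>
    CONC2_th η hη0 hη1 p k l hp2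
  -- first term
  have hT1 : th η p k0 k0 * (x k0 * y k0) ^ (3 / 5 : ℝ)
      ≤ (1 - 3 / 5 * (1 - x k0)) * (1 - 3 / 5 * (1 - y k0)) := by
    have h1 : th η p k0 k0 ≤ 1 := by
      have := hthr k0 k0
      simpa using this
    have hb : ∀ z : ℝ, 0 ≤ z → z ^ (3 / 5 : ℝ) ≤ 1 - 3 / 5 * (1 - z) := by
      intro z hz
      have h2 := rpow_one_add_le_one_add_mul_self (s := z - 1) (by linarith)
        (p := 3 / 5) (by norm_num) (by norm_num)
      rw [show 1 + (z - 1) = z by ring] at h2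
      linarith
    rw [Real.mul_rpow (hx k0) (hy k0)]
    calc th η p k0 k0 * (x k0 ^ (3 / 5 : ℝ) * y k0 ^ (3 / 5 : ℝ))
        ≤ 1 * (x k0 ^ (3 / 5 : ℝ) * y k0 ^ (3 / 5 : ℝ)) :=
          mul_le_mul_of_nonneg_right h1
            (mul_nonneg (Real.rpow_nonneg (hx k0) _) (Real.rpow_nonneg (hy k0) _))
      _ ≤ (1 - 3 / 5 * (1 - x k0)) * (1 - 3 / 5 * (1 - y k0)) := by
          rw [one_mul]
          exact mul_le_mul (hb _ (hx k0)) (hb _ (hy k0)) (Real.rpow_nonneg (hy k0) _)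
            (by linarith)
  -- cross terms
  have hcross : ∀ (u : ℕ → ℝ) (c : ℝ), (∀ k, 0 ≤ u k) → 0 ≤ c → c ≤ 1 → ∀ a : ℕ → ℝ,
      (∀ k, 0 ≤ a k) → (∀ k, a k ≤ r ^ ((k0 - k) + (k - k0))) →
      ∑ k ∈ E, a k * (u k * c) ^ (3 / 5 : ℝ) ≤ (∑ k ∈ E, u k) / 20 + 4 * C0 * R := by
    intro u c hu hc0 hc1 a ha0 ha
    have h1 : ∀ k ∈ E, a k * (u k * c) ^ (3 / 5 : ℝ)
        ≤ u k / 20 + C0 * R ^ ((k0 - k) + (k - k0)) := by
      intro k _
      have h2 : (u k * c) ^ (3 / 5 : ℝ) ≤ u k ^ (3 / 5 : ℝ) :=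
        Real.rpow_le_rpow (mul_nonneg (hu k) hc0) (mul_le_of_le_one_right (hu k) hc1)
          (by norm_num)
      have h3 : a k ^ (5 / 2 : ℝ) ≤ R ^ ((k0 - k) + (k - k0)) := by
        calc a k ^ (5 / 2 : ℝ) ≤ (r ^ ((k0 - k) + (k - k0))) ^ (5 / 2 : ℝ) :=
              Real.rpow_le_rpow (ha0 k) (ha k) (by norm_num)
          _ = R ^ ((k0 - k) + (k - k0)) := by
              rw [← Real.rpow_natCast, ← Real.rpow_mul hr0, mul_comm, Real.rpow_mul hr0, hRr,
                Real.rpow_natCast]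
      calc a k * (u k * c) ^ (3 / 5 : ℝ) ≤ a k * u k ^ (3 / 5 : ℝ) :=
            mul_le_mul_of_nonneg_left h2 (ha0 k)
        _ ≤ u k / 20 + C0 * a k ^ (5 / 2 : ℝ) := CONC2_young (a k) (u k) (ha0 k) (hu k)
        _ ≤ u k / 20 + C0 * R ^ ((k0 - k) + (k - k0)) := by
            have := mul_le_mul_of_nonneg_left h3 hC0p.le
            linarith
    refine (Finset.sum_le_sum h1).trans ?_
    rw [Finset.sum_add_distrib, ← Finset.sum_div, ← Finset.mul_sum]
    have h4 := CONC2_row R hR0 hR1 L k0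
    have h5 := mul_le_mul_of_nonneg_left h4 hC0p.le
    linarith
  have hT2 : ∑ l ∈ E, th η p k0 l * (x k0 * y l) ^ (3 / 5 : ℝ)
      ≤ (1 - y k0) / 20 + 4 * C0 * R := by
    have h1 := hcross y (x k0) hy (hx k0) (by linarith) (fun l => th η p k0 l)
      (fun l => hth0 k0 l) (fun l => hthr k0 l)
    rw [hyE] at h1
    refine le_trans (le_of_eq ?_) h1
    refine Finset.sum_congr rfl fun l _ => ?_
    rw [mul_comm (x k0) (y l)]
  have hT3 : ∑ k ∈ E, th η p k k0 * (x k * y k0) ^ (3 / 5 : ℝ)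
      ≤ (1 - x k0) / 20 + 4 * C0 * R := by
    have h1 := hcross x (y k0) hx (hy k0) (by linarith) (fun k => th η p k k0)
      (fun k => hth0 k k0) (fun k => by
        have := hthr k k0
        rwa [add_comm] at this)
    rw [hxE] at h1
    exact h1
  -- the rest
  have hrow : ∀ k ∈ E, ∑ l ∈ E, r ^ ((k - l) + (l - k)) ≤ 11 / 10 := by
    intro k hk
    have hkL : k ∈ range L := Finset.mem_of_mem_erase hk
    have h1 : ∑ l ∈ E, r ^ ((k - l) + (l - k)) ≤ ∑ l ∈ range L, r ^ ((k - l) + (l - k)) :=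
      Finset.sum_le_sum_of_subset_of_nonneg (Finset.erase_subset _ _)
        fun l _ _ => pow_nonneg hr0 _
    rw [← Finset.add_sum_erase (range L) _ hkL] at h1
    have h2 := CONC2_row r hr0 (by linarith) L k
    have h3 : r ^ ((k - k) + (k - k)) = 1 := by simp
    rw [h3] at h1
    linarith
  have hT4 : ∑ k ∈ E, ∑ l ∈ E, th η p k l * (x k * y l) ^ (3 / 5 : ℝ)
      ≤ 3476 / 10000 * ((1 - x k0) + (1 - y k0)) := by
    have h1 : ∀ k ∈ E, ∀ l ∈ E, th η p k l * (x k * y l) ^ (3 / 5 : ℝ)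
        ≤ r ^ ((k - l) + (l - k)) * (316 / 1000 * x k)
          + r ^ ((k - l) + (l - k)) * (316 / 1000 * y l) := by
      intro k hk l hl
      have h2 : (x k * y l) ^ (3 / 5 : ℝ) ≤ 316 / 1000 * x k + 316 / 1000 * y l := by
        rw [Real.mul_rpow (hx k) (hy l)]
        have hsq : ∀ z : ℝ, 0 ≤ z → (z ^ (3 / 5 : ℝ)) ^ 2 = z ^ (6 / 5 : ℝ) := by
          intro z hz
          rw [← Real.rpow_natCast, ← Real.rpow_mul hz]
          norm_num
        have h3 := two_mul_le_add_sq (x k ^ (3 / 5 : ℝ)) (y l ^ (3 / 5 : ℝ))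
        rw [hsq _ (hx k), hsq _ (hy l)] at h3
        have h4 := CONC2_six (x k) (1 - x k0) (hx k) (hxle k hk) (by linarith)
        have h5 := CONC2_six (y l) (1 - y k0) (hy l) (hyle l hl) (by linarith)
        linarith
      calc th η p k l * (x k * y l) ^ (3 / 5 : ℝ)
          ≤ r ^ ((k - l) + (l - k)) * (x k * y l) ^ (3 / 5 : ℝ) :=
            mul_le_mul_of_nonneg_right (hthr k l)
              (Real.rpow_nonneg (mul_nonneg (hx k) (hy l)) _)
        _ ≤ r ^ ((k - l) + (l - k)) * (316 / 1000 * x k + 316 / 1000 * y l) :=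
            mul_le_mul_of_nonneg_left h2 (pow_nonneg hr0 _)
        _ = _ := by ring
    refine (Finset.sum_le_sum fun k hk => Finset.sum_le_sum fun l hl => h1 k hk l hl).trans ?_
    simp only [Finset.sum_add_distrib]
    have h6 : ∑ k ∈ E, ∑ l ∈ E, r ^ ((k - l) + (l - k)) * (316 / 1000 * x k)
        ≤ 3476 / 10000 * (1 - x k0) := by
      calc ∑ k ∈ E, ∑ l ∈ E, r ^ ((k - l) + (l - k)) * (316 / 1000 * x k)
          = ∑ k ∈ E, (∑ l ∈ E, r ^ ((k - l) + (l - k))) * (316 / 1000 * x k) :=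
            Finset.sum_congr rfl fun k _ => (Finset.sum_mul _ _ _).symm
        _ ≤ ∑ k ∈ E, 11 / 10 * (316 / 1000 * x k) := by
            refine Finset.sum_le_sum fun k hk => ?_
            refine mul_le_mul_of_nonneg_right (hrow k hk) ?_
            have := hx k
            positivity
        _ = 3476 / 10000 * (1 - x k0) := by
            rw [← hxE, Finset.mul_sum]
            refine Finset.sum_congr rfl fun k _ => ?_
            ring
    have h7 : ∑ k ∈ E, ∑ l ∈ E, r ^ ((k - l) + (l - k)) * (316 / 1000 * y l)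
        ≤ 3476 / 10000 * (1 - y k0) := by
      rw [Finset.sum_comm]
      calc ∑ l ∈ E, ∑ k ∈ E, r ^ ((k - l) + (l - k)) * (316 / 1000 * y l)
          = ∑ l ∈ E, (∑ k ∈ E, r ^ ((l - k) + (k - l))) * (316 / 1000 * y l) := by
            refine Finset.sum_congr rfl fun l _ => ?_
            rw [Finset.sum_mul]
            refine Finset.sum_congr rfl fun k _ => ?_
            rw [add_comm (k - l)]
        _ ≤ ∑ l ∈ E, 11 / 10 * (316 / 1000 * y l) := by
            refine Finset.sum_le_sum fun l hl => ?_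
            refine mul_le_mul_of_nonneg_right (hrow l hl) ?_
            have := hy l
            positivity
        _ = 3476 / 10000 * (1 - y k0) := by
            rw [← hyE, Finset.mul_sum]
            refine Finset.sum_congr rfl fun k _ => ?_
            ring
    linarith
  rw [hsplit] at hsum
  have hprod : (1 - x k0) * (1 - y k0) ≤ ((1 - x k0) + (1 - y k0)) / 20 := by nlinarith
  have hmain : ((1 - x k0) + (1 - y k0)) ≤ 44 * C0 * R := by
    have hCR : 0 ≤ C0 * R := by positivity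
    nlinarith
  constructor
  · linarith
  · linarith

end Vale.Agent.P028KM
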