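import Vale.Agent.P028KM.Defs


/-!
Module DI: an irrational non-Liouville number satisfies `Dio c m` for some `c > 0`, `m`. Not
Liouville: there is `n` such that for all integers `a, b` with `1 < b`, `γ = a/b` or
`|γ - a/b| ≥ 1/b^n`; the denominator `1` is treated by `|γ - a| ≥ |γ - round γ| > 0`.
-/

namespace Vale.Agent.P028KM

open Finset MeasureTheory
open Vale.Agent.P028EV (q1 r1 Del hh)

theorem di (γ : ℝ) (h1 : Irrational γ) (h2 : ¬ Liouville γ) : ∃ c : ℝ, 0 < c ∧ ∃ m : ℕ, Dio c m γ := by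
  unfold Liouville at h2
  push Not at h2
  obtain ⟨k, hk⟩ := h2
  have hpos : 0 < |γ - round γ| := by
    rw [abs_pos, sub_ne_zero]
    exact h1.ne_int _
  refine ⟨min 1 |γ - round γ|, lt_min one_pos hpos, k, ?_⟩
  intro n hn a
  have hn' : (1 : ℝ) ≤ (n : ℝ) := by exact_mod_cast hn
  have hnp : (0 : ℝ) < (n : ℝ) := by linarith
  have hnk : (0 : ℝ) < (n : ℝ) ^ k := by positivity
  rcases Nat.lt_or_ge 1 n with hn1 | hn1
  · have h3 := hk a (n : ℤ) (by exact_mod_cast hn1) (by
      have := h1.ne_rat ((a : ℚ) / (n : ℚ))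
      push_cast at this ⊢
      exact this)
    have h4 : |(n : ℝ) * γ - a| = (n : ℝ) * |γ - a / ((n : ℤ) : ℝ)| := by
      rw [← abs_of_pos hnp, ← abs_mul, abs_of_pos hnp]
      congr 1
      push_cast
      field_simp
    rw [h4]
    calc min 1 |γ - round γ| / (n : ℝ) ^ k ≤ 1 / (n : ℝ) ^ k := by
          gcongr
          exact min_le_left _ _
      _ ≤ |γ - a / ((n : ℤ) : ℝ)| := by
          have := h3
          push_cast at this ⊢
          exact this
      _ ≤ (n : ℝ) * |γ - a / ((n : ℤ) : ℝ)| := le_mul_of_one_le_left (abs_nonneg _) hn'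
  · have hn2 : n = 1 := by omega
    subst hn2
    simp only [Nat.cast_one, one_pow, div_one, one_mul]
    exact (min_le_right _ _).trans (round_le γ a)

end Vale.Agent.P028KM
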