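import Mathlib

/-! Module DV: proofs -/

namespace Vale.Agent.P028KM.DvPf

open Finset

theorem dv (δ : ℝ) (hδ : 0 < δ) : ∃ C : ℝ, 0 < C ∧ ∀ n : ℕ, 0 < n →
    (n.divisors.card : ℝ) ≤ C * (n : ℝ) ^ δ := by
  obtain ⟨N, hN⟩ := exists_nat_ge ((2 : ℝ) ^ (1 / δ))
  set b : ℝ := (2 : ℝ) ^ δ - 1 with hb
  have hb0 : 0 < b := by
    have := Real.one_lt_rpow (by norm_num : (1 : ℝ) < 2) hδ
    linarith
  set K : ℝ := max 1 (1 / b) with hK
  have hK1 : 1 ≤ K := le_max_left _ _
  have hKb : 1 ≤ K * b := by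
    have h1 : 1 / b ≤ K := le_max_right _ _
    have h2 := mul_le_mul_of_nonneg_right h1 hb0.le
    rwa [one_div, inv_mul_cancel₀ hb0.ne'] at h2
  refine ⟨K ^ N, by positivity, fun n hn => ?_⟩
  have hloc : ∀ p ∈ n.primeFactors, ((n.factorization p : ℝ) + 1) ≤
      (if p < N then K else 1) * ((p : ℝ) ^ (n.factorization p)) ^ δ := by
    intro p hp
    have hp2 : (2 : ℝ) ≤ p := by exact_mod_cast (Nat.prime_of_mem_primeFactors hp).two_le
    have hp0 : (0 : ℝ) ≤ p := by linarith
    set v := n.factorization p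
    rw [← Real.rpow_pow_comm hp0]
    by_cases h : p < N
    · rw [if_pos h]
      have h1 : (2 : ℝ) ^ δ ≤ (p : ℝ) ^ δ := Real.rpow_le_rpow (by norm_num) hp2 hδ.le
      have h2 : (1 + b) ^ v ≤ ((p : ℝ) ^ δ) ^ v :=
        pow_le_pow_left₀ (by linarith) (by rw [hb]; linarith) v
      have h3 : 1 + (v : ℝ) * b ≤ (1 + b) ^ v := one_add_mul_le_pow (by linarith) v
      have h4 : (v : ℝ) + 1 ≤ K * (1 + (v : ℝ) * b) := by
        have hv : (0 : ℝ) ≤ v := Nat.cast_nonneg _
        nlinarith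
      exact h4.trans (mul_le_mul_of_nonneg_left (h3.trans h2) (by linarith))
    · rw [if_neg h, one_mul]
      have hpN : (N : ℝ) ≤ p := by exact_mod_cast not_lt.1 h
      have h1 : ((2 : ℝ) ^ (1 / δ)) ^ δ ≤ (p : ℝ) ^ δ :=
        Real.rpow_le_rpow (by positivity) (hN.trans hpN) hδ.le
      rw [← Real.rpow_mul (by norm_num), one_div, inv_mul_cancel₀ hδ.ne', Real.rpow_one] at h1
      have h2 : (2 : ℝ) ^ v ≤ ((p : ℝ) ^ δ) ^ v := pow_le_pow_left₀ (by norm_num) h1 v
      have h3 : (v : ℝ) + 1 ≤ 2 ^ v := by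
        have : v + 1 ≤ 2 ^ v := Nat.lt_two_pow_self
        exact_mod_cast this
      exact h3.trans h2
  have hcard : (n.divisors.card : ℝ) = ∏ p ∈ n.primeFactors, ((n.factorization p : ℝ) + 1) := by
    rw [Nat.card_divisors hn.ne']
    push_cast
    rfl
  have hprod : ∏ p ∈ n.primeFactors, ((p : ℝ) ^ (n.factorization p)) ^ δ = (n : ℝ) ^ δ := by
    rw [Real.finsetProd_rpow _ _ (fun p _ => by positivity)]
    congr 1
    have := Nat.prod_factorization_pow_eq_self hn.ne'
    conv_rhs => rw [← this]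
    rw [Finsupp.prod, Nat.support_factorization]
    push_cast
    rfl
  have hconst : ∏ p ∈ n.primeFactors, (if p < N then K else 1) ≤ K ^ N := by
    rw [Finset.prod_ite, Finset.prod_const_one, mul_one, Finset.prod_const]
    refine pow_le_pow_right₀ hK1 ?_
    calc _ ≤ (Finset.range N).card := Finset.card_le_card fun p hp => by
          rw [Finset.mem_range]
          exact (Finset.mem_filter.1 hp).2
      _ = N := Finset.card_range N
  rw [hcard]
  calc _ ≤ ∏ p ∈ n.primeFactors,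
        ((if p < N then K else 1) * ((p : ℝ) ^ (n.factorization p)) ^ δ) :=
        Finset.prod_le_prod (fun p _ => by positivity) hloc
    _ = (∏ p ∈ n.primeFactors, (if p < N then K else 1)) * (n : ℝ) ^ δ := by
        rw [Finset.prod_mul_distrib, hprod]
    _ ≤ _ := mul_le_mul_of_nonneg_right hconst (by positivity)

end Vale.Agent.P028KM.DvPf
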