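import Vale.Agent.P028KM.Defs
import Vale.Agent.P028KM.DvPf


/-!
Module DV: the divisor bound `τ(n) ≤ C n^δ`; and the spacing lemma (elements of `T` in
increasing order: the first is `≥ H`, the gaps are `≥ H`).
-/

namespace Vale.Agent.P028KM

open Finset MeasureTheory
open Vale.Agent.P028EV (q1 r1 Del hh)

theorem dv (δ : ℝ) (hδ : 0 < δ) : ∃ C : ℝ, 0 < C ∧ ∀ n : ℕ, 0 < n →
    (n.divisors.card : ℝ) ≤ C * (n : ℝ) ^ δ := by
  exact DvPf.dv δ hδ

end Vale.Agent.P028KM
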