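import Mathlib
import Vale.Agent.P028EV.Defs

/-!
# P028: sum phi(q)/q min(psi(q), q^-eps) = infinity => full measure, gamma irrational not Liouville

Definitions. `q1 q r = q/gcd`, `r1 q r = r/gcd`, `Del = r1 ψ(q) + q1 ψ(r)`, `Dm = max(r1 ψ(q), q1 ψ(r))`.
-/

namespace Vale.Agent.P028KM

open Finset MeasureTheory
open Vale.Agent.P028EV (q1 r1 Del hh)

/-- `γ` is badly approximable up to a power, with constants `c, m` -/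
def Dio (c : ℝ) (m : ℕ) (γ : ℝ) : Prop :=
  ∀ n : ℕ, 0 < n → ∀ a : ℤ, c / (n : ℝ) ^ m ≤ |(n : ℝ) * γ - a|

/-- the full approximation set -/
def AF (γ : ℝ) (ψ : ℕ → ℝ) (q : ℕ) : Set ℝ := {x | ∃ a : ℤ, |(q : ℝ) * x - a - γ| < ψ q}

/-- `φ(q)/q` -/
noncomputable def w (q : ℕ) : ℝ := (Nat.totient q : ℝ) / q

/-- resonance parameter -/
noncomputable def Dm (ψ : ℕ → ℝ) (q r : ℕ) : ℝ := max ((r1 q r : ℝ) * ψ q) ((q1 q r : ℝ) * ψ r)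

/-- coincidence -/
def CO (γ : ℝ) (ψ : ℕ → ℝ) (q r : ℕ) : Prop :=
  Del ψ q r < 1 / 2 ∧ ∃ t : ℤ, |(t : ℝ) + γ * (hh q r : ℝ)| < Del ψ q r

/-- `μ(q) = φ(q) ψ(q) / q` -/
noncomputable def mu (ψ : ℕ → ℝ) (q : ℕ) : ℝ := w q * ψ q

open Classical in
/-- the kernel of level `s` -/
noncomputable def Ks (γ : ℝ) (ψ : ℕ → ℝ) (s : ℝ) (q r : ℕ) : ℝ :=
  if r < q ∧ CO γ ψ q r ∧ 1 / (2 * s) < Dm ψ q r ∧ Dm ψ q r ≤ 1 / s then mu ψ q * mu ψ r else 0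

/-! ## abstract part -/

/-- local factor -/
noncomputable def th (η : ℝ) (p k l : ℕ) : ℝ :=
  (p : ℝ) ^ (-(2 / 5 : ℝ) * (1 - η) * |(k : ℝ) - (l : ℝ)|) *
    (1 - 1 / (p : ℝ)) ^ ((2 / 5 : ℝ) * ((if k = 0 then 0 else 1) + (if l = 0 then 0 else 1)))

/-- global factor -/
noncomputable def Th (η : ℝ) (a b : ℕ) : ℝ :=
  (((q1 a b : ℝ) * (r1 a b : ℝ)) ^ (-(1 - η)) * (w a * w b)) ^ (2 / 5 : ℝ)

/-- block of the elements of `S` with the same `p`-adic valuations as `q0`, `p ∈ Q` -/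
def Bl (S Q : Finset ℕ) (q0 : ℕ) : Finset ℕ :=
  S.filter (fun q => ∀ p ∈ Q, q.factorization p = q0.factorization p)

noncomputable def FF (K : ℕ → ℕ → ℝ) (V W : Finset ℕ) : ℝ := ∑ q ∈ V, ∑ r ∈ W, K q r

noncomputable def ThQ (η : ℝ) (Q : Finset ℕ) (q0 r0 : ℕ) : ℝ :=
  ∏ p ∈ Q, th η p (q0.factorization p) (r0.factorization p)

noncomputable def MN (m n : ℕ → ℝ) (V W : Finset ℕ) : ℝ :=
  ((∑ q ∈ V, m q) * (∑ r ∈ W, n r)) ^ (3 / 5 : ℝ)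

/-- sub-block `v_p = k` -/
def Sb (V : Finset ℕ) (p k : ℕ) : Finset ℕ := V.filter (fun q => q.factorization p = k)

/-- a block `(Q, q0, r0)` maximising the ratio, with maximal ratio `c` -/
structure Mx (η : ℝ) (P S Q : Finset ℕ) (m n : ℕ → ℝ) (K : ℕ → ℕ → ℝ) (q0 r0 : ℕ) (c : ℝ) :
    Prop where
  hη0 : 0 ≤ η
  hη1 : η ≤ 1 / 40
  hP : ∀ p ∈ P, p.Prime
  hS : ∀ q ∈ S, 0 < q ∧ q.primeFactors ⊆ P
  hm : ∀ q, 0 ≤ m q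
  hn : ∀ q, 0 ≤ n q
  hK : ∀ q r, 0 ≤ K q r
  hQ : Q ⊆ P
  hq0 : q0 ∈ S
  hr0 : r0 ∈ S
  hc : 0 < c
  eq : FF K (Bl S Q q0) (Bl S Q r0) = c * ThQ η Q q0 r0 * MN m n (Bl S Q q0) (Bl S Q r0)
  pm : 0 < ∑ q ∈ Bl S Q q0, m q
  pn : 0 < ∑ r ∈ Bl S Q r0, n r
  le : ∀ Q' : Finset ℕ, Q' ⊆ P → ∀ a ∈ S, ∀ b ∈ S,
    FF K (Bl S Q' a) (Bl S Q' b) ≤ c * ThQ η Q' a b * MN m n (Bl S Q' a) (Bl S Q' b)

/-- exponent of the class of `q` at `p` -/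
def ex (Q : Finset ℕ) (p0 : ℕ) (kk : ℕ → ℕ) (p q : ℕ) : ℕ :=
  if p ∈ Q ∨ p < p0 then q.factorization p else min (q.factorization p) (kk p)

/-- class of `q` -/
def cl (P Q : Finset ℕ) (p0 : ℕ) (kk : ℕ → ℕ) (q : ℕ) : ℕ := ∏ p ∈ P, p ^ ex Q p0 kk p q

/-- admissible pairs after the removal step -/
def OK (P Q : Finset ℕ) (p0 : ℕ) (kk : ℕ → ℕ) (q r : ℕ) : Prop :=
  ∀ p ∈ P, p ∉ Q → p0 ≤ p → q.factorization p = kk p ∨ r.factorization p = kk p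

open Classical in
noncomputable def KO (P Q : Finset ℕ) (p0 : ℕ) (kk : ℕ → ℕ) (K : ℕ → ℕ → ℝ) (q r : ℕ) : ℝ :=
  if OK P Q p0 kk q r then K q r else 0

/-- local matrix after the removal step -/
noncomputable def TT (η : ℝ) (p0 : ℕ) (kk : ℕ → ℕ) (p k l : ℕ) : ℝ :=
  if p < p0 then th η p k l else
    if k ≤ kk p ∧ l ≤ kk p ∧ (k = kk p ∨ l = kk p) then th η p k l else 0

/-- norm of the local matrix -/
noncomputable def NN (η : ℝ) (p0 : ℕ) (kk : ℕ → ℕ) (p : ℕ) : ℝ :=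
  if p < p0 then 8 else if kk p = 0 then 1 else
    1 + (1 / ((p : ℝ) ^ (1 - η) - 1) - 1 / (p : ℝ))

/-- the base inequality with constant `CB` -/
def BASE (η CB : ℝ) (S : Finset ℕ) (m n : ℕ → ℝ) (K : ℕ → ℕ → ℝ) : Prop :=
  ∀ a b : ℕ, 0 < a → 0 < b → ∀ V W : Finset ℕ, V ⊆ S → W ⊆ S → (∀ q ∈ V, a ∣ q) →
    (∀ r ∈ W, b ∣ r) →
    ∑ q ∈ V, ∑ r ∈ W with Nat.gcd q r = Nat.gcd a b, K q r ≤ CB * Th η a b * MN m n V W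

/-! ## concrete part -/

noncomputable def c4 (ε : ℝ) (m : ℕ) : ℝ := ε / (16 * (m + 1))

noncomputable def c5 (ε : ℝ) (m : ℕ) : ℝ := c4 ε m / 1000

/-- contribution of the box `q ∈ [2^i, 2^(i+1))`, `r ∈ [2^j, 2^(j+1))` -/
noncomputable def eij (γ : ℝ) (ψ : ℕ → ℝ) (s : ℝ) (V W : Finset ℕ) (a b i j : ℕ) : ℝ :=
  ∑ q ∈ V with Nat.log 2 q = i, ∑ r ∈ W with Nat.log 2 r = j ∧ Nat.gcd q r = Nat.gcd a b,
    Ks γ ψ s q r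

noncomputable def MV (a b : ℕ) (s : ℝ) : ℝ := 2 * w a / ((q1 a b : ℝ) * s)

noncomputable def MW (a b : ℕ) (s : ℝ) : ℝ := 2 * w b / ((r1 a b : ℝ) * s)

noncomputable def eta (ε : ℝ) (m : ℕ) (X s : ℝ) : ℝ :=
  (7 / 8) * Real.log s / (c4 ε m * Real.log X)

/-- standing assumptions on a block -/
structure Blk (c : ℝ) (m : ℕ) (ε X γ : ℝ) (ψ : ℕ → ℝ) (S : Finset ℕ) : Prop where
  dio : Dio c m γ
  psi0 : ∀ q, 0 ≤ ψ q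
  lo : ∀ q ∈ S, X ≤ (q : ℝ)
  hi : ∀ q ∈ S, (q : ℝ) ≤ X ^ 16
  psi1 : ∀ q ∈ S, ψ q ≤ (q : ℝ) ^ (-ε)

end Vale.Agent.P028KM
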