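import Vale.Agent.P028KM.Defs
import Vale.Agent.P028KM.AFM

/-!
Module FR: far pairs. `AF γ ψ r ∩ [x0,x0+ℓ)` is covered by `≤ rℓ + 3` intervals `J` of length
`2ψ(r)/r`; `AF_le` on each: `(q|J| + 2) 2ψ(q)/q ≤ 4 |J| ψ(q)` since `q|J| ≥ 2 r^4 r^(-9/4) ≥ 2`.
Compare Vale/Agent/P028EV/Far.lean.
-/

namespace Vale.Agent.P028KM

open Finset MeasureTheory
open Vale.Agent.P028EV (q1 r1 Del hh)

/-- the power inequality -/
private theorem FR_pow {q r : ℕ} (hr : 0 < r) (hrq : r ^ 4 ≤ q) {t : ℝ}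
    (ht : (r : ℝ) ^ (-(5 / 4) : ℝ) ≤ t) : (r : ℝ) ≤ q * t := by
  have hr' : (0 : ℝ) < r := by exact_mod_cast hr
  have hr1 : (1 : ℝ) ≤ r := by exact_mod_cast hr
  have hq4 : (r : ℝ) ^ (4 : ℕ) ≤ q := by exact_mod_cast hrq
  have h1 : (r : ℝ) ≤ (r : ℝ) ^ (4 : ℕ) * (r : ℝ) ^ (-(5 / 4) : ℝ) := by
    rw [← Real.rpow_natCast, ← Real.rpow_add hr']
    calc (r : ℝ) = (r : ℝ) ^ (1 : ℝ) := (Real.rpow_one _).symm
      _ ≤ _ := Real.rpow_le_rpow_of_exponent_le hr1 (by norm_num)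
  have h4 : (0 : ℝ) ≤ (r : ℝ) ^ (-(5 / 4) : ℝ) := Real.rpow_nonneg hr'.le _
  calc (r : ℝ) ≤ (r : ℝ) ^ (4 : ℕ) * (r : ℝ) ^ (-(5 / 4) : ℝ) := h1
    _ ≤ q * t := mul_le_mul hq4 ht h4 (Nat.cast_nonneg _)

theorem fr (ℓ : ℝ) (hℓ : 0 < ℓ) : ∃ Q : ℕ, 0 < Q ∧ ∀ q r : ℕ, Q ≤ r → r ^ 4 ≤ q →
    ∀ (γ : ℝ) (ψ : ℕ → ℝ) (x0 : ℝ), 0 ≤ ψ q → ψ q < 1 / 2 →
      (r : ℝ) ^ (-(5 / 4) : ℝ) ≤ ψ r → ψ r < 1 / 2 →
      (volume (AF γ ψ q ∩ AF γ ψ r ∩ Set.Ico x0 (x0 + ℓ))).toReal ≤ 64 * ℓ * ψ q * ψ r := by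
  classical
  refine ⟨⌈2 / ℓ⌉₊ + 1, Nat.succ_pos _, ?_⟩
  intro q r hQr hrq γ ψ x0 hq0 hq1 hr0 hr1
  have hrN : 0 < r := lt_of_lt_of_le (Nat.succ_pos _) hQr
  have hqN : 0 < q := lt_of_lt_of_le (pow_pos hrN 4) hrq
  have hr' : (0 : ℝ) < r := by exact_mod_cast hrN
  have hq' : (0 : ℝ) < q := by exact_mod_cast hqN
  have hψr : 0 ≤ ψ r := le_trans (Real.rpow_nonneg hr'.le _) hr0
  have hrℓ : 2 ≤ (r : ℝ) * ℓ := by
    have h1 : 2 / ℓ ≤ r := by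
      refine (Nat.le_ceil _).trans ?_
      exact_mod_cast le_trans (Nat.le_succ _) hQr
    rwa [div_le_iff₀ hℓ] at h1
  set u : ℝ := r * x0 - γ - ψ r with hu
  set v : ℝ := r * (x0 + ℓ) - γ + ψ r with hv
  have huv : u ≤ v := by
    rw [hu, hv]
    nlinarith
  set S : Finset ℤ := Finset.Ico ⌈u⌉ ⌈v⌉ with hS
  have hcount : (S.card : ℝ) ≤ 2 * r * ℓ := by
    rw [hS, Int.card_Ico]
    have h1 : 0 ≤ ⌈v⌉ - ⌈u⌉ := sub_nonneg.2 (Int.ceil_le_ceil huv)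
    have h2 : (((⌈v⌉ - ⌈u⌉).toNat : ℕ) : ℝ) = ((⌈v⌉ - ⌈u⌉ : ℤ) : ℝ) := by
      exact_mod_cast congrArg (fun z : ℤ => (z : ℝ)) (Int.toNat_of_nonneg h1)
    rw [h2]
    push_cast
    have h3 := Int.ceil_lt_add_one v
    have h4 := Int.le_ceil u
    have h5 : v - u = r * ℓ + 2 * ψ r := by
      rw [hu, hv]
      ring
    linarith
  -- the covering
  have hcover : AF γ ψ q ∩ AF γ ψ r ∩ Set.Ico x0 (x0 + ℓ) ⊆
      ⋃ k ∈ S, (AF γ ψ q ∩ Set.Icc (((k : ℝ) + γ - ψ r) / r) (((k : ℝ) + γ + ψ r) / r)) := by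
    rintro x ⟨⟨hxq, ⟨b, hbx⟩⟩, hx0, hx1⟩
    rw [abs_lt] at hbx
    obtain ⟨hb1, hb2⟩ := hbx
    refine Set.mem_iUnion₂.2 ⟨b, ?_, hxq, ?_, ?_⟩
    · rw [hS, Finset.mem_Ico]
      refine ⟨?_, ?_⟩
      · rw [Int.ceil_le, hu]
        have : (r : ℝ) * x0 ≤ r * x := mul_le_mul_of_nonneg_left hx0 hr'.le
        linarith
      · rw [Int.lt_ceil, hv]
        have : (r : ℝ) * x < r * (x0 + ℓ) := mul_lt_mul_of_pos_left hx1 hr'
        linarith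
    · rw [div_le_iff₀ hr']
      linarith
    · rw [le_div_iff₀ hr']
      linarith
  -- measure of each piece
  have hpiece : ∀ k ∈ S, (volume (AF γ ψ q ∩
      Set.Icc (((k : ℝ) + γ - ψ r) / r) (((k : ℝ) + γ + ψ r) / r))).toReal ≤
        8 * ψ r * ψ q / r := by
    intro k _
    have h1 := AF_le γ ψ q hqN hq0 hq1 (((k : ℝ) + γ - ψ r) / r)
      (((k : ℝ) + γ + ψ r) / r) (by gcongr; linarith)
    have h2 : (q : ℝ) * (((k : ℝ) + γ + ψ r) / r - ((k : ℝ) + γ - ψ r) / r) = 2 * (q * ψ r / r) := by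
      field_simp
      ring
    rw [h2] at h1
    have h4 := FR_pow hrN hrq hr0
    have h5 : 1 ≤ q * ψ r / r := by
      rw [le_div_iff₀ hr', one_mul]
      exact h4
    refine h1.trans ?_
    calc (2 * (q * ψ r / r) + 2) * (2 * ψ q / q)
        ≤ (4 * (q * ψ r / r)) * (2 * ψ q / q) :=
          mul_le_mul_of_nonneg_right (by linarith) (by positivity)
      _ = 8 * ψ r * ψ q / r := by
          field_simp
          ring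
  have hfin : ∀ k ∈ S, volume (AF γ ψ q ∩
      Set.Icc (((k : ℝ) + γ - ψ r) / r) (((k : ℝ) + γ + ψ r) / r)) ≠ ⊤ := by
    intro k _
    exact ne_top_of_le_ne_top (by rw [Real.volume_Icc]; exact ENNReal.ofReal_ne_top)
      (measure_mono Set.inter_subset_right)
  have hsum : (volume (AF γ ψ q ∩ AF γ ψ r ∩ Set.Ico x0 (x0 + ℓ))).toReal ≤
      ∑ k ∈ S, (volume (AF γ ψ q ∩
        Set.Icc (((k : ℝ) + γ - ψ r) / r) (((k : ℝ) + γ + ψ r) / r))).toReal := by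
    rw [← ENNReal.toReal_sum hfin]
    exact ENNReal.toReal_mono (ENNReal.sum_ne_top.2 hfin)
      ((measure_mono hcover).trans (measure_biUnion_finset_le _ _))
  have h0 : 0 ≤ 8 * ψ r * ψ q / r := by positivity
  calc (volume (AF γ ψ q ∩ AF γ ψ r ∩ Set.Ico x0 (x0 + ℓ))).toReal
      ≤ ∑ k ∈ S, (volume (AF γ ψ q ∩
        Set.Icc (((k : ℝ) + γ - ψ r) / r) (((k : ℝ) + γ + ψ r) / r))).toReal := hsum
    _ ≤ ∑ _k ∈ S, 8 * ψ r * ψ q / r := Finset.sum_le_sum hpiece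
    _ = S.card * (8 * ψ r * ψ q / r) := by rw [Finset.sum_const, nsmul_eq_mul]
    _ ≤ (2 * r * ℓ) * (8 * ψ r * ψ q / r) :=
        mul_le_mul_of_nonneg_right hcount h0
    _ = 16 * ℓ * ψ q * ψ r := by
        field_simp
        ring
    _ ≤ 64 * ℓ * ψ q * ψ r := by
        have : 0 ≤ ℓ * ψ q * ψ r := by positivity
        nlinarith

end Vale.Agent.P028KM
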