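import Vale.Agent.P028KM.Defs


/-!
Module GC: the class `cl q` of `q`. `Nat.factorization_prod_pow_eq_self`-like arguments.
`gcd`: compare the valuations at every `p ∈ P` (all prime factors of `q, r` are in `P`);
for `p ≥ p0`, `p ∉ Q`: `min (v q) (v r) = min (min (v q) kk) (min (v r) kk)` since one of the two
is equal to `kk p`.
-/

namespace Vale.Agent.P028KM

open Finset MeasureTheory
open Vale.Agent.P028EV (q1 r1 Del hh)

theorem cl_pos (P Q : Finset ℕ) (hP : ∀ p ∈ P, p.Prime) (p0 : ℕ) (kk : ℕ → ℕ) (q : ℕ) :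
    0 < cl P Q p0 kk q := by
  unfold cl
  exact Finset.prod_pos fun p hp => pow_pos (hP p hp).pos _

theorem cl_fac (P Q : Finset ℕ) (hP : ∀ p ∈ P, p.Prime) (p0 : ℕ) (kk : ℕ → ℕ) (q p : ℕ)
    (hp : p ∈ P) : (cl P Q p0 kk q).factorization p = ex Q p0 kk p q := by
  unfold cl
  rw [Nat.factorization_prod_apply (fun r hr => (pow_pos (hP r hr).pos _).ne')]
  rw [Finset.sum_eq_single p]
  · rw [Nat.Prime.factorization_pow (hP p hp), Finsupp.single_eq_same]
  · intro r hr hrp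
    rw [Nat.Prime.factorization_pow (hP r hr), Finsupp.single_apply, if_neg hrp]
  · intro h
    exact absurd hp h

theorem cl_primeFactors (P Q : Finset ℕ) (hP : ∀ p ∈ P, p.Prime) (p0 : ℕ) (kk : ℕ → ℕ) (q : ℕ) :
    (cl P Q p0 kk q).primeFactors ⊆ P := by
  intro p hp
  have hpp := Nat.prime_of_mem_primeFactors hp
  have hd := Nat.dvd_of_mem_primeFactors hp
  unfold cl at hd
  obtain ⟨r, hr, hpr⟩ := (Prime.dvd_finset_prod_iff hpp.prime _).1 hd
  have h1 := hpp.dvd_of_dvd_pow hpr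
  rw [(Nat.prime_dvd_prime_iff_eq hpp (hP r hr)).1 h1]
  exact hr

theorem GC_zero {n p : ℕ} {P : Finset ℕ} (h : n.primeFactors ⊆ P) (hp : p ∉ P) :
    n.factorization p = 0 := by
  rw [← Finsupp.notMem_support_iff, Nat.support_factorization]
  exact fun h' => hp (h h')

theorem GC_ex_le (Q : Finset ℕ) (p0 : ℕ) (kk : ℕ → ℕ) (p q : ℕ) :
    ex Q p0 kk p q ≤ q.factorization p := by
  unfold ex
  split_ifs
  · exact le_rfl
  · exact min_le_left _ _

theorem cl_dvd (P Q : Finset ℕ) (hP : ∀ p ∈ P, p.Prime) (p0 : ℕ) (kk : ℕ → ℕ) (q : ℕ)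
    (hq : 0 < q) (hqP : q.primeFactors ⊆ P) : cl P Q p0 kk q ∣ q := by
  rw [← Nat.factorization_le_iff_dvd (cl_pos P Q hP p0 kk q).ne' hq.ne']
  intro p
  by_cases hp : p ∈ P
  · rw [cl_fac P Q hP p0 kk q p hp]
    exact GC_ex_le Q p0 kk p q
  · rw [GC_zero (cl_primeFactors P Q hP p0 kk q) hp]
    exact Nat.zero_le _

theorem cl_gcd (P Q : Finset ℕ) (hP : ∀ p ∈ P, p.Prime) (p0 : ℕ) (kk : ℕ → ℕ) (q r : ℕ)
    (hq : 0 < q) (hr : 0 < r) (hqP : q.primeFactors ⊆ P) (hrP : r.primeFactors ⊆ P)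
    (h : OK P Q p0 kk q r) :
    Nat.gcd q r = Nat.gcd (cl P Q p0 kk q) (cl P Q p0 kk r) := by
  have hcq := cl_pos P Q hP p0 kk q
  have hcr := cl_pos P Q hP p0 kk r
  refine Nat.eq_of_factorization_eq (Nat.gcd_pos_of_pos_left _ hq).ne'
    (Nat.gcd_pos_of_pos_left _ hcq).ne' fun p => ?_
  rw [Nat.factorization_gcd hq.ne' hr.ne', Nat.factorization_gcd hcq.ne' hcr.ne',
    Finsupp.inf_apply, Finsupp.inf_apply]
  by_cases hp : p ∈ P
  · rw [cl_fac P Q hP p0 kk q p hp, cl_fac P Q hP p0 kk r p hp]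
    unfold ex
    by_cases h1 : p ∈ Q ∨ p < p0
    · rw [if_pos h1, if_pos h1]
    · rw [if_neg h1, if_neg h1]
      rw [not_or, not_lt] at h1
      rcases h p hp h1.1 h1.2 with h2 | h2
      · rw [h2]
        simp only [min_self]
        omega
      · rw [h2]
        simp only [min_self]
        omega
  · rw [GC_zero hqP hp, GC_zero hrP hp, GC_zero (cl_primeFactors P Q hP p0 kk q) hp,
      GC_zero (cl_primeFactors P Q hP p0 kk r) hp]

end Vale.Agent.P028KM
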