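import Vale.Agent.P028KM.Defs
import Vale.Agent.P028KM.THB

/-!
Module REM: pairs that both deviate are rare:
`∑_{k,l ≠ k0} th(k,l)(x_k y_l)^(3/5) ≤ (∑_{d ∈ Z} p^(-39|d|/100)) (ξ ζ)^(3/5) ≤ 8 (C2 p^(-39/40))^(6/5)`
(for each fixed `d = k - l`: `∑_k (x_k y_{k-d})^(3/5) ≤ ((∑x)(∑y))^(3/5)`), `39/40 * 6/5 = 117/100`.
-/

namespace Vale.Agent.P028KM

open Finset MeasureTheory
open Vale.Agent.P028EV (q1 r1 Del hh)

theorem REM_summable {a : ℝ} (h0 : 0 ≤ a) (h1 : a < 1) : Summable fun d : ℤ => a ^ d.natAbs := by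
  refine Summable.of_nat_of_neg ?_ ?_
  · simpa using summable_geometric_of_lt_one h0 h1
  · simpa using summable_geometric_of_lt_one h0 h1

theorem REM_row {a : ℝ} (h0 : 0 ≤ a) (h1 : a < 1) (s : Finset ℕ) (k : ℕ) :
    ∑ l ∈ s, a ^ ((k : ℤ) - (l : ℤ)).natAbs ≤ ∑' d : ℤ, a ^ d.natAbs := by
  have hinj : Function.Injective fun l : ℕ => (k : ℤ) - (l : ℤ) := by
    intro l l' h
    have : (k : ℤ) - (l : ℤ) = (k : ℤ) - (l' : ℤ) := h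
    omega
  have h2 : ∑ l ∈ s, a ^ ((k : ℤ) - (l : ℤ)).natAbs =
      ∑ d ∈ s.map ⟨fun l : ℕ => (k : ℤ) - (l : ℤ), hinj⟩, a ^ d.natAbs := by
    rw [Finset.sum_map]
    rfl
  rw [h2]
  exact (REM_summable h0 h1).sum_le_tsum _ fun d _ => pow_nonneg h0 _

theorem REM_sq {x B : ℝ} (hx : 0 ≤ x) (hB : 0 ≤ B) (hxB : x ≤ B) :
    (x ^ (3 / 5 : ℝ)) ^ 2 ≤ B ^ (1 / 5 : ℝ) * x := by
  have h1 : (x ^ (3 / 5 : ℝ)) ^ 2 = x ^ (1 / 5 : ℝ) * x := by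
    rw [← Real.rpow_natCast (x ^ (3 / 5 : ℝ)) 2, ← Real.rpow_mul hx,
      ← Real.rpow_add_one' hx (by norm_num)]
    norm_num
  rw [h1]
  exact mul_le_mul_of_nonneg_right (Real.rpow_le_rpow hx hxB (by norm_num)) hx

theorem REM_th {η : ℝ} (hη0 : 0 ≤ η) (hη1 : η ≤ 1 / 40) {p : ℕ} (hp : 2 ≤ p) (k l : ℕ) :
    th η p k l ≤ ((2 : ℝ) ^ (-(39 / 100) : ℝ)) ^ ((k : ℤ) - (l : ℤ)).natAbs := by
  refine (th_le η hη0 hη1 p k l hp).trans ?_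
  have h1 : (((k : ℤ) - (l : ℤ)).natAbs : ℝ) = |(k : ℝ) - (l : ℝ)| := by
    rw [Nat.cast_natAbs]
    push_cast
    rfl
  have hp' : (2 : ℝ) ≤ p := by exact_mod_cast hp
  rw [← Real.rpow_natCast, ← Real.rpow_mul (by norm_num), h1]
  refine Real.rpow_le_rpow_of_nonpos (by norm_num) hp' ?_
  have := abs_nonneg ((k : ℝ) - (l : ℝ))
  nlinarith

theorem rem (C2 : ℝ) (hC2 : 0 < C2) : ∃ C3 : ℝ, 0 < C3 ∧ ∀ p : ℕ, 2 ≤ p → ∀ η : ℝ, 0 ≤ η →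
    η ≤ 1 / 40 → ∀ (L : ℕ) (x y : ℕ → ℝ), (∀ k, 0 ≤ x k) → (∀ k, 0 ≤ y k) →
    ∑ k ∈ range L, x k = 1 → ∑ k ∈ range L, y k = 1 → ∀ k0 ∈ range L,
    1 - x k0 ≤ C2 * (p : ℝ) ^ (-(39 / 40) : ℝ) → 1 - y k0 ≤ C2 * (p : ℝ) ^ (-(39 / 40) : ℝ) →
    ∑ k ∈ (range L).erase k0, ∑ l ∈ (range L).erase k0, th η p k l * (x k * y l) ^ (3 / 5 : ℝ)
      ≤ C3 * (p : ℝ) ^ (-(117 / 100) : ℝ) := by
  set a : ℝ := (2 : ℝ) ^ (-(39 / 100) : ℝ) with ha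
  have ha0 : 0 ≤ a := by positivity
  have ha1 : a < 1 := Real.rpow_lt_one_of_one_lt_of_neg (by norm_num) (by norm_num)
  set M : ℝ := ∑' d : ℤ, a ^ d.natAbs with hM
  have hM0 : 0 ≤ M := tsum_nonneg fun d => pow_nonneg ha0 _
  refine ⟨(M + 1) * C2 ^ (6 / 5 : ℝ), by positivity, ?_⟩
  intro p hp η hη0 hη1 L x y hx hy hsx hsy k0 hk0 hbx hby
  have hp0 : (0 : ℝ) < p := by exact_mod_cast (by omega : 0 < p)
  set B : ℝ := C2 * (p : ℝ) ^ (-(39 / 40) : ℝ) with hB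
  have hB0 : 0 < B := by positivity
  set s : Finset ℕ := (range L).erase k0 with hs
  have hξ : ∑ k ∈ s, x k ≤ B := by
    have := Finset.add_sum_erase (range L) x hk0
    linarith
  have hζ : ∑ k ∈ s, y k ≤ B := by
    have := Finset.add_sum_erase (range L) y hk0
    linarith
  have hxk : ∀ k ∈ s, x k ≤ B := fun k hk =>
    (Finset.single_le_sum (fun i _ => hx i) hk).trans hξ
  have hyk : ∀ k ∈ s, y k ≤ B := fun k hk =>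
    (Finset.single_le_sum (fun i _ => hy i) hk).trans hζ
  have h1 : ∀ k ∈ s, ∀ l ∈ s, th η p k l * (x k * y l) ^ (3 / 5 : ℝ) ≤
      (1 / 2) * (a ^ ((k : ℤ) - (l : ℤ)).natAbs * (B ^ (1 / 5 : ℝ) * x k)) +
      (1 / 2) * (a ^ ((k : ℤ) - (l : ℤ)).natAbs * (B ^ (1 / 5 : ℝ) * y l)) := by
    intro k hk l hl
    have e1 : (x k * y l) ^ (3 / 5 : ℝ) = x k ^ (3 / 5 : ℝ) * y l ^ (3 / 5 : ℝ) :=
      Real.mul_rpow (hx k) (hy l)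
    have e2 := REM_sq (hx k) hB0.le (hxk k hk)
    have e3 := REM_sq (hy l) hB0.le (hyk l hl)
    have e4 : x k ^ (3 / 5 : ℝ) * y l ^ (3 / 5 : ℝ) ≤
        (1 / 2) * (B ^ (1 / 5 : ℝ) * x k) + (1 / 2) * (B ^ (1 / 5 : ℝ) * y l) := by
      nlinarith [sq_nonneg (x k ^ (3 / 5 : ℝ) - y l ^ (3 / 5 : ℝ))]
    have e5 : 0 ≤ (x k * y l) ^ (3 / 5 : ℝ) := Real.rpow_nonneg (mul_nonneg (hx k) (hy l)) _
    have e6 : 0 ≤ a ^ ((k : ℤ) - (l : ℤ)).natAbs := pow_nonneg ha0 _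
    calc th η p k l * (x k * y l) ^ (3 / 5 : ℝ)
        ≤ a ^ ((k : ℤ) - (l : ℤ)).natAbs * (x k * y l) ^ (3 / 5 : ℝ) :=
          mul_le_mul_of_nonneg_right (REM_th hη0 hη1 hp k l) e5
      _ ≤ a ^ ((k : ℤ) - (l : ℤ)).natAbs *
          ((1 / 2) * (B ^ (1 / 5 : ℝ) * x k) + (1 / 2) * (B ^ (1 / 5 : ℝ) * y l)) := by
          rw [e1]
          exact mul_le_mul_of_nonneg_left e4 e6
      _ = _ := by ring
  have hBx : ∀ t : ℝ, 0 ≤ t → t ≤ B → M * (B ^ (1 / 5 : ℝ) * t) ≤ M * (B ^ (1 / 5 : ℝ) * B) :=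
    fun t _ htB => mul_le_mul_of_nonneg_left
      (mul_le_mul_of_nonneg_left htB (Real.rpow_nonneg hB0.le _)) hM0
  have h2 : ∑ k ∈ s, ∑ l ∈ s, a ^ ((k : ℤ) - (l : ℤ)).natAbs * (B ^ (1 / 5 : ℝ) * x k) ≤
      M * (B ^ (1 / 5 : ℝ) * B) := by
    calc ∑ k ∈ s, ∑ l ∈ s, a ^ ((k : ℤ) - (l : ℤ)).natAbs * (B ^ (1 / 5 : ℝ) * x k)
        ≤ ∑ k ∈ s, M * (B ^ (1 / 5 : ℝ) * x k) := by
          refine Finset.sum_le_sum fun k _ => ?_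
          rw [← Finset.sum_mul]
          exact mul_le_mul_of_nonneg_right (REM_row ha0 ha1 s k)
            (mul_nonneg (Real.rpow_nonneg hB0.le _) (hx k))
      _ = M * (B ^ (1 / 5 : ℝ) * ∑ k ∈ s, x k) := by
          rw [Finset.mul_sum, Finset.mul_sum]
      _ ≤ _ := hBx _ (Finset.sum_nonneg fun k _ => hx k) hξ
  have h3 : ∑ k ∈ s, ∑ l ∈ s, a ^ ((k : ℤ) - (l : ℤ)).natAbs * (B ^ (1 / 5 : ℝ) * y l) ≤
      M * (B ^ (1 / 5 : ℝ) * B) := by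
    rw [Finset.sum_comm]
    calc ∑ l ∈ s, ∑ k ∈ s, a ^ ((k : ℤ) - (l : ℤ)).natAbs * (B ^ (1 / 5 : ℝ) * y l)
        ≤ ∑ l ∈ s, M * (B ^ (1 / 5 : ℝ) * y l) := by
          refine Finset.sum_le_sum fun l _ => ?_
          rw [← Finset.sum_mul]
          refine mul_le_mul_of_nonneg_right ?_
            (mul_nonneg (Real.rpow_nonneg hB0.le _) (hy l))
          have e : ∀ k ∈ s, a ^ ((k : ℤ) - (l : ℤ)).natAbs = a ^ ((l : ℤ) - (k : ℤ)).natAbs :=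
            fun k _ => by rw [← Int.natAbs_neg, neg_sub]
          rw [Finset.sum_congr rfl e]
          exact REM_row ha0 ha1 s l
      _ = M * (B ^ (1 / 5 : ℝ) * ∑ l ∈ s, y l) := by
          rw [Finset.mul_sum, Finset.mul_sum]
      _ ≤ _ := hBx _ (Finset.sum_nonneg fun k _ => hy k) hζ
  have h4 : ∑ k ∈ s, ∑ l ∈ s, th η p k l * (x k * y l) ^ (3 / 5 : ℝ) ≤
      M * (B ^ (1 / 5 : ℝ) * B) := by
    refine (Finset.sum_le_sum fun k hk => Finset.sum_le_sum fun l hl => h1 k hk l hl).trans ?_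
    have e : ∑ k ∈ s, ∑ l ∈ s,
        ((1 / 2) * (a ^ ((k : ℤ) - (l : ℤ)).natAbs * (B ^ (1 / 5 : ℝ) * x k)) +
        (1 / 2) * (a ^ ((k : ℤ) - (l : ℤ)).natAbs * (B ^ (1 / 5 : ℝ) * y l))) =
        (1 / 2) * (∑ k ∈ s, ∑ l ∈ s, a ^ ((k : ℤ) - (l : ℤ)).natAbs * (B ^ (1 / 5 : ℝ) * x k)) +
        (1 / 2) * (∑ k ∈ s, ∑ l ∈ s, a ^ ((k : ℤ) - (l : ℤ)).natAbs * (B ^ (1 / 5 : ℝ) * y l)) := by
      simp only [Finset.sum_add_distrib, Finset.mul_sum]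
    rw [e]
    linarith
  refine h4.trans ?_
  have h5 : B ^ (1 / 5 : ℝ) * B = C2 ^ (6 / 5 : ℝ) * (p : ℝ) ^ (-(117 / 100) : ℝ) := by
    rw [← Real.rpow_add_one' hB0.le (by norm_num), hB,
      Real.mul_rpow hC2.le (Real.rpow_nonneg hp0.le _), ← Real.rpow_mul hp0.le]
    norm_num
  rw [h5, mul_assoc]
  refine mul_le_mul_of_nonneg_right (by linarith) (by positivity)

end Vale.Agent.P028KM
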