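import Vale.Agent.P028KM.Defs
import Vale.Agent.P028KM.THB

/-!
Module SUB: sub-blocks. If `Sb (Bl S Q q0) p k` and `Sb (Bl S Q r0) p l` contain `q1, r1`
then they are `Bl S (insert p Q) q1`, `Bl S (insert p Q) r1`; apply `Mx.le` to `insert p Q`
(`ThQ η (insert p Q) q1 r1 = th η p k l * ThQ η Q q0 r0`). If one is empty, `FF = 0` and the
right side is nonnegative.
-/

namespace Vale.Agent.P028KM

open Finset MeasureTheory
open Vale.Agent.P028EV (q1 r1 Del hh)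

theorem SUB_eq {S Q : Finset ℕ} {q0 p k a : ℕ} (ha : a ∈ Sb (Bl S Q q0) p k) :
    Sb (Bl S Q q0) p k = Bl S (insert p Q) a := by
  simp only [Sb, Bl, Finset.mem_filter] at ha
  obtain ⟨⟨_, ha2⟩, ha3⟩ := ha
  ext q
  simp only [Sb, Bl, Finset.mem_filter, Finset.mem_insert, forall_eq_or_imp]
  constructor
  · rintro ⟨⟨h1, h2⟩, h3⟩
    exact ⟨h1, by rw [h3, ha3], fun p' hp' => by rw [h2 p' hp', ha2 p' hp']⟩
  · rintro ⟨h1, h2, h3⟩
    exact ⟨⟨h1, fun p' hp' => by rw [h3 p' hp', ha2 p' hp']⟩, by rw [h2, ha3]⟩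

theorem sub {η : ℝ} {P S Q : Finset ℕ} {m n : ℕ → ℝ} {K : ℕ → ℕ → ℝ} {q0 r0 : ℕ} {c : ℝ}
    (h : Mx η P S Q m n K q0 r0 c) (p : ℕ) (hp : p ∈ P) (hpQ : p ∉ Q) (k l : ℕ) :
    FF K (Sb (Bl S Q q0) p k) (Sb (Bl S Q r0) p l)
      ≤ c * ThQ η Q q0 r0 * (th η p k l *
          MN m n (Sb (Bl S Q q0) p k) (Sb (Bl S Q r0) p l)) := by
  have hth : ∀ p' ∈ P, ∀ i j, 0 ≤ th η p' i j := fun p' hp' i j =>
    (th_pos η p' i j (h.hP p' hp').two_le).le
  have hT : 0 ≤ ThQ η Q q0 r0 := Finset.prod_nonneg fun p' hp' => hth p' (h.hQ hp') _ _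
  have hMN : 0 ≤ MN m n (Sb (Bl S Q q0) p k) (Sb (Bl S Q r0) p l) :=
    Real.rpow_nonneg (mul_nonneg (Finset.sum_nonneg fun q _ => h.hm q)
      (Finset.sum_nonneg fun q _ => h.hn q)) _
  have hR : 0 ≤ c * ThQ η Q q0 r0 * (th η p k l *
          MN m n (Sb (Bl S Q q0) p k) (Sb (Bl S Q r0) p l)) :=
    mul_nonneg (mul_nonneg h.hc.le hT) (mul_nonneg (hth p hp _ _) hMN)
  rcases (Sb (Bl S Q q0) p k).eq_empty_or_nonempty with h1 | ⟨a, ha⟩
  · refine le_trans (le_of_eq ?_) hR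
    rw [h1, FF, Finset.sum_empty]
  rcases (Sb (Bl S Q r0) p l).eq_empty_or_nonempty with h2 | ⟨b, hb⟩
  · refine le_trans (le_of_eq ?_) hR
    rw [h2, FF]
    simp
  have haS : a ∈ S ∧ (∀ p' ∈ Q, a.factorization p' = q0.factorization p') ∧
      a.factorization p = k := by
    have := ha
    simp only [Sb, Bl, Finset.mem_filter] at this
    exact ⟨this.1.1, this.1.2, this.2⟩
  have hbS : b ∈ S ∧ (∀ p' ∈ Q, b.factorization p' = r0.factorization p') ∧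
      b.factorization p = l := by
    have := hb
    simp only [Sb, Bl, Finset.mem_filter] at this
    exact ⟨this.1.1, this.1.2, this.2⟩
  have h3 := h.le (insert p Q) (Finset.insert_subset hp h.hQ) a haS.1 b hbS.1
  rw [← SUB_eq ha, ← SUB_eq hb] at h3
  have h4 : ThQ η (insert p Q) a b = th η p k l * ThQ η Q q0 r0 := by
    rw [ThQ, Finset.prod_insert hpQ, haS.2.2, hbS.2.2, ThQ]
    congr 1
    exact Finset.prod_congr rfl fun p' hp' => by rw [haS.2.1 p' hp', hbS.2.1 p' hp']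
  rw [h4] at h3
  refine le_trans h3 (le_of_eq ?_)
  ring

end Vale.Agent.P028KM
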