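import Vale.Agent.P028KM.Defs
import Vale.Agent.P028KM.SUB

/-!
Module ST: the fundamental inequality at the prime `p`. Partition both blocks according to
`v_p` (all valuations are `< L`), sum `sub`, compare with `Mx.eq`, divide by
`c * ThQ * MN > 0` (`MN` is `Real.rpow`; `((A x)(B y))^(3/5) = (A B)^(3/5) (x y)^(3/5)`).
-/

namespace Vale.Agent.P028KM

open Finset MeasureTheory
open Vale.Agent.P028EV (q1 r1 Del hh)

theorem ST_part {S V W : Finset ℕ} {K : ℕ → ℕ → ℝ} (hV : V ⊆ S) (hW : W ⊆ S) (p L : ℕ)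
    (hL : ∀ q ∈ S, q.factorization p < L) :
    FF K V W = ∑ k ∈ range L, ∑ l ∈ range L, FF K (Sb V p k) (Sb W p l) := by
  unfold FF Sb
  have h1 : ∀ f : ℕ → ℝ, ∑ q ∈ V, f q
      = ∑ k ∈ range L, ∑ q ∈ V.filter (fun q => q.factorization p = k), f q := by
    intro f
    exact (Finset.sum_fiberwise_of_maps_to (fun q hq => mem_range.2 (hL q (hV hq))) f).symm
  have h2 : ∀ f : ℕ → ℝ, ∑ q ∈ W, f q
      = ∑ k ∈ range L, ∑ q ∈ W.filter (fun q => q.factorization p = k), f q := by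
    intro f
    exact (Finset.sum_fiberwise_of_maps_to (fun q hq => mem_range.2 (hL q (hW hq))) f).symm
  rw [h1]
  refine Finset.sum_congr rfl fun k _ => ?_
  rw [Finset.sum_comm (s := range L)]
  exact Finset.sum_congr rfl fun q _ => h2 fun r => K q r

theorem star {η : ℝ} {P S Q : Finset ℕ} {m n : ℕ → ℝ} {K : ℕ → ℕ → ℝ} {q0 r0 : ℕ} {c : ℝ}
    (h : Mx η P S Q m n K q0 r0 c) (p : ℕ) (hp : p ∈ P) (hpQ : p ∉ Q) (L : ℕ)
    (hL : ∀ q ∈ S, q.factorization p < L) :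
    1 ≤ ∑ k ∈ range L, ∑ l ∈ range L, th η p k l *
      ((((∑ q ∈ Sb (Bl S Q q0) p k, m q) / ∑ q ∈ Bl S Q q0, m q)) *
        (((∑ q ∈ Sb (Bl S Q r0) p l, n q) / ∑ q ∈ Bl S Q r0, n q))) ^ (3 / 5 : ℝ) := by
  have hA := h.pm
  have hB := h.pn
  set A := ∑ q ∈ Bl S Q q0, m q with hAd
  set B := ∑ q ∈ Bl S Q r0, n q with hBd
  have hT : 0 < ThQ η Q q0 r0 :=
    Finset.prod_pos fun p hp => th_pos η p _ _ (h.hP p (h.hQ hp)).two_le
  have hM : 0 < MN m n (Bl S Q q0) (Bl S Q r0) := by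
    unfold MN
    exact Real.rpow_pos_of_pos (mul_pos hA hB) _
  have hpos : 0 < c * ThQ η Q q0 r0 * MN m n (Bl S Q q0) (Bl S Q r0) :=
    mul_pos (mul_pos h.hc hT) hM
  have h1 := ST_part (K := K) (V := Bl S Q q0) (W := Bl S Q r0) (filter_subset _ _)
    (filter_subset _ _) p L hL
  have h2 : c * ThQ η Q q0 r0 * MN m n (Bl S Q q0) (Bl S Q r0) ≤
      c * ThQ η Q q0 r0 * MN m n (Bl S Q q0) (Bl S Q r0) *
        ∑ k ∈ range L, ∑ l ∈ range L, th η p k l *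
      ((((∑ q ∈ Sb (Bl S Q q0) p k, m q) / A)) *
        (((∑ q ∈ Sb (Bl S Q r0) p l, n q) / B))) ^ (3 / 5 : ℝ) := by
    refine (h.eq.symm.trans h1).trans_le ?_
    rw [Finset.mul_sum]
    refine Finset.sum_le_sum fun k _ => ?_
    rw [Finset.mul_sum]
    refine Finset.sum_le_sum fun l _ => ?_
    refine (sub h p hp hpQ k l).trans (le_of_eq ?_)
    have ha : 0 ≤ ∑ q ∈ Sb (Bl S Q q0) p k, m q := Finset.sum_nonneg fun q _ => h.hm q
    have hb : 0 ≤ ∑ q ∈ Sb (Bl S Q r0) p l, n q := Finset.sum_nonneg fun q _ => h.hn q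
    have h3 : MN m n (Sb (Bl S Q q0) p k) (Sb (Bl S Q r0) p l)
        = MN m n (Bl S Q q0) (Bl S Q r0) *
          ((((∑ q ∈ Sb (Bl S Q q0) p k, m q) / A)) *
        (((∑ q ∈ Sb (Bl S Q r0) p l, n q) / B))) ^ (3 / 5 : ℝ) := by
      unfold MN
      rw [← Real.mul_rpow (mul_pos hA hB).le (mul_nonneg (div_nonneg ha hA.le)
        (div_nonneg hb hB.le))]
      congr 1
      field_simp
    rw [h3]
    ring
  exact (le_mul_iff_one_le_right hpos).1 h2

end Vale.Agent.P028KM
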