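import Vale.Agent.P028KM.Defs
import Vale.Agent.P028KM.ST
import Vale.Agent.P028KM.CONC1
import Vale.Agent.P028KM.CONC2
import Vale.Agent.P028KM.REM
import Vale.Agent.P028KM.SUMP

/-!
Module HALF: removal. For every `p ∈ P \ Q`, `p ≥ p0`, apply `star` + `conc1` + `conc2` with
`x k = (∑_{Sb} m)/(∑ m)` to get `kk p := k0`. The part of `FF K V W` with `v_p(q) ≠ kk p` and
`v_p(r) ≠ kk p` is `≤ ∑_{k,l ≠ k0} c ThQ th(k,l) MN(Sb_k, Sb_l) = FF K V W * ∑ th (x y)^(3/5)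
≤ FF K V W * C3 p^(-117/100)` (`sub`, `Mx.eq`, `rem`). Sum over `p` (`sump` with `δ = 1/2`).
-/

namespace Vale.Agent.P028KM

open Finset MeasureTheory
open Vale.Agent.P028EV (q1 r1 Del hh)

theorem HALF_sum_sb (V : Finset ℕ) (f : ℕ → ℝ) (p L : ℕ) (hL : ∀ q ∈ V, q.factorization p < L) :
    ∑ k ∈ range L, ∑ q ∈ Sb V p k, f q = ∑ q ∈ V, f q := by
  unfold Sb
  exact Finset.sum_fiberwise_of_maps_to (s := V) (t := range L) (g := fun q => q.factorization p)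
    (fun q hq => Finset.mem_range.2 (hL q hq)) f

/-- one prime -/
theorem HALF_one {C2 C3 : ℝ} {p1 p2 : ℕ}
    (h1 : ∀ p : ℕ, p1 ≤ p → ∀ η : ℝ, 0 ≤ η → η ≤ 1 / 40 →
      ∀ (L : ℕ) (x y : ℕ → ℝ), (∀ k, 0 ≤ x k) → (∀ k, 0 ≤ y k) → ∑ k ∈ range L, x k = 1 →
      ∑ k ∈ range L, y k = 1 →
      1 ≤ ∑ k ∈ range L, ∑ l ∈ range L, th η p k l * (x k * y l) ^ (3 / 5 : ℝ) →
      ∃ k0 ∈ range L, 9 / 10 ≤ x k0 ∧ 9 / 10 ≤ y k0)
    (h2 : ∀ p : ℕ, p2 ≤ p → ∀ η : ℝ, 0 ≤ η →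
      η ≤ 1 / 40 → ∀ (L : ℕ) (x y : ℕ → ℝ), (∀ k, 0 ≤ x k) → (∀ k, 0 ≤ y k) →
      ∑ k ∈ range L, x k = 1 → ∑ k ∈ range L, y k = 1 →
      1 ≤ ∑ k ∈ range L, ∑ l ∈ range L, th η p k l * (x k * y l) ^ (3 / 5 : ℝ) →
      ∀ k0 ∈ range L, 9 / 10 ≤ x k0 → 9 / 10 ≤ y k0 →
        1 - x k0 ≤ C2 * (p : ℝ) ^ (-(39 / 40) : ℝ) ∧
          1 - y k0 ≤ C2 * (p : ℝ) ^ (-(39 / 40) : ℝ))
    (h3 : ∀ p : ℕ, 2 ≤ p → ∀ η : ℝ, 0 ≤ η →
      η ≤ 1 / 40 → ∀ (L : ℕ) (x y : ℕ → ℝ), (∀ k, 0 ≤ x k) → (∀ k, 0 ≤ y k) →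
      ∑ k ∈ range L, x k = 1 → ∑ k ∈ range L, y k = 1 → ∀ k0 ∈ range L,
      1 - x k0 ≤ C2 * (p : ℝ) ^ (-(39 / 40) : ℝ) → 1 - y k0 ≤ C2 * (p : ℝ) ^ (-(39 / 40) : ℝ) →
      ∑ k ∈ (range L).erase k0, ∑ l ∈ (range L).erase k0, th η p k l * (x k * y l) ^ (3 / 5 : ℝ)
        ≤ C3 * (p : ℝ) ^ (-(117 / 100) : ℝ))
    {η : ℝ} {P S Q : Finset ℕ} {m n : ℕ → ℝ}
    {K : ℕ → ℕ → ℝ} {q0 r0 : ℕ} {c : ℝ} (h : Mx η P S Q m n K q0 r0 c)
    (p : ℕ) (hp : p ∈ P) (hpQ : p ∉ Q) (hp1 : p1 ≤ p) (hp2 : p2 ≤ p) (hp22 : 2 ≤ p) :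
    ∃ k0 : ℕ, (1 / 2) * ∑ q ∈ Bl S Q q0, m q ≤ ∑ q ∈ Sb (Bl S Q q0) p k0, m q ∧
      ∑ q ∈ Bl S Q q0, ∑ r ∈ Bl S Q r0,
        (if q.factorization p ≠ k0 ∧ r.factorization p ≠ k0 then K q r else 0) ≤
        FF K (Bl S Q q0) (Bl S Q r0) * (C3 * (p : ℝ) ^ (-(117 / 100) : ℝ)) := by
  classical
  set A := Bl S Q q0 with hA
  set B := Bl S Q r0 with hB
  set L : ℕ := S.sup (fun q => q.factorization p) + 1 with hLdef
  have hL : ∀ q ∈ S, q.factorization p < L := by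
    intro q hq
    exact Nat.lt_succ_of_le (Finset.le_sup (f := fun q => q.factorization p) hq)
  have hAS : ∀ q ∈ A, q ∈ S := fun q hq => (Finset.mem_filter.1 hq).1
  have hBS : ∀ q ∈ B, q ∈ S := fun q hq => (Finset.mem_filter.1 hq).1
  have hst := star h p hp hpQ L hL
  rw [← hA, ← hB] at hst
  have hpm : 0 < ∑ q ∈ A, m q := h.pm
  have hpn : 0 < ∑ q ∈ B, n q := h.pn
  set x : ℕ → ℝ := fun k => (∑ q ∈ Sb A p k, m q) / ∑ q ∈ A, m q with hx
  set y : ℕ → ℝ := fun k => (∑ q ∈ Sb B p k, n q) / ∑ q ∈ B, n q with hy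
  have hx0 : ∀ k, 0 ≤ x k := fun k => div_nonneg (Finset.sum_nonneg fun q _ => h.hm q) hpm.le
  have hy0 : ∀ k, 0 ≤ y k := fun k => div_nonneg (Finset.sum_nonneg fun q _ => h.hn q) hpn.le
  have hx1 : ∑ k ∈ range L, x k = 1 := by
    simp only [hx]
    rw [← Finset.sum_div, HALF_sum_sb A m p L (fun q hq => hL q (hAS q hq)), div_self hpm.ne']
  have hy1 : ∑ k ∈ range L, y k = 1 := by
    simp only [hy]
    rw [← Finset.sum_div, HALF_sum_sb B n p L (fun q hq => hL q (hBS q hq)), div_self hpn.ne']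
  obtain ⟨k0, hk0, hxk, hyk⟩ := h1 p hp1 η h.hη0 h.hη1 L x y hx0 hy0 hx1 hy1 hst
  obtain ⟨hx2, hy2⟩ := h2 p hp2 η h.hη0 h.hη1 L x y hx0 hy0 hx1 hy1 hst k0 hk0 hxk hyk
  have hrem := h3 p hp22 η h.hη0 h.hη1 L x y hx0 hy0 hx1 hy1 k0 hk0 hx2 hy2
  refine ⟨k0, ?_, ?_⟩
  · have : (9 / 10) * ∑ q ∈ A, m q ≤ ∑ q ∈ Sb A p k0, m q := by
      have := hxk
      simp only [hx] at this
      rwa [le_div_iff₀ hpm] at this
    linarith
  · -- rewrite the double sum over the fibres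
    have e1 : ∑ q ∈ A, ∑ r ∈ B,
        (if q.factorization p ≠ k0 ∧ r.factorization p ≠ k0 then K q r else 0) =
        ∑ k ∈ (range L).erase k0, ∑ l ∈ (range L).erase k0, FF K (Sb A p k) (Sb B p l) := by
      have eA : ∀ f : ℕ → ℝ, ∑ q ∈ A, (if q.factorization p ≠ k0 then f q else 0) =
          ∑ k ∈ (range L).erase k0, ∑ q ∈ Sb A p k, f q := by
        intro f
        rw [← Finset.sum_filter]
        unfold Sb
        rw [← Finset.sum_fiberwise_of_maps_to (s := A.filter fun q => q.factorization p ≠ k0)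
          (t := (range L).erase k0) (g := fun q => q.factorization p) ?_ f]
        · refine Finset.sum_congr rfl fun k hk => ?_
          refine Finset.sum_congr ?_ fun _ _ => rfl
          ext q
          simp only [Finset.mem_filter]
          constructor
          · rintro ⟨⟨a1, _⟩, a3⟩; exact ⟨a1, a3⟩
          · rintro ⟨a1, a3⟩; exact ⟨⟨a1, by rw [a3]; exact (Finset.mem_erase.1 hk).1⟩, a3⟩
        · intro q hq
          obtain ⟨a1, a2⟩ := Finset.mem_filter.1 hq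
          exact Finset.mem_erase.2 ⟨a2, Finset.mem_range.2 (hL q (hAS q a1))⟩
      have eB : ∀ f : ℕ → ℝ, ∑ q ∈ B, (if q.factorization p ≠ k0 then f q else 0) =
          ∑ k ∈ (range L).erase k0, ∑ q ∈ Sb B p k, f q := by
        intro f
        rw [← Finset.sum_filter]
        unfold Sb
        rw [← Finset.sum_fiberwise_of_maps_to (s := B.filter fun q => q.factorization p ≠ k0)
          (t := (range L).erase k0) (g := fun q => q.factorization p) ?_ f]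
        · refine Finset.sum_congr rfl fun k hk => ?_
          refine Finset.sum_congr ?_ fun _ _ => rfl
          ext q
          simp only [Finset.mem_filter]
          constructor
          · rintro ⟨⟨a1, _⟩, a3⟩; exact ⟨a1, a3⟩
          · rintro ⟨a1, a3⟩; exact ⟨⟨a1, by rw [a3]; exact (Finset.mem_erase.1 hk).1⟩, a3⟩
        · intro q hq
          obtain ⟨a1, a2⟩ := Finset.mem_filter.1 hq
          exact Finset.mem_erase.2 ⟨a2, Finset.mem_range.2 (hL q (hBS q a1))⟩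
      have step1 : ∀ q, ∑ r ∈ B,
          (if q.factorization p ≠ k0 ∧ r.factorization p ≠ k0 then K q r else 0) =
          if q.factorization p ≠ k0 then ∑ l ∈ (range L).erase k0, ∑ r ∈ Sb B p l, K q r
            else 0 := by
        intro q
        by_cases hq : q.factorization p ≠ k0
        · rw [if_pos hq, ← eB]
          refine Finset.sum_congr rfl fun r _ => ?_
          by_cases hr : r.factorization p ≠ k0
          · rw [if_pos ⟨hq, hr⟩, if_pos hr]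
          · rw [if_neg (fun hh => hr hh.2), if_neg hr]
        · rw [if_neg hq]
          refine Finset.sum_eq_zero fun r _ => ?_
          rw [if_neg (fun hh => hq hh.1)]
      rw [Finset.sum_congr rfl fun q _ => step1 q, eA]
      refine Finset.sum_congr rfl fun k _ => ?_
      unfold FF
      rw [Finset.sum_comm]
    rw [e1]
    -- bound each piece
    have hMN : ∀ k l, MN m n (Sb A p k) (Sb B p l) =
        MN m n A B * (x k * y l) ^ (3 / 5 : ℝ) := by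
      intro k l
      unfold MN
      rw [← Real.mul_rpow (mul_nonneg hpm.le hpn.le) (mul_nonneg (hx0 k) (hy0 l))]
      congr 1
      simp only [hx, hy]
      field_simp
    have hpiece : ∀ k l, FF K (Sb A p k) (Sb B p l) ≤
        FF K A B * (th η p k l * (x k * y l) ^ (3 / 5 : ℝ)) := by
      intro k l
      refine (sub h p hp hpQ k l).trans (le_of_eq ?_)
      rw [← hA, ← hB, hMN k l]
      have heq : FF K A B = c * ThQ η Q q0 r0 * MN m n A B := h.eq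
      rw [heq]
      ring
    have hFF0 : 0 ≤ FF K A B := Finset.sum_nonneg fun q _ => Finset.sum_nonneg fun r _ => h.hK q r
    calc ∑ k ∈ (range L).erase k0, ∑ l ∈ (range L).erase k0, FF K (Sb A p k) (Sb B p l)
        ≤ ∑ k ∈ (range L).erase k0, ∑ l ∈ (range L).erase k0,
            FF K A B * (th η p k l * (x k * y l) ^ (3 / 5 : ℝ)) :=
          Finset.sum_le_sum fun k _ => Finset.sum_le_sum fun l _ => hpiece k l
      _ = FF K A B * ∑ k ∈ (range L).erase k0, ∑ l ∈ (range L).erase k0,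
            th η p k l * (x k * y l) ^ (3 / 5 : ℝ) := by
          rw [Finset.mul_sum]
          refine Finset.sum_congr rfl fun k _ => ?_
          rw [Finset.mul_sum]
      _ ≤ FF K A B * (C3 * (p : ℝ) ^ (-(117 / 100) : ℝ)) :=
          mul_le_mul_of_nonneg_left hrem hFF0

theorem half : ∃ p0 : ℕ, 2 ≤ p0 ∧ ∀ {η : ℝ} {P S Q : Finset ℕ} {m n : ℕ → ℝ}
    {K : ℕ → ℕ → ℝ} {q0 r0 : ℕ} {c : ℝ}, Mx η P S Q m n K q0 r0 c →
    ∃ kk : ℕ → ℕ, (∀ p ∈ P, p ∉ Q → p0 ≤ p →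
      (1 / 2) * ∑ q ∈ Bl S Q q0, m q ≤ ∑ q ∈ Sb (Bl S Q q0) p (kk p), m q) ∧
      FF K (Bl S Q q0) (Bl S Q r0) ≤ 2 * FF (KO P Q p0 kk K) (Bl S Q q0) (Bl S Q r0) := by
  classical
  obtain ⟨p1, hp1, h1⟩ := conc1
  obtain ⟨C2, hC2, p2, hp2, h2⟩ := conc2
  obtain ⟨C3, hC3, h3⟩ := rem C2 hC2
  obtain ⟨p3, hp3, h4⟩ := sump C3 hC3 (1 / 2) (by norm_num)
  refine ⟨max p1 (max p2 p3), le_max_of_le_left hp1, ?_⟩
  intro η P S Q m n K q0 r0 c h
  set p0 := max p1 (max p2 p3) with hp0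
  have hone : ∀ p, p ∈ P → p ∉ Q → p0 ≤ p → ∃ k0 : ℕ,
      (1 / 2) * ∑ q ∈ Bl S Q q0, m q ≤ ∑ q ∈ Sb (Bl S Q q0) p k0, m q ∧
      ∑ q ∈ Bl S Q q0, ∑ r ∈ Bl S Q r0,
        (if q.factorization p ≠ k0 ∧ r.factorization p ≠ k0 then K q r else 0) ≤
        FF K (Bl S Q q0) (Bl S Q r0) * (C3 * (p : ℝ) ^ (-(117 / 100) : ℝ)) := by
    intro p hp hpQ hpp
    have a1 : p1 ≤ p := le_trans (le_max_left _ _) hpp
    have a2 : p2 ≤ p := le_trans (le_trans (le_max_left _ _) (le_max_right _ _)) hpp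
    exact HALF_one h1 h2 h3 h p hp hpQ a1 a2 (le_trans hp1 a1)
  choose! kk hkk using hone
  refine ⟨kk, fun p hp hpQ hpp => (hkk p hp hpQ hpp).1, ?_⟩
  set A := Bl S Q q0 with hA
  set B := Bl S Q r0 with hB
  set P' := P.filter (fun p => p ∉ Q ∧ p0 ≤ p) with hP'
  have hFF0 : 0 ≤ FF K A B := Finset.sum_nonneg fun q _ => Finset.sum_nonneg fun r _ => h.hK q r
  have hpt : ∀ q r, K q r ≤ KO P Q p0 kk K q r +
      ∑ p ∈ P', (if q.factorization p ≠ kk p ∧ r.factorization p ≠ kk p then K q r else 0) := by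
    intro q r
    have hnn : ∀ p ∈ P', (0 : ℝ) ≤
        (if q.factorization p ≠ kk p ∧ r.factorization p ≠ kk p then K q r else 0) := by
      intro p _
      split_ifs
      · exact h.hK q r
      · exact le_rfl
    unfold KO
    by_cases hok : OK P Q p0 kk q r
    · rw [if_pos hok]
      have := Finset.sum_nonneg hnn
      linarith
    · rw [if_neg hok, zero_add]
      unfold OK at hok
      push Not at hok
      obtain ⟨p, hp, hpQ, hpp, hne1, hne2⟩ := hok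
      have hmem : p ∈ P' := Finset.mem_filter.2 ⟨hp, hpQ, hpp⟩
      refine le_trans ?_ (Finset.single_le_sum hnn hmem)
      rw [if_pos ⟨hne1, hne2⟩]
  have hsum : FF K A B ≤ FF (KO P Q p0 kk K) A B + ∑ p ∈ P', ∑ q ∈ A, ∑ r ∈ B,
      (if q.factorization p ≠ kk p ∧ r.factorization p ≠ kk p then K q r else 0) := by
    have e : ∑ p ∈ P', ∑ q ∈ A, ∑ r ∈ B,
        (if q.factorization p ≠ kk p ∧ r.factorization p ≠ kk p then K q r else 0) =
        ∑ q ∈ A, ∑ r ∈ B, ∑ p ∈ P',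
        (if q.factorization p ≠ kk p ∧ r.factorization p ≠ kk p then K q r else 0) := by
      rw [Finset.sum_comm]
      refine Finset.sum_congr rfl fun q _ => ?_
      rw [Finset.sum_comm]
    rw [e]
    unfold FF
    rw [← Finset.sum_add_distrib]
    refine Finset.sum_le_sum fun q _ => ?_
    rw [← Finset.sum_add_distrib]
    exact Finset.sum_le_sum fun r _ => hpt q r
  have hb : ∑ p ∈ P', ∑ q ∈ A, ∑ r ∈ B,
      (if q.factorization p ≠ kk p ∧ r.factorization p ≠ kk p then K q r else 0) ≤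
      FF K A B * (1 / 2) := by
    calc ∑ p ∈ P', ∑ q ∈ A, ∑ r ∈ B,
        (if q.factorization p ≠ kk p ∧ r.factorization p ≠ kk p then K q r else 0)
        ≤ ∑ p ∈ P', FF K A B * (C3 * (p : ℝ) ^ (-(117 / 100) : ℝ)) := by
          refine Finset.sum_le_sum fun p hp => ?_
          obtain ⟨a1, a2, a3⟩ := Finset.mem_filter.1 hp
          exact (hkk p a1 a2 a3).2
      _ = FF K A B * ∑ p ∈ P', C3 * (p : ℝ) ^ (-(117 / 100) : ℝ) := by rw [Finset.mul_sum]
      _ ≤ FF K A B * (1 / 2) := by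
          refine mul_le_mul_of_nonneg_left (h4 P' ?_) hFF0
          intro p hp
          obtain ⟨a1, a2, a3⟩ := Finset.mem_filter.1 hp
          exact le_trans (le_trans (le_max_right _ _) (le_max_right _ _)) a3
  linarith

end Vale.Agent.P028KM
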