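import Vale.Agent.P028KM.Defs
import Vale.Agent.P028KM.THB

/-!
Module MX: existence of a maximising block: maximise the ratio
`FF K (Bl S Q q0) (Bl S Q r0) / (ThQ η Q q0 r0 * MN m n (..) (..))` over `(Q, q0, r0)` in
`P.powerset ×ˢ S ×ˢ S` (`Finset.exists_max_image`). If `MN = 0` then one of the sums vanishes, so
all `m q * n r = 0` on the block and `FF = 0` by `hK0`. The ratio for `Q = ∅` is positive.
-/

namespace Vale.Agent.P028KM

open Finset MeasureTheory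
open Vale.Agent.P028EV (q1 r1 Del hh)

private theorem MX_zero {S V W : Finset ℕ} {m n : ℕ → ℝ} {K : ℕ → ℕ → ℝ} (hm : ∀ q, 0 ≤ m q)
    (hn : ∀ q, 0 ≤ n q) (hK0 : ∀ q ∈ S, ∀ r ∈ S, m q * n r = 0 → K q r = 0)
    (hV : V ⊆ S) (hW : W ⊆ S) (h : (∑ q ∈ V, m q) * (∑ r ∈ W, n r) = 0) : FF K V W = 0 := by
  unfold FF
  refine sum_eq_zero fun q hq => sum_eq_zero fun r hr => hK0 q (hV hq) r (hW hr) ?_
  rcases mul_eq_zero.1 h with h1 | h1
  · rw [(sum_eq_zero_iff_of_nonneg fun i _ => hm i).1 h1 q hq, zero_mul]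
  · rw [(sum_eq_zero_iff_of_nonneg fun i _ => hn i).1 h1 r hr, mul_zero]

private theorem MX_th_pos {η : ℝ} {p : ℕ} (hp : p.Prime) (k l : ℕ) : 0 < th η p k l := by
  unfold th
  have h1 : (1 : ℝ) < p := by exact_mod_cast hp.one_lt
  have h2 : (0 : ℝ) < p := by linarith
  have h3 : 0 < 1 - 1 / (p : ℝ) := by
    have : 1 / (p : ℝ) < 1 := by
      rw [div_lt_one h2]
      exact h1
    linarith
  exact mul_pos (Real.rpow_pos_of_pos h2 _) (Real.rpow_pos_of_pos h3 _)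

private theorem MX_ThQ_pos {η : ℝ} {P Q : Finset ℕ} (hP : ∀ p ∈ P, p.Prime) (hQ : Q ⊆ P)
    (a b : ℕ) : 0 < ThQ η Q a b := by
  unfold ThQ
  exact prod_pos fun p hp => MX_th_pos (hP p (hQ hp)) _ _

private theorem MX_Bl (S Q : Finset ℕ) (a : ℕ) : Bl S Q a ⊆ S := filter_subset _ _

private theorem MX_Bl_empty (S : Finset ℕ) (a : ℕ) : Bl S ∅ a = S := by
  unfold Bl
  simp

theorem mx (η : ℝ) (hη0 : 0 ≤ η) (hη1 : η ≤ 1 / 40) (P S : Finset ℕ) (hP : ∀ p ∈ P, p.Prime)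
    (hS : ∀ q ∈ S, 0 < q ∧ q.primeFactors ⊆ P)
    (m n : ℕ → ℝ) (K : ℕ → ℕ → ℝ) (hm : ∀ q, 0 ≤ m q) (hn : ∀ q, 0 ≤ n q)
    (hK : ∀ q r, 0 ≤ K q r) (hK0 : ∀ q ∈ S, ∀ r ∈ S, m q * n r = 0 → K q r = 0)
    (hpos : 0 < FF K S S) :
    ∃ (Q : Finset ℕ) (q0 r0 : ℕ) (c : ℝ), Mx η P S Q m n K q0 r0 c := by
  have hSne : S.Nonempty := by
    rw [nonempty_iff_ne_empty]
    intro h
    rw [h] at hpos
    unfold FF at hpos
    simp at hpos
  obtain ⟨a0, ha0⟩ := hSne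
  set T : Finset (Finset ℕ × ℕ × ℕ) := P.powerset ×ˢ (S ×ˢ S) with hT
  have hTne : T.Nonempty := by
    refine ⟨(∅, a0, a0), ?_⟩
    rw [hT, mem_product, mem_product]
    exact ⟨empty_mem_powerset P, ha0, ha0⟩
  obtain ⟨⟨Q, q0, r0⟩, hmem, hmax⟩ := exists_max_image T
    (fun t => FF K (Bl S t.1 t.2.1) (Bl S t.1 t.2.2) /
      (ThQ η t.1 t.2.1 t.2.2 * MN m n (Bl S t.1 t.2.1) (Bl S t.1 t.2.2))) hTne
  rw [hT, mem_product, mem_product, mem_powerset] at hmem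
  obtain ⟨hQ, hq0, hr0⟩ := hmem
  dsimp only at hQ hq0 hr0 hmax
  obtain ⟨c, hcdef⟩ : ∃ c, c = FF K (Bl S Q q0) (Bl S Q r0) /
      (ThQ η Q q0 r0 * MN m n (Bl S Q q0) (Bl S Q r0)) := ⟨_, rfl⟩
  rw [← hcdef] at hmax
  have hsum : ∀ V : Finset ℕ, 0 ≤ ∑ q ∈ V, m q := fun V => sum_nonneg fun i _ => hm i
  have hsumn : ∀ V : Finset ℕ, 0 ≤ ∑ q ∈ V, n q := fun V => sum_nonneg fun i _ => hn i
  have hMN0 : ∀ V W : Finset ℕ, 0 ≤ MN m n V W := fun V W =>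
    Real.rpow_nonneg (mul_nonneg (hsum V) (hsumn W)) _
  have hMNz : ∀ V W : Finset ℕ, MN m n V W = 0 → (∑ q ∈ V, m q) * (∑ r ∈ W, n r) = 0 := by
    intro V W h
    unfold MN at h
    exact (Real.rpow_eq_zero (mul_nonneg (hsum V) (hsumn W)) (by norm_num)).1 h
  have hc : 0 < c := by
    have h1 := hmax (∅, a0, a0) (by
      rw [hT, mem_product, mem_product]
      exact ⟨empty_mem_powerset P, ha0, ha0⟩)
    dsimp only at h1
    rw [MX_Bl_empty] at h1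
    refine lt_of_lt_of_le ?_ h1
    refine div_pos hpos (mul_pos ?_ ?_)
    · exact MX_ThQ_pos hP (empty_subset P) _ _
    · refine lt_of_le_of_ne (hMN0 S S) fun h => ?_
      have h2 := MX_zero hm hn hK0 (Subset.refl S) (Subset.refl S) (hMNz S S h.symm)
      exact absurd h2 hpos.ne'
  have hden : ThQ η Q q0 r0 * MN m n (Bl S Q q0) (Bl S Q r0) ≠ 0 := by
    intro h
    rw [h, div_zero] at hcdef
    exact absurd hcdef hc.ne'
  have hMNne : MN m n (Bl S Q q0) (Bl S Q r0) ≠ 0 := right_ne_zero_of_mul hden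
  have hprod : (∑ q ∈ Bl S Q q0, m q) * (∑ r ∈ Bl S Q r0, n r) ≠ 0 := by
    intro h
    apply hMNne
    unfold MN
    rw [h]
    exact Real.zero_rpow (by norm_num)
  refine ⟨Q, q0, r0, c, ⟨hη0, hη1, hP, hS, hm, hn, hK, hQ, hq0, hr0, hc, ?_, ?_, ?_, ?_⟩⟩
  · rw [mul_assoc, hcdef, div_mul_cancel₀ _ hden]
  · exact lt_of_le_of_ne (hsum _) (Ne.symm (left_ne_zero_of_mul hprod))
  · exact lt_of_le_of_ne (hsumn _) (Ne.symm (right_ne_zero_of_mul hprod))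
  · intro Q' hQ' a ha b hb
    have hTh := MX_ThQ_pos (η := η) hP hQ' a b
    rcases eq_or_lt_of_le (hMN0 (Bl S Q' a) (Bl S Q' b)) with h | h
    · rw [MX_zero hm hn hK0 (MX_Bl S Q' a) (MX_Bl S Q' b) (hMNz _ _ h.symm), ← h, mul_zero]
    · have h1 := hmax (Q', a, b) (by
        rw [hT, mem_product, mem_product, mem_powerset]
        exact ⟨hQ', ha, hb⟩)
      dsimp only at h1
      rw [div_le_iff₀ (mul_pos hTh h)] at h1
      rw [mul_assoc]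
      exact h1

end Vale.Agent.P028KM
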