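import Vale.Agent.P028KM.Defs


/-!
Module OM: `∑_{q ∈ V} m q #{p ∈ N : p ∣ q} ≥ ∑_{p ∈ N} ∑_{Sb V p (kk p)} m ≥ |N|/2 ∑_V m`
and `#{p ∈ N : p ∣ q} ≤ ω(q) ≤ log q / log 2 ≤ (3/2) log X`.
-/

namespace Vale.Agent.P028KM

open Finset MeasureTheory
open Vale.Agent.P028EV (q1 r1 Del hh)

theorem OM_omega (q : ℕ) (hq : 0 < q) (X : ℝ) (hX : 1 ≤ X) (hqX : (q : ℝ) ≤ X) :
    (q.primeFactors.card : ℝ) ≤ 3 / 2 * Real.log X := by
  have h1 : 2 ^ q.primeFactors.card ≤ q := by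
    have h2 : (∏ _p ∈ q.primeFactors, 2) ≤ ∏ p ∈ q.primeFactors, p :=
      Finset.prod_le_prod' (fun p hp => (Nat.prime_of_mem_primeFactors hp).two_le)
    rw [Finset.prod_const] at h2
    exact le_trans h2 (Nat.le_of_dvd hq (Nat.prod_primeFactors_dvd q))
  have h3 : (2 : ℝ) ^ q.primeFactors.card ≤ X := by
    have h4 : (2 : ℝ) ^ q.primeFactors.card ≤ (q : ℝ) := by exact_mod_cast h1
    exact le_trans h4 hqX
  have h5 := Real.log_le_log (by positivity) h3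
  rw [Real.log_pow] at h5
  have h6 : (0.6931471803 : ℝ) < Real.log 2 := Real.log_two_gt_d9
  have h7 : 0 ≤ (q.primeFactors.card : ℝ) := Nat.cast_nonneg _
  have h8 : 0 ≤ Real.log X := Real.log_nonneg hX
  nlinarith

theorem om (X : ℝ) (hX : 1 ≤ X) (V N : Finset ℕ) (hN : ∀ p ∈ N, p.Prime)
    (hV : ∀ q ∈ V, 0 < q ∧ (q : ℝ) ≤ X) (m : ℕ → ℝ) (hm : ∀ q, 0 ≤ m q) (hpos : 0 < ∑ q ∈ V, m q)
    (kk : ℕ → ℕ) (hkk : ∀ p ∈ N, kk p ≠ 0)
    (h : ∀ p ∈ N, (1 / 2) * ∑ q ∈ V, m q ≤ ∑ q ∈ Sb V p (kk p), m q) :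
    (N.card : ℝ) ≤ 3 * Real.log X := by
  classical
  have h1 : (N.card : ℝ) * ((1 / 2) * ∑ q ∈ V, m q) ≤ ∑ p ∈ N, ∑ q ∈ Sb V p (kk p), m q := by
    have h2 := Finset.sum_le_sum h
    rw [Finset.sum_const, nsmul_eq_mul] at h2
    exact h2
  have h3 : ∑ p ∈ N, ∑ q ∈ Sb V p (kk p), m q
      = ∑ q ∈ V, ∑ p ∈ N.filter (fun p => q.factorization p = kk p), m q := by
    unfold Sb
    have h4 : ∀ p ∈ N, ∑ q ∈ V.filter (fun q => q.factorization p = kk p), m q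
        = ∑ q ∈ V, (if q.factorization p = kk p then m q else 0) := by
      intro p _
      rw [Finset.sum_filter]
    rw [Finset.sum_congr rfl h4, Finset.sum_comm]
    refine Finset.sum_congr rfl ?_
    intro q _
    rw [Finset.sum_filter]
  have h5 : ∀ q ∈ V, ∑ p ∈ N.filter (fun p => q.factorization p = kk p), m q
      ≤ 3 / 2 * Real.log X * m q := by
    intro q hq
    rw [Finset.sum_const, nsmul_eq_mul]
    refine mul_le_mul_of_nonneg_right ?_ (hm q)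
    have h6 : N.filter (fun p => q.factorization p = kk p) ⊆ q.primeFactors := by
      intro p hp
      rw [Finset.mem_filter] at hp
      rw [← Nat.support_factorization, Finsupp.mem_support_iff, hp.2]
      exact hkk p hp.1
    have h7 : ((N.filter (fun p => q.factorization p = kk p)).card : ℝ)
        ≤ (q.primeFactors.card : ℝ) := by
      exact_mod_cast Finset.card_le_card h6
    exact le_trans h7 (OM_omega q (hV q hq).1 X hX (hV q hq).2)
  have h8 : ∑ q ∈ V, ∑ p ∈ N.filter (fun p => q.factorization p = kk p), m q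
      ≤ 3 / 2 * Real.log X * ∑ q ∈ V, m q := by
    rw [Finset.mul_sum]
    exact Finset.sum_le_sum h5
  have h9 : (N.card : ℝ) * ((1 / 2) * ∑ q ∈ V, m q) ≤ 3 / 2 * Real.log X * ∑ q ∈ V, m q := by
    rw [h3] at h1
    exact le_trans h1 h8
  have h10 : ((N.card : ℝ) * (1 / 2)) * (∑ q ∈ V, m q)
      ≤ (3 / 2 * Real.log X) * ∑ q ∈ V, m q := by linarith
  have h11 := le_of_mul_le_mul_right h10 hpos
  linarith

end Vale.Agent.P028KM
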