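import Vale.Agent.P028KM.Defs


/-!
Module PN: `1/(p^(1-η)-1) - 1/p ≤ C (p^η - 1)/p + C p^(-3/2)`, `p^η - 1 ≤ η log p p^η`, so
with `|N| ≤ 3 log X` the sum over `p ∈ N` is `≤ C + C η ∑_{2 ≤ j ≤ 3 log X + 2} (log j) j^(η-1)
≤ C + C η (log X)^(1/2)` (order the elements of `N` increasingly: the `i`-th is `≥ i+1`, and
`t ↦ (log t) t^(-39/40)` is `≤ C t^(-3/4)`, decreasing). Simplest: `p^η - 1 ≤ η log p p^(1/40)`,
`log p ≤ C p^(1/10)` so each term is `≤ C η p^(-7/8) + C p^(-3/2)`; and `∑_{p ∈ N} p^(-1/2)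
≤ ∑_{j=1}^{|N|} j^(-1/2) ≤ 2 |N|^(1/2)`, `p^(-7/8) ≤ p^(-1/2)`. `1 + u ≤ exp u`.
-/

namespace Vale.Agent.P028KM

open Finset MeasureTheory
open Vale.Agent.P028EV (q1 r1 Del hh)

lemma pn_range (K : ℕ) :
    ∑ j ∈ Finset.range K, ((j + 1 : ℕ) : ℝ) ^ (-(1 / 2 : ℝ)) ≤ 2 * Real.sqrt K := by
  induction K with
  | zero => simp
  | succ K ih =>
    rw [Finset.sum_range_succ]
    have h1 : ((K + 1 : ℕ) : ℝ) ^ (-(1 / 2 : ℝ)) = 1 / Real.sqrt ((K + 1 : ℕ) : ℝ) := by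
      rw [Real.rpow_neg (by positivity), Real.sqrt_eq_rpow]
      simp
    rw [h1]
    have hpos : 0 < Real.sqrt ((K + 1 : ℕ) : ℝ) := Real.sqrt_pos.mpr (by positivity)
    have h2 : Real.sqrt (K : ℝ) ≤ Real.sqrt ((K + 1 : ℕ) : ℝ) :=
      Real.sqrt_le_sqrt (by push_cast; linarith)
    have h3 : Real.sqrt ((K + 1 : ℕ) : ℝ) ^ 2 = (K : ℝ) + 1 := by
      rw [Real.sq_sqrt (by positivity)]; push_cast; ring
    have h4 : Real.sqrt (K : ℝ) ^ 2 = (K : ℝ) := Real.sq_sqrt (by positivity)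
    have h5 : 1 / Real.sqrt ((K + 1 : ℕ) : ℝ)
        ≤ 2 * Real.sqrt ((K + 1 : ℕ) : ℝ) - 2 * Real.sqrt (K : ℝ) := by
      rw [div_le_iff₀ hpos]
      nlinarith [sq_nonneg (Real.sqrt ((K + 1 : ℕ) : ℝ) - Real.sqrt (K : ℝ))]
    linarith

lemma pn_sumN (N : Finset ℕ) (hN : ∀ p ∈ N, 2 ≤ p) :
    ∑ p ∈ N, (p : ℝ) ^ (-(1 / 2 : ℝ)) ≤ 3 * Real.sqrt (N.card : ℝ) := by
  classical
  set K := N.card with hK
  rcases Nat.eq_zero_or_pos K with h0 | hpos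
  · have : N = ∅ := Finset.card_eq_zero.mp (hK ▸ h0)
    subst this
    simp
  rw [← Finset.sum_filter_add_sum_filter_not N (fun p => p ≤ K)]
  have hA : ∑ p ∈ N.filter (fun p => p ≤ K), (p : ℝ) ^ (-(1 / 2 : ℝ))
      ≤ 2 * Real.sqrt (K : ℝ) := by
    refine le_trans ?_ (pn_range K)
    have himg : N.filter (fun p => p ≤ K) ⊆ (Finset.range K).image (fun j => j + 1) := by
      intro p hp
      rw [Finset.mem_filter] at hp
      rw [Finset.mem_image]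
      refine ⟨p - 1, ?_, ?_⟩
      · rw [Finset.mem_range]
        have := hN p hp.1
        omega
      · have := hN p hp.1
        show p - 1 + 1 = p
        omega
    calc ∑ p ∈ N.filter (fun p => p ≤ K), (p : ℝ) ^ (-(1 / 2 : ℝ))
        ≤ ∑ p ∈ (Finset.range K).image (fun j : ℕ => j + 1), ((p : ℕ) : ℝ) ^ (-(1 / 2 : ℝ)) :=
          Finset.sum_le_sum_of_subset_of_nonneg himg
            (fun p _ _ => Real.rpow_nonneg (by positivity) _)
      _ = ∑ j ∈ Finset.range K, ((j + 1 : ℕ) : ℝ) ^ (-(1 / 2 : ℝ)) := by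
          rw [Finset.sum_image]
          intro a _ b _ hab
          simpa using hab
  have hB : ∑ p ∈ N.filter (fun p => ¬ p ≤ K), (p : ℝ) ^ (-(1 / 2 : ℝ))
      ≤ Real.sqrt (K : ℝ) := by
    have hKpos : (0 : ℝ) < K := by exact_mod_cast hpos
    calc ∑ p ∈ N.filter (fun p => ¬ p ≤ K), (p : ℝ) ^ (-(1 / 2 : ℝ))
        ≤ ∑ p ∈ N.filter (fun p => ¬ p ≤ K), (K : ℝ) ^ (-(1 / 2 : ℝ)) := by
          refine Finset.sum_le_sum ?_
          intro p hp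
          rw [Finset.mem_filter] at hp
          refine Real.rpow_le_rpow_of_nonpos hKpos ?_ (by norm_num)
          have := hp.2
          exact_mod_cast (not_le.mp this).le
      _ = ((N.filter (fun p => ¬ p ≤ K)).card : ℝ) * (K : ℝ) ^ (-(1 / 2 : ℝ)) := by
          rw [Finset.sum_const, nsmul_eq_mul]
      _ ≤ (K : ℝ) * (K : ℝ) ^ (-(1 / 2 : ℝ)) := by
          refine mul_le_mul_of_nonneg_right ?_ (Real.rpow_nonneg hKpos.le _)
          exact_mod_cast Finset.card_filter_le _ _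
      _ = Real.sqrt (K : ℝ) := by
          rw [Real.sqrt_eq_rpow]
          nth_rewrite 1 [← Real.rpow_one (K : ℝ)]
          rw [← Real.rpow_add hKpos]
          norm_num
  linarith

lemma pn_term (η : ℝ) (h0 : 0 ≤ η) (h1 : η ≤ 1 / 40) (p : ℕ) (hp : 2 ≤ p) :
    0 ≤ (1 / ((p : ℝ) ^ (1 - η) - 1) - 1 / (p : ℝ)) ∧
    (1 / ((p : ℝ) ^ (1 - η) - 1) - 1 / (p : ℝ)) ≤
      4 * η * (p : ℝ) ^ (-(1 / 2 : ℝ)) + 3 * (p : ℝ) ^ (-(3 / 2 : ℝ)) := by
  have hp2 : (2 : ℝ) ≤ p := by exact_mod_cast hp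
  have hp0 : (0 : ℝ) < p := by linarith
  have hp1 : (1 : ℝ) ≤ p := by linarith
  set a : ℝ := (p : ℝ) ^ (1 - η) with ha
  have ha_le : a ≤ p := by
    rw [ha]
    calc (p : ℝ) ^ (1 - η) ≤ (p : ℝ) ^ (1 : ℝ) :=
          Real.rpow_le_rpow_of_exponent_le hp1 (by linarith)
      _ = p := Real.rpow_one _
  have ha_pos : 0 < a := Real.rpow_pos_of_pos hp0 _
  have ha_sq : (p : ℝ) ^ (3 / 2 : ℝ) ≤ a ^ 2 := by
    rw [ha, ← Real.rpow_natCast, ← Real.rpow_mul hp0.le]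
    refine Real.rpow_le_rpow_of_exponent_le hp1 ?_
    push_cast
    linarith
  have h32 : (9 / 4 : ℝ) ≤ (p : ℝ) ^ (3 / 2 : ℝ) := by
    have h2 : (2 : ℝ) ^ (3 / 2 : ℝ) ≤ (p : ℝ) ^ (3 / 2 : ℝ) :=
      Real.rpow_le_rpow (by norm_num) hp2 (by norm_num)
    refine le_trans ?_ h2
    have h3 : ((2 : ℝ) ^ (3 / 2 : ℝ)) ^ 2 = 8 := by
      rw [← Real.rpow_natCast, ← Real.rpow_mul (by norm_num)]
      norm_num
    have h4 : 0 ≤ (2 : ℝ) ^ (3 / 2 : ℝ) := by positivity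
    nlinarith
  have ha32 : (3 / 2 : ℝ) ≤ a := by
    nlinarith
  have ham : 0 < a - 1 := by linarith
  have ham3 : a / 3 ≤ a - 1 := by linarith
  constructor
  · have : 1 / (p : ℝ) ≤ 1 / (a - 1) := one_div_le_one_div_of_le ham (by linarith)
    linarith
  · have hid : 1 / (a - 1) - 1 / (p : ℝ) = 1 / (a * (a - 1)) + ((p : ℝ) / a - 1) / p := by
      field_simp
      ring
    rw [hid]
    have hfirst : 1 / (a * (a - 1)) ≤ 3 * (p : ℝ) ^ (-(3 / 2 : ℝ)) := by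
      have h5 : a ^ 2 / 3 ≤ a * (a - 1) := by nlinarith
      have h6 : (0 : ℝ) < (p : ℝ) ^ (3 / 2 : ℝ) := by positivity
      calc 1 / (a * (a - 1)) ≤ 1 / (a ^ 2 / 3) :=
            one_div_le_one_div_of_le (by positivity) h5
        _ = 3 / a ^ 2 := by field_simp
        _ ≤ 3 / (p : ℝ) ^ (3 / 2 : ℝ) := div_le_div_of_nonneg_left (by norm_num) h6 ha_sq
        _ = 3 * (p : ℝ) ^ (-(3 / 2 : ℝ)) := by
            rw [Real.rpow_neg hp0.le]; rfl
    have hpa : (p : ℝ) / a = (p : ℝ) ^ η := by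
      rw [ha, Real.rpow_sub hp0, Real.rpow_one]
      field_simp
    have hsecond : ((p : ℝ) / a - 1) / p ≤ 4 * η * (p : ℝ) ^ (-(1 / 2 : ℝ)) := by
      rw [hpa]
      have hlog : Real.log p ≤ (p : ℝ) ^ (1 / 4 : ℝ) / (1 / 4) :=
        Real.log_le_rpow_div hp0.le (by norm_num)
      have hlog0 : 0 ≤ Real.log p := Real.log_nonneg hp1
      have hpe : (p : ℝ) ^ η = Real.exp (Real.log p * η) := Real.rpow_def_of_pos hp0 η
      have hx : (p : ℝ) ^ η - 1 ≤ (Real.log p * η) * (p : ℝ) ^ η := by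
        rw [hpe]
        set x := Real.log p * η
        have h7 : 1 - x ≤ Real.exp (-x) := by
          have := Real.add_one_le_exp (-x); linarith
        have h8 : Real.exp (-x) * Real.exp x = 1 := by
          rw [← Real.exp_add]; simp
        nlinarith [Real.exp_pos x]
      have hpη : (p : ℝ) ^ η ≤ (p : ℝ) ^ (1 / 4 : ℝ) :=
        Real.rpow_le_rpow_of_exponent_le hp1 (by linarith)
      have h9 : (p : ℝ) ^ η - 1 ≤ 4 * η * ((p : ℝ) ^ (1 / 4 : ℝ) * (p : ℝ) ^ (1 / 4 : ℝ)) := by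
        have h10 : Real.log p * η ≤ 4 * (p : ℝ) ^ (1 / 4 : ℝ) * η := by
          refine mul_le_mul_of_nonneg_right ?_ h0
          linarith
        calc (p : ℝ) ^ η - 1 ≤ (Real.log p * η) * (p : ℝ) ^ η := hx
          _ ≤ (4 * (p : ℝ) ^ (1 / 4 : ℝ) * η) * (p : ℝ) ^ (1 / 4 : ℝ) :=
              mul_le_mul h10 hpη (by positivity) (by positivity)
          _ = 4 * η * ((p : ℝ) ^ (1 / 4 : ℝ) * (p : ℝ) ^ (1 / 4 : ℝ)) := by ring
      rw [div_le_iff₀ hp0]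
      have h11 : (p : ℝ) ^ (1 / 4 : ℝ) * (p : ℝ) ^ (1 / 4 : ℝ)
          = (p : ℝ) ^ (-(1 / 2 : ℝ)) * p := by
        nth_rewrite 4 [← Real.rpow_one (p : ℝ)]
        rw [← Real.rpow_add hp0, ← Real.rpow_add hp0]
        norm_num
      rw [h11] at h9
      linarith
    linarith

theorem pn : ∃ C6 : ℝ, 0 < C6 ∧ ∀ η : ℝ, 0 ≤ η → η ≤ 1 / 40 → ∀ X : ℝ, 2 ≤ X → ∀ N : Finset ℕ,
    (∀ p ∈ N, 2 ≤ p) → (N.card : ℝ) ≤ 3 * Real.log X →
    ∏ p ∈ N, (1 + (1 / ((p : ℝ) ^ (1 - η) - 1) - 1 / (p : ℝ)))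
      ≤ Real.exp (C6 * (1 + η * (Real.log X) ^ (1 / 2 : ℝ))) := by
  have hsumm : Summable (fun n : ℕ => (n : ℝ) ^ (-(3 / 2 : ℝ))) :=
    Real.summable_nat_rpow.mpr (by norm_num)
  set S : ℝ := ∑' n : ℕ, (n : ℝ) ^ (-(3 / 2 : ℝ)) with hS
  have hS0 : 0 ≤ S := tsum_nonneg (fun n => Real.rpow_nonneg (by positivity) _)
  refine ⟨24 + 3 * S, by linarith, ?_⟩
  intro η h0 h1 X hX N hN hcard
  have hlogX : 0 ≤ Real.log X := Real.log_nonneg (by linarith)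
  have hterm := fun p hp => pn_term η h0 h1 p (hN p hp)
  calc ∏ p ∈ N, (1 + (1 / ((p : ℝ) ^ (1 - η) - 1) - 1 / (p : ℝ)))
      ≤ ∏ p ∈ N, Real.exp (1 / ((p : ℝ) ^ (1 - η) - 1) - 1 / (p : ℝ)) := by
        refine Finset.prod_le_prod ?_ ?_
        · intro p hp
          have := (hterm p hp).1
          linarith
        · intro p hp
          have := Real.add_one_le_exp (1 / ((p : ℝ) ^ (1 - η) - 1) - 1 / (p : ℝ))
          linarith
    _ = Real.exp (∑ p ∈ N, (1 / ((p : ℝ) ^ (1 - η) - 1) - 1 / (p : ℝ))) := by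
        rw [Real.exp_sum]
    _ ≤ Real.exp ((24 + 3 * S) * (1 + η * (Real.log X) ^ (1 / 2 : ℝ))) := by
        refine Real.exp_le_exp.mpr ?_
        have hA : ∑ p ∈ N, (1 / ((p : ℝ) ^ (1 - η) - 1) - 1 / (p : ℝ))
            ≤ ∑ p ∈ N, (4 * η * (p : ℝ) ^ (-(1 / 2 : ℝ)) + 3 * (p : ℝ) ^ (-(3 / 2 : ℝ))) :=
          Finset.sum_le_sum (fun p hp => (hterm p hp).2)
        rw [Finset.sum_add_distrib, ← Finset.mul_sum, ← Finset.mul_sum] at hA
        have hB := pn_sumN N hN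
        have hC : ∑ p ∈ N, (p : ℝ) ^ (-(3 / 2 : ℝ)) ≤ S :=
          hsumm.sum_le_tsum N (fun n _ => Real.rpow_nonneg (by positivity) _)
        have hD : Real.sqrt (N.card : ℝ) ≤ 2 * (Real.log X) ^ (1 / 2 : ℝ) := by
          rw [← Real.sqrt_eq_rpow]
          have : Real.sqrt (N.card : ℝ) ≤ Real.sqrt (4 * Real.log X) :=
            Real.sqrt_le_sqrt (by linarith)
          refine le_trans this (le_of_eq ?_)
          rw [Real.sqrt_mul (by norm_num)]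
          congr 1
          rw [show (4 : ℝ) = 2 ^ 2 by norm_num, Real.sqrt_sq (by norm_num)]
        set L := (Real.log X) ^ (1 / 2 : ℝ) with hL
        have hL0 : 0 ≤ L := Real.rpow_nonneg hlogX _
        have hE : 4 * η * ∑ p ∈ N, (p : ℝ) ^ (-(1 / 2 : ℝ)) ≤ 4 * η * (6 * L) := by
          refine mul_le_mul_of_nonneg_left ?_ (by linarith)
          linarith
        have hF : 0 ≤ η * L := mul_nonneg h0 hL0
        have hG : 0 ≤ S * (η * L) := mul_nonneg hS0 hF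
        nlinarith

end Vale.Agent.P028KM
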