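import Vale.Agent.P028KM.Defs
import Vale.Agent.P028KM.THB

/-!
Module NS: norm of the full local matrix: `th ≤ p^(-0.39 |k-l|)`, for each `d = k-l`
`∑_k (x_k y_{k-d})^(3/5) ≤ ((∑x)(∑y))^(3/5)` (Cauchy-Schwarz, `∑ u^(6/5) ≤ (∑u)^(6/5)`), and
`1 + 2 ∑_{j≥1} 2^(-0.39 j) ≤ 8` (`2^(-0.39) ≤ 0.7632`).
-/

namespace Vale.Agent.P028KM

open Finset MeasureTheory
open Vale.Agent.P028EV (q1 r1 Del hh)

theorem ns_r (p : ℕ) (hp : 2 ≤ p) : (p : ℝ) ^ (-(39 / 100 : ℝ)) ≤ 7 / 9 := by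
  have h2 : (2 : ℝ) ≤ p := by exact_mod_cast hp
  have h1 : (p : ℝ) ^ (-(39 / 100 : ℝ)) ≤ (p : ℝ) ^ (-(3 / 8 : ℝ)) :=
    Real.rpow_le_rpow_of_exponent_le (by linarith) (by norm_num)
  refine h1.trans ?_
  have h0 : 0 ≤ (p : ℝ) ^ (-(3 / 8 : ℝ)) := Real.rpow_nonneg (by linarith) _
  rw [← pow_le_pow_iff_left₀ h0 (by norm_num) (by norm_num : (8 : ℕ) ≠ 0)]
  have h3 : ((p : ℝ) ^ (-(3 / 8 : ℝ))) ^ 8 = ((p : ℝ) ^ 3)⁻¹ := by
    rw [← Real.rpow_natCast, ← Real.rpow_mul (by linarith), ← Real.rpow_natCast,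
      ← Real.rpow_neg (by linarith)]
    norm_num
  rw [h3]
  have h4 : (2 : ℝ) ^ 3 ≤ (p : ℝ) ^ 3 := pow_le_pow_left₀ (by norm_num) h2 3
  have h5 : ((p : ℝ) ^ 3)⁻¹ ≤ ((2 : ℝ) ^ 3)⁻¹ := inv_anti₀ (by norm_num) h4
  refine h5.trans ?_
  norm_num

theorem ns_abs (k l : ℕ) : |(k : ℝ) - (l : ℝ)| = (((k - l) + (l - k) : ℕ) : ℝ) := by
  rcases le_total l k with h | h
  · rw [Nat.sub_eq_zero_of_le h, add_zero, Nat.cast_sub h, abs_of_nonneg]
    have : (l : ℝ) ≤ k := by exact_mod_cast h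
    linarith
  · rw [Nat.sub_eq_zero_of_le h, zero_add, Nat.cast_sub h, abs_of_nonpos]
    · ring
    · have : (k : ℝ) ≤ l := by exact_mod_cast h
      linarith

theorem ns_pow (p k l : ℕ) (hp : 2 ≤ p) :
    (p : ℝ) ^ (-(39 / 100 : ℝ) * |(k : ℝ) - (l : ℝ)|) ≤ (7 / 9 : ℝ) ^ ((k - l) + (l - k)) := by
  rw [ns_abs, Real.rpow_mul (by positivity), Real.rpow_natCast]
  exact pow_le_pow_left₀ (Real.rpow_nonneg (by positivity) _) (ns_r p hp) _

theorem ns_row (k L : ℕ) : ∑ l ∈ range L, (7 / 9 : ℝ) ^ ((k - l) + (l - k)) ≤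
    if L ≤ k then (9 / 2) * (7 / 9 : ℝ) ^ (k + 1 - L) else 8 - (9 / 2) * (7 / 9 : ℝ) ^ (L - k) := by
  induction L with
  | zero =>
    simp only [range_zero, sum_empty, Nat.zero_le, if_true]
    positivity
  | succ L ih =>
    rw [sum_range_succ]
    rcases lt_trichotomy L k with h | h | h
    · rw [if_pos h.le] at ih
      rw [if_pos (by omega : L + 1 ≤ k)]
      have e1 : k + 1 - L = (k - L) + 1 := by omega
      have e2 : k + 1 - (L + 1) = k - L := by omega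
      have e3 : (k - L) + (L - k) = k - L := by omega
      rw [e1, pow_succ] at ih
      rw [e2, e3]
      linarith
    · subst h
      rw [if_pos le_rfl] at ih
      rw [if_neg (by omega)]
      have e1 : L + 1 - L = 1 := by omega
      have e3 : (L - L) + (L - L) = 0 := by omega
      rw [e1] at ih ⊢
      rw [e3]
      norm_num at ih ⊢
      linarith
    · rw [if_neg (by omega)] at ih
      rw [if_neg (by omega)]
      have e1 : L + 1 - k = (L - k) + 1 := by omega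
      have e3 : (k - L) + (L - k) = L - k := by omega
      rw [e1, e3, pow_succ]
      linarith

theorem ns_row8 (k L : ℕ) : ∑ l ∈ range L, (7 / 9 : ℝ) ^ ((k - l) + (l - k)) ≤ 8 := by
  refine (ns_row k L).trans ?_
  split_ifs with h
  · have h1 : (7 / 9 : ℝ) ^ (k + 1 - L) ≤ 1 := pow_le_one₀ (by norm_num) (by norm_num)
    linarith
  · have h1 : 0 ≤ (7 / 9 : ℝ) ^ (L - k) := by positivity
    linarith

theorem ns_sum (L : ℕ) (x : ℕ → ℝ) (hx : ∀ k, 0 ≤ x k) :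
    ∑ k ∈ range L, (x k ^ (3 / 5 : ℝ)) ^ 2 ≤ ((∑ k ∈ range L, x k) ^ (3 / 5 : ℝ)) ^ 2 := by
  have h1 : ∀ a : ℝ, 0 ≤ a → (a ^ (3 / 5 : ℝ)) ^ 2 = a * a ^ (1 / 5 : ℝ) := by
    intro a ha
    rw [← Real.rpow_natCast, ← Real.rpow_mul ha]
    have : (3 / 5 : ℝ) * ((2 : ℕ) : ℝ) = 1 + 1 / 5 := by norm_num
    rw [this, Real.rpow_add' ha (by norm_num), Real.rpow_one]
  rw [h1 _ (sum_nonneg fun k _ => hx k), sum_mul]
  refine sum_le_sum fun k hk => ?_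
  rw [h1 _ (hx k)]
  refine mul_le_mul_of_nonneg_left ?_ (hx k)
  exact Real.rpow_le_rpow (hx k) (single_le_sum (fun j _ => hx j) hk) (by norm_num)

theorem ns (η : ℝ) (hη0 : 0 ≤ η) (hη1 : η ≤ 1 / 40) (p : ℕ) (hp : 2 ≤ p) (L : ℕ) (x y : ℕ → ℝ)
    (hx : ∀ k, 0 ≤ x k) (hy : ∀ k, 0 ≤ y k) :
    ∑ k ∈ range L, ∑ l ∈ range L, th η p k l * (x k * y l) ^ (3 / 5 : ℝ)
      ≤ 8 * ((∑ k ∈ range L, x k) * (∑ k ∈ range L, y k)) ^ (3 / 5 : ℝ) := by
  set X := ∑ k ∈ range L, x k with hX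
  set Y := ∑ k ∈ range L, y k with hY
  have hX0 : 0 ≤ X := sum_nonneg fun k _ => hx k
  have hY0 : 0 ≤ Y := sum_nonneg fun k _ => hy k
  set T : ℕ → ℕ → ℝ := fun k l => (7 / 9 : ℝ) ^ ((k - l) + (l - k)) with hT
  have hT0 : ∀ k l, 0 ≤ T k l := fun k l => by positivity
  have hTs : ∀ k l, T k l = T l k := fun k l => by simp only [hT, add_comm]
  set a : ℕ → ℝ := fun k => x k ^ (3 / 5 : ℝ) with ha
  set b : ℕ → ℝ := fun k => y k ^ (3 / 5 : ℝ) with hb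
  have ha0 : ∀ k, 0 ≤ a k := fun k => Real.rpow_nonneg (hx k) _
  have hb0 : ∀ k, 0 ≤ b k := fun k => Real.rpow_nonneg (hy k) _
  have s1 : ∑ k ∈ range L, ∑ l ∈ range L, th η p k l * (x k * y l) ^ (3 / 5 : ℝ)
      ≤ ∑ k ∈ range L, ∑ l ∈ range L, T k l * (a k * b l) := by
    refine sum_le_sum fun k _ => sum_le_sum fun l _ => ?_
    rw [Real.mul_rpow (hx k) (hy l)]
    exact mul_le_mul_of_nonneg_right ((th_le η hη0 hη1 p k l hp).trans (ns_pow p k l hp))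
      (mul_nonneg (ha0 k) (hb0 l))
  refine s1.trans ?_
  have s2 : (∑ k ∈ range L, ∑ l ∈ range L, T k l * (a k * b l)) ^ 2 ≤
      (∑ k ∈ range L, ∑ l ∈ range L, T k l * a k ^ 2) *
        (∑ k ∈ range L, ∑ l ∈ range L, T k l * b l ^ 2) := by
    have h := Finset.sum_mul_sq_le_sq_mul_sq (range L ×ˢ range L)
      (fun z => Real.sqrt (T z.1 z.2) * a z.1) (fun z => Real.sqrt (T z.1 z.2) * b z.2)
    rw [← sum_product', ← sum_product', ← sum_product']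
    refine le_trans (le_of_eq ?_) (h.trans (le_of_eq ?_))
    · congr 1
      refine sum_congr rfl fun z _ => ?_
      have := Real.mul_self_sqrt (hT0 z.1 z.2)
      calc T z.1 z.2 * (a z.1 * b z.2)
          = (Real.sqrt (T z.1 z.2) * Real.sqrt (T z.1 z.2)) * (a z.1 * b z.2) := by rw [this]
        _ = _ := by ring
    · congr 1 <;>
      · refine sum_congr rfl fun z _ => ?_
        rw [mul_pow, Real.sq_sqrt (hT0 z.1 z.2)]
  have s3 : ∑ k ∈ range L, ∑ l ∈ range L, T k l * a k ^ 2 ≤ 8 * (X ^ (3 / 5 : ℝ)) ^ 2 := by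
    calc _ = ∑ k ∈ range L, (∑ l ∈ range L, T k l) * a k ^ 2 := by
          refine sum_congr rfl fun k _ => ?_
          rw [sum_mul]
      _ ≤ ∑ k ∈ range L, 8 * a k ^ 2 :=
          sum_le_sum fun k _ => mul_le_mul_of_nonneg_right (ns_row8 k L) (sq_nonneg _)
      _ = 8 * ∑ k ∈ range L, a k ^ 2 := by rw [mul_sum]
      _ ≤ _ := mul_le_mul_of_nonneg_left (ns_sum L x hx) (by norm_num)
  have s4 : ∑ k ∈ range L, ∑ l ∈ range L, T k l * b l ^ 2 ≤ 8 * (Y ^ (3 / 5 : ℝ)) ^ 2 := by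
    rw [sum_comm]
    calc _ = ∑ l ∈ range L, (∑ k ∈ range L, T l k) * b l ^ 2 := by
          refine sum_congr rfl fun l _ => ?_
          rw [sum_mul]
          exact sum_congr rfl fun k _ => by rw [hTs]
      _ ≤ ∑ l ∈ range L, 8 * b l ^ 2 :=
          sum_le_sum fun l _ => mul_le_mul_of_nonneg_right (ns_row8 l L) (sq_nonneg _)
      _ = 8 * ∑ l ∈ range L, b l ^ 2 := by rw [mul_sum]
      _ ≤ _ := mul_le_mul_of_nonneg_left (ns_sum L y hy) (by norm_num)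
  rw [Real.mul_rpow hX0 hY0]
  have hXr : 0 ≤ X ^ (3 / 5 : ℝ) := Real.rpow_nonneg hX0 _
  have hYr : 0 ≤ Y ^ (3 / 5 : ℝ) := Real.rpow_nonneg hY0 _
  refine abs_le_of_sq_le_sq' ?_ (by positivity) |>.2
  refine s2.trans ?_
  calc _ ≤ (8 * (X ^ (3 / 5 : ℝ)) ^ 2) * (8 * (Y ^ (3 / 5 : ℝ)) ^ 2) := by
        refine mul_le_mul s3 s4 ?_ (by positivity)
        exact sum_nonneg fun k _ => sum_nonneg fun l _ => mul_nonneg (hT0 k l) (sq_nonneg _)
    _ = _ := by ring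

end Vale.Agent.P028KM
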