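import Vale.Agent.P028KM.Defs
import Vale.Agent.P028KM.NS

/-!
Module NB: norm of the local matrix `TT` (use `ns` if `p < p0`). For `p ≥ p0`, `κ = kk p`:
`κ = 0`: only the entry `(0,0)`, equal to `1`. `κ ≥ 1`: with
`G(x) = (1-1/p)^(2/5) x_κ^(3/5)` and `H(x) = ∑_{k<κ} p^(-(2/5)(1-η)(κ-k)) x_k^(3/5)`
the sum is `≤ G(x)G(y) + H(x) G(y) + G(x) H(y) ≤ (G+H)(x) (G+H)(y)` (note
`th η p k κ ≤ p^(-(2/5)(1-η)(κ-k)) (1-1/p)^(2/5)`), and by Hölder (exponents `5/2, 5/3`)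
`(G+H)(x) ≤ ((1-1/p) + ∑_{j≥1} p^(-(1-η) j))^(2/5) (∑ x)^(3/5)
 = (1 + 1/(p^(1-η)-1) - 1/p)^(2/5) (∑x)^(3/5)`; finally `u^(4/5) ≤ u` for `u ≥ 1`.
-/

namespace Vale.Agent.P028KM

open Finset MeasureTheory
open Vale.Agent.P028EV (q1 r1 Del hh)

/-- NB auxiliary weights -/
noncomputable def NBg (η : ℝ) (p κ k : ℕ) : ℝ :=
  if k = κ then (1 - 1 / (p : ℝ)) ^ (2 / 5 : ℝ) else
    if k < κ then (p : ℝ) ^ (-(2 / 5 : ℝ) * (1 - η) * ((κ : ℝ) - k)) else 0

lemma NB_one (p : ℕ) (hp : 2 ≤ p) : 0 < 1 - 1 / (p : ℝ) ∧ 1 - 1 / (p : ℝ) ≤ 1 := by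
  have hp' : (2 : ℝ) ≤ p := by exact_mod_cast hp
  have h1 : 1 / (p : ℝ) ≤ 1 / 2 := by gcongr
  have h2 : 0 < 1 / (p : ℝ) := by positivity
  constructor <;> linarith

lemma NBg_nonneg (η : ℝ) (p : ℕ) (hp : 2 ≤ p) (κ k : ℕ) : 0 ≤ NBg η p κ k := by
  unfold NBg
  have := (NB_one p hp).1
  split_ifs <;> positivity

lemma NB_holder (g x : ℕ → ℝ) (hg : ∀ k, 0 ≤ g k) (hx : ∀ k, 0 ≤ x k) (s : Finset ℕ) :
    ∑ k ∈ s, g k * x k ^ (3 / 5 : ℝ) ≤
      (∑ k ∈ s, g k ^ (5 / 2 : ℝ)) ^ (2 / 5 : ℝ) * (∑ k ∈ s, x k) ^ (3 / 5 : ℝ) := by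
  have hpq : (5 / 2 : ℝ).HolderConjugate (5 / 3 : ℝ) := by
    rw [Real.holderConjugate_iff]; norm_num
  have h := Real.inner_le_Lp_mul_Lq_of_nonneg s hpq (f := g) (g := fun k => x k ^ (3 / 5 : ℝ))
    (fun k _ => hg k) (fun k _ => Real.rpow_nonneg (hx k) _)
  have e : ∀ k, (x k ^ (3 / 5 : ℝ)) ^ (5 / 3 : ℝ) = x k := by
    intro k
    rw [← Real.rpow_mul (hx k)]; norm_num
  simp only [e] at h
  convert h using 3 <;> norm_num

lemma NB_mat (η : ℝ) (p0 : ℕ) (kk : ℕ → ℕ) (p : ℕ) (hp : 2 ≤ p) (hp0 : ¬ p < p0)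
    (hκ : kk p ≠ 0) (k l : ℕ) :
    TT η p0 kk p k l ≤ NBg η p (kk p) k * NBg η p (kk p) l := by
  unfold TT
  rw [if_neg hp0]
  obtain ⟨ha0, ha1⟩ := NB_one p hp
  have hpp : (0 : ℝ) < p := by have : 0 < p := by omega
                               exact_mod_cast this
  have hle : ∀ e : ℝ, 2 / 5 ≤ e → (1 - 1 / (p : ℝ)) ^ e ≤ (1 - 1 / (p : ℝ)) ^ (2 / 5 : ℝ) :=
    fun e he => Real.rpow_le_rpow_of_exponent_ge ha0 ha1 he
  split_ifs with h
  · obtain ⟨hk, hl, h3⟩ := h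
    unfold th NBg
    by_cases hk' : k = kk p
    · by_cases hl' : l = kk p
      · rw [if_pos hk', if_pos hl', ← Real.rpow_add ha0]
        have : |((k : ℝ)) - l| = 0 := by rw [hk', hl']; simp
        rw [this, mul_zero, Real.rpow_zero, one_mul]
        apply le_of_eq
        congr 1
        rw [if_neg (by rw [hk']; exact hκ), if_neg (by rw [hl']; exact hκ)]
        norm_num
      · have hlt : l < kk p := lt_of_le_of_ne hl hl'
        have hlr : (l : ℝ) < kk p := by exact_mod_cast hlt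
        rw [if_pos hk', if_neg hl', if_pos hlt]
        have e1 : |((k : ℝ)) - l| = (kk p : ℝ) - l := by
          rw [hk', abs_of_pos (by linarith)]
        rw [e1, mul_comm]
        refine mul_le_mul_of_nonneg_right (hle _ ?_) (by positivity)
        rw [if_neg (by rw [hk']; exact hκ)]
        split_ifs <;> norm_num
    · have hl' : l = kk p := h3.resolve_left hk'
      have hlt : k < kk p := lt_of_le_of_ne hk hk'
      have hlr : (k : ℝ) < kk p := by exact_mod_cast hlt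
      rw [if_neg hk', if_pos hl', if_pos hlt]
      have e1 : |((k : ℝ)) - l| = (kk p : ℝ) - k := by
        rw [hl', abs_of_neg (by linarith)]; ring
      rw [e1]
      refine mul_le_mul_of_nonneg_left (hle _ ?_) (by positivity)
      rw [if_neg (by rw [hl']; exact hκ : ¬ l = 0)]
      split_ifs <;> norm_num
  · exact mul_nonneg (NBg_nonneg η p hp _ _) (NBg_nonneg η p hp _ _)

lemma NB_geom (r : ℝ) (hr0 : 0 < r) (hr1 : r < 1) (κ : ℕ) :
    ∑ k ∈ range κ, r ^ (κ - k) ≤ r / (1 - r) := by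
  have h1 : ∑ k ∈ range κ, r ^ (κ - k) = r * ∑ j ∈ range κ, r ^ j := by
    rw [Finset.mul_sum, ← Finset.sum_range_reflect]
    refine Finset.sum_congr rfl fun k hk => ?_
    have hk' := Finset.mem_range.mp hk
    rw [← pow_succ']
    congr 1
    omega
  rw [h1, le_div_iff₀ (by linarith), mul_assoc, geom_sum_mul_neg]
  have : 0 ≤ r ^ κ := by positivity
  nlinarith [mul_nonneg hr0.le this]

lemma NB_sum (η : ℝ) (hη0 : 0 ≤ η) (hη1 : η ≤ 1 / 40) (p : ℕ) (hp : 2 ≤ p) (κ L : ℕ) :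
    ∑ k ∈ range L, NBg η p κ k ^ (5 / 2 : ℝ) ≤
      1 + (1 / ((p : ℝ) ^ (1 - η) - 1) - 1 / (p : ℝ)) := by
  obtain ⟨ha0, ha1⟩ := NB_one p hp
  have hp2 : (2 : ℝ) ≤ p := by exact_mod_cast hp
  have hpp : (0 : ℝ) < p := by linarith
  have h1 : ∑ k ∈ range L, NBg η p κ k ^ (5 / 2 : ℝ) ≤
      ∑ k ∈ range (κ + 1), NBg η p κ k ^ (5 / 2 : ℝ) := by
    have e1 : ∑ k ∈ range (κ + 1), NBg η p κ k ^ (5 / 2 : ℝ) =
        ∑ k ∈ range (max L (κ + 1)), NBg η p κ k ^ (5 / 2 : ℝ) := by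
      refine Finset.sum_subset (Finset.range_mono (le_max_right _ _)) fun k _ hk => ?_
      have h2 : ¬ k < κ + 1 := fun h => hk (Finset.mem_range.mpr h)
      unfold NBg
      rw [if_neg (by omega), if_neg (by omega), Real.zero_rpow (by norm_num)]
    rw [e1]
    exact Finset.sum_le_sum_of_subset_of_nonneg (Finset.range_mono (le_max_left _ _))
      fun k _ _ => Real.rpow_nonneg (NBg_nonneg η p hp _ k) _
  refine h1.trans ?_
  rw [Finset.sum_range_succ]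
  have h2 : NBg η p κ κ ^ (5 / 2 : ℝ) = 1 - 1 / (p : ℝ) := by
    unfold NBg
    rw [if_pos rfl, ← Real.rpow_mul ha0.le]; norm_num
  set r : ℝ := (p : ℝ) ^ (-(1 - η)) with hr
  have hr0 : 0 < r := by positivity
  have hP : 1 < (p : ℝ) ^ (1 - η) := Real.one_lt_rpow (by linarith) (by linarith)
  have hr1 : r < 1 := by
    rw [hr, Real.rpow_neg hpp.le]; exact inv_lt_one_of_one_lt₀ hP
  have h3 : ∀ k ∈ range κ, NBg η p κ k ^ (5 / 2 : ℝ) = r ^ (κ - k) := by
    intro k hk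
    have hk' := Finset.mem_range.mp hk
    unfold NBg
    rw [if_neg hk'.ne, if_pos hk', ← Real.rpow_mul hpp.le, hr, ← Real.rpow_natCast,
      ← Real.rpow_mul hpp.le, Nat.cast_sub hk'.le]
    congr 1
    ring
  rw [Finset.sum_congr rfl h3, h2]
  have h4 := NB_geom r hr0 hr1 κ
  have h5 : r / (1 - r) = 1 / ((p : ℝ) ^ (1 - η) - 1) := by
    have e : r = ((p : ℝ) ^ (1 - η))⁻¹ := by rw [hr, Real.rpow_neg hpp.le]
    rw [e]
    have h6 : (p : ℝ) ^ (1 - η) ≠ 0 := by positivity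
    have h7 : (p : ℝ) ^ (1 - η) - 1 ≠ 0 := by linarith
    have h8 : 1 - ((p : ℝ) ^ (1 - η))⁻¹ ≠ 0 := by
      rw [← e]; linarith
    field_simp
  rw [h5] at h4
  linarith

theorem nb (η : ℝ) (hη0 : 0 ≤ η) (hη1 : η ≤ 1 / 40) (p0 : ℕ) (kk : ℕ → ℕ) (p : ℕ) (hp : 2 ≤ p)
    (L : ℕ) (x y : ℕ → ℝ) (hx : ∀ k, 0 ≤ x k) (hy : ∀ k, 0 ≤ y k) :
    ∑ k ∈ range L, ∑ l ∈ range L, TT η p0 kk p k l * (x k * y l) ^ (3 / 5 : ℝ)
      ≤ NN η p0 kk p * ((∑ k ∈ range L, x k) * (∑ k ∈ range L, y k)) ^ (3 / 5 : ℝ) := by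
  have hX : 0 ≤ ∑ k ∈ range L, x k := Finset.sum_nonneg fun k _ => hx k
  have hY : 0 ≤ ∑ k ∈ range L, y k := Finset.sum_nonneg fun k _ => hy k
  by_cases hp0 : p < p0
  · have h := ns η hη0 hη1 p hp L x y hx hy
    unfold NN
    rw [if_pos hp0]
    refine le_trans (le_of_eq ?_) h
    refine Finset.sum_congr rfl fun k _ => Finset.sum_congr rfl fun l _ => ?_
    unfold TT
    rw [if_pos hp0]
  by_cases hκ : kk p = 0
  · unfold NN
    rw [if_neg hp0, if_pos hκ, one_mul]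
    rcases Nat.eq_zero_or_pos L with hL | hL
    · subst hL; simp
    · have h0 : ∀ k l, TT η p0 kk p k l * (x k * y l) ^ (3 / 5 : ℝ) =
          if k = 0 then (if l = 0 then (x 0 * y 0) ^ (3 / 5 : ℝ) else 0) else 0 := by
        intro k l
        unfold TT
        rw [if_neg hp0, hκ]
        by_cases hk : k = 0
        · by_cases hl : l = 0
          · subst hk hl; simp [th]
          · subst hk; simp [hl]
        · simp [hk]
      have h1 : ∀ k, ∑ l ∈ range L, TT η p0 kk p k l * (x k * y l) ^ (3 / 5 : ℝ) =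
          if k = 0 then (x 0 * y 0) ^ (3 / 5 : ℝ) else 0 := by
        intro k
        by_cases hk : k = 0
        · rw [if_pos hk, Finset.sum_eq_single_of_mem 0 (Finset.mem_range.mpr hL)]
          · rw [h0, if_pos hk, if_pos rfl]
          · intro l _ hl
            rw [h0, if_pos hk, if_neg hl]
        · rw [if_neg hk]
          exact Finset.sum_eq_zero fun l _ => by rw [h0, if_neg hk]
      rw [Finset.sum_congr rfl fun k _ => h1 k, Finset.sum_eq_single_of_mem 0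
        (Finset.mem_range.mpr hL) (fun k _ hk => if_neg hk), if_pos rfl]
      refine Real.rpow_le_rpow (mul_nonneg (hx 0) (hy 0)) ?_ (by norm_num)
      exact mul_le_mul (Finset.single_le_sum (fun k _ => hx k) (Finset.mem_range.mpr hL))
        (Finset.single_le_sum (fun k _ => hy k) (Finset.mem_range.mpr hL)) (hy 0) hX
  · unfold NN
    rw [if_neg hp0, if_neg hκ]
    set N : ℝ := 1 + (1 / ((p : ℝ) ^ (1 - η) - 1) - 1 / (p : ℝ)) with hN
    have hp2 : (2 : ℝ) ≤ p := by exact_mod_cast hp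
    have hN1 : 1 ≤ N := by
      have hP : 1 < (p : ℝ) ^ (1 - η) := Real.one_lt_rpow (by linarith) (by linarith)
      have hPp : (p : ℝ) ^ (1 - η) ≤ p := by
        calc (p : ℝ) ^ (1 - η) ≤ (p : ℝ) ^ (1 : ℝ) :=
              Real.rpow_le_rpow_of_exponent_le (by linarith) (by linarith)
          _ = p := Real.rpow_one _
      have : 1 / (p : ℝ) ≤ 1 / ((p : ℝ) ^ (1 - η) - 1) := by
        apply one_div_le_one_div_of_le <;> linarith
      linarith
    have hG : ∀ z : ℕ → ℝ, (∀ k, 0 ≤ z k) →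
        ∑ k ∈ range L, NBg η p (kk p) k * z k ^ (3 / 5 : ℝ) ≤
          N ^ (2 / 5 : ℝ) * (∑ k ∈ range L, z k) ^ (3 / 5 : ℝ) := by
      intro z hz
      refine (NB_holder _ z (fun k => NBg_nonneg η p hp _ k) hz (range L)).trans ?_
      refine mul_le_mul_of_nonneg_right ?_ (Real.rpow_nonneg (Finset.sum_nonneg fun k _ => hz k) _)
      refine Real.rpow_le_rpow ?_ (NB_sum η hη0 hη1 p hp (kk p) L) (by norm_num)
      exact Finset.sum_nonneg fun k _ => Real.rpow_nonneg (NBg_nonneg η p hp _ k) _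
    calc ∑ k ∈ range L, ∑ l ∈ range L, TT η p0 kk p k l * (x k * y l) ^ (3 / 5 : ℝ)
        ≤ ∑ k ∈ range L, ∑ l ∈ range L, (NBg η p (kk p) k * x k ^ (3 / 5 : ℝ)) *
            (NBg η p (kk p) l * y l ^ (3 / 5 : ℝ)) := by
          refine Finset.sum_le_sum fun k _ => Finset.sum_le_sum fun l _ => ?_
          rw [Real.mul_rpow (hx k) (hy l)]
          calc TT η p0 kk p k l * (x k ^ (3 / 5 : ℝ) * y l ^ (3 / 5 : ℝ)) ≤
              (NBg η p (kk p) k * NBg η p (kk p) l) * (x k ^ (3 / 5 : ℝ) * y l ^ (3 / 5 : ℝ)) :=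
                mul_le_mul_of_nonneg_right (NB_mat η p0 kk p hp hp0 hκ k l)
                  (mul_nonneg (Real.rpow_nonneg (hx k) _) (Real.rpow_nonneg (hy l) _))
            _ = _ := by ring
      _ = (∑ k ∈ range L, NBg η p (kk p) k * x k ^ (3 / 5 : ℝ)) *
            (∑ l ∈ range L, NBg η p (kk p) l * y l ^ (3 / 5 : ℝ)) := by
          rw [Finset.sum_mul_sum]
      _ ≤ (N ^ (2 / 5 : ℝ) * (∑ k ∈ range L, x k) ^ (3 / 5 : ℝ)) *
            (N ^ (2 / 5 : ℝ) * (∑ k ∈ range L, y k) ^ (3 / 5 : ℝ)) := by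
          refine mul_le_mul (hG x hx) (hG y hy) ?_ ?_
          · exact Finset.sum_nonneg fun k _ => mul_nonneg (NBg_nonneg η p hp _ k)
              (Real.rpow_nonneg (hy k) _)
          · exact mul_nonneg (Real.rpow_nonneg (by linarith) _) (Real.rpow_nonneg hX _)
      _ = N ^ (4 / 5 : ℝ) * ((∑ k ∈ range L, x k) * (∑ k ∈ range L, y k)) ^ (3 / 5 : ℝ) := by
          rw [Real.mul_rpow hX hY]
          have : N ^ (4 / 5 : ℝ) = N ^ (2 / 5 : ℝ) * N ^ (2 / 5 : ℝ) := by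
            rw [← Real.rpow_add (by linarith)]; norm_num
          rw [this]; ring
      _ ≤ N * ((∑ k ∈ range L, x k) * (∑ k ∈ range L, y k)) ^ (3 / 5 : ℝ) := by
          refine mul_le_mul_of_nonneg_right ?_ (Real.rpow_nonneg (mul_nonneg hX hY) _)
          calc N ^ (4 / 5 : ℝ) ≤ N ^ (1 : ℝ) :=
                Real.rpow_le_rpow_of_exponent_le hN1 (by norm_num)
            _ = N := Real.rpow_one _

end Vale.Agent.P028KM
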