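import Vale.Agent.P028KM.Defs


/-!
Module TENS: tensorisation, induction on `P` (generalising `V W c`).
`P = ∅`: the hypothesis for `V, W` themselves (if one is empty, `FF = 0`).
Step `insert p P`: partition `V = ⊔_{k<L} V_k`, `W = ⊔_{l<L} W_l` by `e p`; apply the induction
hypothesis to `(V_k, W_l)` with the constant `c * T p k l`; then the norm inequality for `p` with
`x k = ∑_{V_k} m`, `y l = ∑_{W_l} n`.
-/

namespace Vale.Agent.P028KM

open Finset MeasureTheory
open Vale.Agent.P028EV (q1 r1 Del hh)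

theorem TENS_MN_nonneg {m n : ℕ → ℝ} (hm : ∀ q, 0 ≤ m q) (hn : ∀ q, 0 ≤ n q) (V W : Finset ℕ) :
    0 ≤ MN m n V W :=
  Real.rpow_nonneg (mul_nonneg (sum_nonneg fun q _ => hm q) (sum_nonneg fun q _ => hn q)) _

theorem TENS_split (K : ℕ → ℕ → ℝ) (L : ℕ) (g : ℕ → ℕ) (V W : Finset ℕ)
    (hV : ∀ q ∈ V, g q < L) (hW : ∀ q ∈ W, g q < L) :
    FF K V W = ∑ k ∈ range L, ∑ l ∈ range L,
      FF K (V.filter fun q => g q = k) (W.filter fun q => g q = l) := by
  unfold FF
  rw [← sum_fiberwise_of_maps_to (s := V) (t := range L) (g := g)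
    (fun q hq => mem_range.mpr (hV q hq))]
  refine sum_congr rfl fun k _ => ?_
  rw [sum_comm (s := range L)]
  refine sum_congr rfl fun q _ => ?_
  rw [← sum_fiberwise_of_maps_to (s := W) (t := range L) (g := g)
    (fun q hq => mem_range.mpr (hW q hq))]

theorem tens (L : ℕ) (T : ℕ → ℕ → ℕ → ℝ) (N : ℕ → ℝ) (e : ℕ → ℕ → ℕ) (m n : ℕ → ℝ)
    (K : ℕ → ℕ → ℝ) (hT : ∀ p k l, 0 ≤ T p k l) (hN0 : ∀ p, 0 ≤ N p)
    (hm : ∀ q, 0 ≤ m q) (hn : ∀ q, 0 ≤ n q) (hK : ∀ q r, 0 ≤ K q r) (P : Finset ℕ)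
    (hN : ∀ p ∈ P, ∀ x y : ℕ → ℝ, (∀ k, 0 ≤ x k) → (∀ k, 0 ≤ y k) →
      ∑ k ∈ range L, ∑ l ∈ range L, T p k l * (x k * y l) ^ (3 / 5 : ℝ)
        ≤ N p * ((∑ k ∈ range L, x k) * (∑ k ∈ range L, y k)) ^ (3 / 5 : ℝ)) :
    ∀ (V W : Finset ℕ) (c : ℝ), 0 ≤ c → (∀ p ∈ P, ∀ q ∈ V, e p q < L) →
      (∀ p ∈ P, ∀ q ∈ W, e p q < L) →
      (∀ V' ⊆ V, ∀ W' ⊆ W, ∀ q ∈ V', ∀ r ∈ W', (∀ p ∈ P, ∀ q' ∈ V', e p q' = e p q) →
        (∀ p ∈ P, ∀ r' ∈ W', e p r' = e p r) →
        FF K V' W' ≤ c * (∏ p ∈ P, T p (e p q) (e p r)) * MN m n V' W') →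
      FF K V W ≤ c * (∏ p ∈ P, N p) * MN m n V W := by
  induction P using Finset.induction_on with
  | empty =>
    intro V W c hc _ _ hyp
    rcases V.eq_empty_or_nonempty with hV | ⟨q, hq⟩
    · subst hV
      unfold FF
      rw [sum_empty]
      exact mul_nonneg (mul_nonneg hc (prod_nonneg fun p _ => hN0 p)) (TENS_MN_nonneg hm hn _ _)
    rcases W.eq_empty_or_nonempty with hW | ⟨r, hr⟩
    · subst hW
      unfold FF
      simp only [sum_empty, sum_const_zero]
      exact mul_nonneg (mul_nonneg hc (prod_nonneg fun p _ => hN0 p)) (TENS_MN_nonneg hm hn _ _)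
    have h := hyp V Subset.rfl W Subset.rfl q hq r hr (fun p hp => absurd hp (notMem_empty p))
      (fun p hp => absurd hp (notMem_empty p))
    rw [prod_empty] at h ⊢
    exact h
  | insert p P hpP ih =>
    intro V W c hc heV heW hyp
    have ih' := ih (fun p' hp' => hN p' (mem_insert_of_mem hp'))
    rw [TENS_split K L (e p) V W (heV p (mem_insert_self p P)) (heW p (mem_insert_self p P))]
    have hP0 : 0 ≤ ∏ p ∈ P, N p := prod_nonneg fun p _ => hN0 p
    have h1 : ∀ k ∈ range L, ∀ l ∈ range L,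
        FF K (V.filter fun q => e p q = k) (W.filter fun q => e p q = l) ≤
          (c * ∏ p ∈ P, N p) * (T p k l * ((∑ q ∈ V with e p q = k, m q) *
            (∑ q ∈ W with e p q = l, n q)) ^ (3 / 5 : ℝ)) := by
      intro k _ l _
      have h2 := ih' (V.filter fun q => e p q = k) (W.filter fun q => e p q = l) (c * T p k l)
        (mul_nonneg hc (hT p k l))
        (fun p' hp' q hq => heV p' (mem_insert_of_mem hp') q (mem_of_mem_filter q hq))
        (fun p' hp' q hq => heW p' (mem_insert_of_mem hp') q (mem_of_mem_filter q hq))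
        (by
          intro V' hV' W' hW' q hq r hr h3 h4
          have hqk : ∀ q' ∈ V', e p q' = k := fun q' hq' => (mem_filter.mp (hV' hq')).2
          have hrl : ∀ q' ∈ W', e p q' = l := fun q' hq' => (mem_filter.mp (hW' hq')).2
          have h5 := hyp V' (hV'.trans (filter_subset _ _)) W' (hW'.trans (filter_subset _ _)) q hq
            r hr
            (by
              intro p' hp' q' hq'
              rcases mem_insert.mp hp' with rfl | hp'
              · rw [hqk q' hq', hqk q hq]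
              · exact h3 p' hp' q' hq')
            (by
              intro p' hp' q' hq'
              rcases mem_insert.mp hp' with rfl | hp'
              · rw [hrl q' hq', hrl r hr]
              · exact h4 p' hp' q' hq')
          rw [prod_insert hpP, hqk q hq, hrl r hr] at h5
          rw [mul_assoc c (T p k l)]
          exact h5)
      refine h2.trans (le_of_eq ?_)
      unfold MN
      ring
    have hx := hN p (mem_insert_self p P) (fun k => ∑ q ∈ V with e p q = k, m q)
      (fun k => ∑ q ∈ W with e p q = k, n q) (fun k => sum_nonneg fun q _ => hm q)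
      (fun k => sum_nonneg fun q _ => hn q)
    rw [sum_fiberwise_of_maps_to (fun q hq => mem_range.mpr (heV p (mem_insert_self p P) q hq)),
      sum_fiberwise_of_maps_to (fun q hq => mem_range.mpr (heW p (mem_insert_self p P) q hq))] at hx
    calc ∑ k ∈ range L, ∑ l ∈ range L,
          FF K (V.filter fun q => e p q = k) (W.filter fun q => e p q = l)
        ≤ ∑ k ∈ range L, ∑ l ∈ range L, (c * ∏ p ∈ P, N p) *
            (T p k l * ((∑ q ∈ V with e p q = k, m q) *
            (∑ q ∈ W with e p q = l, n q)) ^ (3 / 5 : ℝ)) :=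
          sum_le_sum fun k hk => sum_le_sum fun l hl => h1 k hk l hl
      _ = (c * ∏ p ∈ P, N p) * ∑ k ∈ range L, ∑ l ∈ range L,
            T p k l * ((∑ q ∈ V with e p q = k, m q) *
            (∑ q ∈ W with e p q = l, n q)) ^ (3 / 5 : ℝ) := by
          rw [mul_sum]
          refine sum_congr rfl fun k _ => ?_
          rw [mul_sum]
      _ ≤ (c * ∏ p ∈ P, N p) * (N p * ((∑ q ∈ V, m q) * (∑ q ∈ W, n q)) ^ (3 / 5 : ℝ)) :=
          mul_le_mul_of_nonneg_left hx (mul_nonneg hc hP0)
      _ = c * (∏ p ∈ insert p P, N p) * MN m n V W := by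
          rw [prod_insert hpP]
          unfold MN
          ring

end Vale.Agent.P028KM
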