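import Vale.Agent.P028KM.Defs


/-!
Module TH. `Th η a b` is the product of the local factors `th`. With `k = v_p(a)`, `l = v_p(b)`:
`a/g * b/g = ∏ p^|k-l|`, `w a = ∏_{p | a} (1-1/p)`. (`Nat.totient_mul_prod_primeFactors` or `Nat.totient_eq_mul_prod_factors`.)
Also `th_nonneg`, `th_le`.
-/

namespace Vale.Agent.P028KM

open Finset MeasureTheory
open Vale.Agent.P028EV (q1 r1 Del hh)

theorem w_eq (q : ℕ) (hq : 0 < q) : w q = ∏ p ∈ q.primeFactors, (1 - 1 / (p : ℝ)) := by
  have h := Nat.totient_eq_mul_prod_factors q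
  have h2 : (Nat.totient q : ℝ) = q * ∏ p ∈ q.primeFactors, (1 - ((p : ℝ))⁻¹) := by
    have h3 : ((Nat.totient q : ℚ) : ℝ) = ((q * ∏ p ∈ q.primeFactors, (1 - ((p : ℚ))⁻¹) : ℚ) : ℝ) := by
      rw [h]
    push_cast at h3
    exact h3
  have hq' : (q : ℝ) ≠ 0 := by exact_mod_cast hq.ne'
  unfold w
  rw [h2, mul_div_cancel_left₀ _ hq']
  simp only [one_div]

theorem TH_div (P : Finset ℕ) (a b : ℕ) (ha : 0 < a) (hb : 0 < b)
    (hPa : a.primeFactors ⊆ P) :
    a / Nat.gcd a b = ∏ p ∈ P, p ^ (a.factorization p - b.factorization p) := by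
  have hg : Nat.gcd a b ∣ a := Nat.gcd_dvd_left a b
  have hpos : 0 < a / Nat.gcd a b :=
    Nat.div_pos (Nat.le_of_dvd ha hg) (Nat.gcd_pos_of_pos_left b ha)
  have hf : (a / Nat.gcd a b).factorization = a.factorization - (Nat.gcd a b).factorization :=
    Nat.factorization_div hg
  have hs : (a / Nat.gcd a b).factorization.support ⊆ P := by
    refine Finset.Subset.trans ?_ hPa
    rw [Nat.support_factorization]
    exact Nat.primeFactors_mono (Nat.div_dvd_of_dvd hg) ha.ne'
  have h1 := Nat.prod_factorization_pow_eq_self hpos.ne'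
  rw [← h1]
  rw [Finsupp.prod_of_support_subset _ hs _ (fun i _ => pow_zero i)]
  refine Finset.prod_congr rfl fun p _ => ?_
  rw [hf, Nat.factorization_gcd ha.ne' hb.ne']
  congr 1
  simp only [Finsupp.coe_tsub, Pi.sub_apply, Finsupp.inf_apply]
  omega

theorem Th_eq (η : ℝ) (P : Finset ℕ) (hP : ∀ p ∈ P, p.Prime) (a b : ℕ) (ha : 0 < a) (hb : 0 < b)
    (hPa : a.primeFactors ⊆ P) (hPb : b.primeFactors ⊆ P) :
    Th η a b = ∏ p ∈ P, th η p (a.factorization p) (b.factorization p) := by
  have hw : ∀ c : ℕ, 0 < c → c.primeFactors ⊆ P →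
      w c = ∏ p ∈ P, (1 - 1 / (p : ℝ)) ^ (if c.factorization p = 0 then (0 : ℝ) else 1) := by
    intro c hc hPc
    rw [w_eq c hc]
    rw [← Finset.prod_subset hPc (f := fun p : ℕ =>
      (1 - 1 / (p : ℝ)) ^ (if c.factorization p = 0 then (0 : ℝ) else 1))]
    · refine Finset.prod_congr rfl fun p hp => ?_
      have h1 : c.factorization p ≠ 0 := by
        rw [← Finsupp.mem_support_iff, Nat.support_factorization]
        exact hp
      rw [if_neg h1, Real.rpow_one]
    · intro p _ hp
      have h1 : c.factorization p = 0 := by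
        rw [← Finsupp.notMem_support_iff, Nat.support_factorization]
        exact hp
      rw [if_pos h1, Real.rpow_zero]
  have hpos : ∀ p ∈ P, (0 : ℝ) ≤ 1 - 1 / (p : ℝ) := by
    intro p hp
    have h1 : (1 : ℝ) ≤ p := by exact_mod_cast (hP p hp).one_le
    have h2 : 1 / (p : ℝ) ≤ 1 := by
      rw [div_le_one (by linarith)]
      exact h1
    linarith
  have hw0 : ∀ c : ℕ, 0 ≤ w c := by
    intro c
    unfold w
    positivity
  have hq : ((q1 a b : ℝ) * (r1 a b : ℝ)) =
      ∏ p ∈ P, (p : ℝ) ^ (|((a.factorization p : ℕ) : ℝ) - ((b.factorization p : ℕ) : ℝ)|) := by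
    have h1 : (q1 a b : ℕ) = ∏ p ∈ P, p ^ (a.factorization p - b.factorization p) :=
      TH_div P a b ha hb hPa
    have h2 : (r1 a b : ℕ) = ∏ p ∈ P, p ^ (b.factorization p - a.factorization p) := by
      have h3 := TH_div P b a hb ha hPb
      rw [Nat.gcd_comm] at h3
      exact h3
    rw [h1, h2]
    push_cast
    rw [← Finset.prod_mul_distrib]
    refine Finset.prod_congr rfl fun p hp => ?_
    rw [← pow_add, ← Real.rpow_natCast]
    congr 1
    rcases le_total (a.factorization p) (b.factorization p) with h | h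
    · have h4 : ((a.factorization p : ℕ) : ℝ) ≤ ((b.factorization p : ℕ) : ℝ) := by exact_mod_cast h
      rw [abs_of_nonpos (by linarith), Nat.sub_eq_zero_of_le h, zero_add, Nat.cast_sub h]
      ring
    · have h4 : ((b.factorization p : ℕ) : ℝ) ≤ ((a.factorization p : ℕ) : ℝ) := by exact_mod_cast h
      rw [abs_of_nonneg (by linarith), Nat.sub_eq_zero_of_le h, add_zero, Nat.cast_sub h]
  unfold Th
  rw [hq, ← Real.finsetProd_rpow _ _ (fun p _ => Real.rpow_nonneg (Nat.cast_nonneg p) _)]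
  rw [hw a ha hPa, hw b hb hPb, ← Finset.prod_mul_distrib, ← Finset.prod_mul_distrib]
  rw [← Real.finsetProd_rpow]
  · refine Finset.prod_congr rfl fun p hp => ?_
    unfold th
    have hp0 : (0 : ℝ) ≤ p := Nat.cast_nonneg p
    have h0 := hpos p hp
    have hpp : (1 : ℝ) < p := by exact_mod_cast (hP p hp).one_lt
    have h00 : (0 : ℝ) < 1 - 1 / (p : ℝ) := by
      have : 1 / (p : ℝ) < 1 := by
        rw [div_lt_one (by linarith)]
        exact hpp
      linarith
    rw [Real.mul_rpow (Real.rpow_nonneg (Real.rpow_nonneg hp0 _) _)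
      (mul_nonneg (Real.rpow_nonneg h0 _) (Real.rpow_nonneg h0 _)),
      ← Real.rpow_mul hp0, ← Real.rpow_mul hp0, ← Real.rpow_add h00, ← Real.rpow_mul h0]
    congr 1
    · congr 1
      ring
    · congr 1
      ring
  · intro p hp
    have h0 := hpos p hp
    exact mul_nonneg (Real.rpow_nonneg (Real.rpow_nonneg (Nat.cast_nonneg p) _) _)
      (mul_nonneg (Real.rpow_nonneg h0 _) (Real.rpow_nonneg h0 _))

end Vale.Agent.P028KM
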