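import Vale.Agent.P028KM.Defs
import Vale.Agent.P028KM.TH
import Vale.Agent.P028KM.THB
import Vale.Agent.P028KM.GC
import Vale.Agent.P028KM.TENS
import Vale.Agent.P028KM.NB

/-!
Module UP: upper bound for the admissible pairs. Apply `tens` to `V = Bl S Q q0`, `W = Bl S Q r0`,
the kernel `KO P Q p0 kk K`, the primes `P \ Q`, `e p q = ex Q p0 kk p q`, `T = TT`, `N = NN`,
`c = CB * ThQ η Q q0 r0`. If the classes are constant on `V`, `W` then `cl` is constant
(`= a` on `V`, `= b` on `W`; for `p ∈ Q` the valuations are those of `q0, r0`); if no pair of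
`V x W` is admissible the left side is `0`; otherwise (`cl_gcd`) admissible pairs have
`gcd q r = gcd a b` and `BASE` gives `≤ CB Th η a b MN`, `Th_eq`, and `th = TT` at all
`p ∈ P \ Q` because an admissible pair exists.
-/

namespace Vale.Agent.P028KM

open Finset MeasureTheory
open Vale.Agent.P028EV (q1 r1 Del hh)

theorem UP_th_nonneg (η : ℝ) (p k l : ℕ) : 0 ≤ th η p k l := by
  have h : 0 ≤ 1 - 1 / (p : ℝ) := by
    rcases Nat.eq_zero_or_pos p with h | h
    · subst h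
      norm_num
    · have h1 : (1 : ℝ) ≤ p := by exact_mod_cast h
      have h2 : 1 / (p : ℝ) ≤ 1 := by
        rw [div_le_one (by linarith)]
        exact h1
      linarith
  unfold th
  exact mul_nonneg (Real.rpow_nonneg (Nat.cast_nonneg _) _) (Real.rpow_nonneg h _)

theorem UP_TT_nonneg (η : ℝ) (p0 : ℕ) (kk : ℕ → ℕ) (p k l : ℕ) : 0 ≤ TT η p0 kk p k l := by
  unfold TT
  split_ifs
  · exact UP_th_nonneg _ _ _ _
  · exact UP_th_nonneg _ _ _ _
  · exact le_rfl

theorem UP_NN_nonneg {η : ℝ} (hη0 : 0 ≤ η) (hη1 : η ≤ 1 / 40) (p0 : ℕ) (kk : ℕ → ℕ) (p : ℕ) :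
    0 ≤ NN η p0 kk p := by
  unfold NN
  split_ifs
  · norm_num
  · norm_num
  · rcases Nat.lt_or_ge p 2 with h | h
    · interval_cases p
      · rw [Nat.cast_zero, Real.zero_rpow (by linarith)]
        norm_num
      · rw [Nat.cast_one, Real.one_rpow]
        norm_num
    · have h2 : (2 : ℝ) ≤ p := by exact_mod_cast h
      have h3 : 1 < (p : ℝ) ^ (1 - η) := Real.one_lt_rpow (by linarith) (by linarith)
      have h4 : 0 < 1 / ((p : ℝ) ^ (1 - η) - 1) := one_div_pos.2 (by linarith)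
      have h5 : 1 / (p : ℝ) ≤ 1 / 2 := one_div_le_one_div_of_le (by norm_num) h2
      linarith

theorem UP_MN_nonneg {m n : ℕ → ℝ} (hm : ∀ q, 0 ≤ m q) (hn : ∀ q, 0 ≤ n q) (V W : Finset ℕ) :
    0 ≤ MN m n V W := by
  unfold MN
  exact Real.rpow_nonneg (mul_nonneg (Finset.sum_nonneg fun q _ => hm q)
    (Finset.sum_nonneg fun q _ => hn q)) _

theorem UP_cl {P Q S : Finset ℕ} {p0 : ℕ} {kk : ℕ → ℕ} {q0 : ℕ} {V' : Finset ℕ}
    (hV : V' ⊆ Bl S Q q0) {q : ℕ} (hq : q ∈ V')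
    (he : ∀ p ∈ P \ Q, ∀ q' ∈ V', ex Q p0 kk p q' = ex Q p0 kk p q) :
    ∀ q' ∈ V', cl P Q p0 kk q' = cl P Q p0 kk q := by
  intro q' hq'
  unfold cl
  refine Finset.prod_congr rfl fun p hp => ?_
  by_cases hpQ : p ∈ Q
  · have h1 := (Finset.mem_filter.1 (hV hq)).2 p hpQ
    have h2 := (Finset.mem_filter.1 (hV hq')).2 p hpQ
    unfold ex
    rw [if_pos (Or.inl hpQ), if_pos (Or.inl hpQ), h1, h2]
  · rw [he p (Finset.mem_sdiff.2 ⟨hp, hpQ⟩) q' hq']

theorem UP_main {η : ℝ} {P S Q : Finset ℕ} {m n : ℕ → ℝ}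
    {K : ℕ → ℕ → ℝ} {q0 r0 : ℕ} {c : ℝ} (h : Mx η P S Q m n K q0 r0 c) (CB : ℝ) (hCB : 0 ≤ CB)
    (hB : BASE η CB S m n K) (p0 : ℕ) (kk : ℕ → ℕ) {V' W' : Finset ℕ} (hV : V' ⊆ Bl S Q q0)
    (hW : W' ⊆ Bl S Q r0) {q r : ℕ} (hq : q ∈ V') (hr : r ∈ W')
    (hqe : ∀ p ∈ P \ Q, ∀ q' ∈ V', ex Q p0 kk p q' = ex Q p0 kk p q)
    (hre : ∀ p ∈ P \ Q, ∀ r' ∈ W', ex Q p0 kk p r' = ex Q p0 kk p r) :
    FF (KO P Q p0 kk K) V' W' ≤ CB * ThQ η Q q0 r0 *
      (∏ p ∈ P \ Q, TT η p0 kk p (ex Q p0 kk p q) (ex Q p0 kk p r)) * MN m n V' W' := by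
  classical
  have hThQ : 0 ≤ ThQ η Q q0 r0 := Finset.prod_nonneg fun p _ => UP_th_nonneg _ _ _ _
  have hMN := UP_MN_nonneg h.hm h.hn V' W'
  have hVS : ∀ q' ∈ V', q' ∈ S := fun q' hq' => (Finset.mem_filter.1 (hV hq')).1
  have hWS : ∀ r' ∈ W', r' ∈ S := fun r' hr' => (Finset.mem_filter.1 (hW hr')).1
  have hclq := UP_cl (P := P) (kk := kk) (p0 := p0) hV hq hqe
  have hclr := UP_cl (P := P) (kk := kk) (p0 := p0) hW hr hre
  by_cases hex : ∃ q1 ∈ V', ∃ r1 ∈ W', OK P Q p0 kk q1 r1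
  · obtain ⟨q1, hq1, r1, hr1, hok⟩ := hex
    have hcq0 := cl_pos P Q h.hP p0 kk q
    have hcr0 := cl_pos P Q h.hP p0 kk r
    have hbase := hB (cl P Q p0 kk q) (cl P Q p0 kk r) hcq0 hcr0 V' W' hVS hWS
      (fun q' hq' => by
        rw [← hclq q' hq']
        exact cl_dvd P Q h.hP p0 kk q' (h.hS q' (hVS q' hq')).1 (h.hS q' (hVS q' hq')).2)
      (fun r' hr' => by
        rw [← hclr r' hr']
        exact cl_dvd P Q h.hP p0 kk r' (h.hS r' (hWS r' hr')).1 (h.hS r' (hWS r' hr')).2)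
    have h1 : FF (KO P Q p0 kk K) V' W' ≤ ∑ q' ∈ V', ∑ r' ∈ W' with
        Nat.gcd q' r' = Nat.gcd (cl P Q p0 kk q) (cl P Q p0 kk r), K q' r' := by
      unfold FF
      refine Finset.sum_le_sum fun q' hq' => ?_
      rw [Finset.sum_filter]
      refine Finset.sum_le_sum fun r' hr' => ?_
      unfold KO
      by_cases hok' : OK P Q p0 kk q' r'
      · rw [if_pos hok', if_pos]
        rw [← hclq q' hq', ← hclr r' hr']
        exact cl_gcd P Q h.hP p0 kk q' r' (h.hS q' (hVS q' hq')).1 (h.hS r' (hWS r' hr')).1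
          (h.hS q' (hVS q' hq')).2 (h.hS r' (hWS r' hr')).2 hok'
      · rw [if_neg hok']
        split_ifs
        · exact h.hK _ _
        · exact le_rfl
    have h2 : Th η (cl P Q p0 kk q) (cl P Q p0 kk r) = ThQ η Q q0 r0 *
        ∏ p ∈ P \ Q, TT η p0 kk p (ex Q p0 kk p q) (ex Q p0 kk p r) := by
      rw [Th_eq η P h.hP _ _ hcq0 hcr0 (cl_primeFactors P Q h.hP p0 kk q)
        (cl_primeFactors P Q h.hP p0 kk r), ← Finset.prod_sdiff h.hQ, mul_comm]
      refine congrArg₂ _ ?_ ?_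
      · unfold ThQ
        refine Finset.prod_congr rfl fun p hp => ?_
        rw [cl_fac P Q h.hP p0 kk q p (h.hQ hp), cl_fac P Q h.hP p0 kk r p (h.hQ hp)]
        unfold ex
        rw [if_pos (Or.inl hp), if_pos (Or.inl hp), (Finset.mem_filter.1 (hV hq)).2 p hp,
          (Finset.mem_filter.1 (hW hr)).2 p hp]
      · refine Finset.prod_congr rfl fun p hp => ?_
        have hpP : p ∈ P := (Finset.mem_sdiff.1 hp).1
        have hpQ : p ∉ Q := (Finset.mem_sdiff.1 hp).2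
        rw [cl_fac P Q h.hP p0 kk q p hpP, cl_fac P Q h.hP p0 kk r p hpP]
        unfold TT
        by_cases hp0 : p < p0
        · rw [if_pos hp0]
        · have hn : ¬ (p ∈ Q ∨ p < p0) := by
            rintro (h3 | h3)
            · exact hpQ h3
            · exact hp0 h3
          have e1 : ∀ x, ex Q p0 kk p x = min (x.factorization p) (kk p) := by
            intro x
            unfold ex
            rw [if_neg hn]
          rw [if_neg hp0, if_pos]
          refine ⟨?_, ?_, ?_⟩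
          · rw [e1]
            exact min_le_right _ _
          · rw [e1]
            exact min_le_right _ _
          · rcases hok p hpP hpQ (not_lt.1 hp0) with h3 | h3
            · left
              rw [← hqe p hp q1 hq1, e1, h3, min_self]
            · right
              rw [← hre p hp r1 hr1, e1, h3, min_self]
    rw [h2] at hbase
    refine h1.trans (hbase.trans (le_of_eq ?_))
    ring
  · have h1 : FF (KO P Q p0 kk K) V' W' = 0 := by
      unfold FF
      refine Finset.sum_eq_zero fun q' hq' => Finset.sum_eq_zero fun r' hr' => ?_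
      unfold KO
      rw [if_neg]
      intro hok
      exact hex ⟨q', hq', r', hr', hok⟩
    rw [h1]
    refine mul_nonneg (mul_nonneg (mul_nonneg hCB hThQ) ?_) hMN
    exact Finset.prod_nonneg fun p _ => UP_TT_nonneg _ _ _ _ _ _

theorem up {η : ℝ} {P S Q : Finset ℕ} {m n : ℕ → ℝ}
    {K : ℕ → ℕ → ℝ} {q0 r0 : ℕ} {c : ℝ} (h : Mx η P S Q m n K q0 r0 c) (CB : ℝ) (hCB : 0 ≤ CB)
    (hB : BASE η CB S m n K) (p0 : ℕ) (kk : ℕ → ℕ) :
    FF (KO P Q p0 kk K) (Bl S Q q0) (Bl S Q r0)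
      ≤ CB * ThQ η Q q0 r0 * (∏ p ∈ P \ Q, NN η p0 kk p) * MN m n (Bl S Q q0) (Bl S Q r0) := by
  classical
  have hThQ : 0 ≤ ThQ η Q q0 r0 := Finset.prod_nonneg fun p _ => UP_th_nonneg _ _ _ _
  obtain ⟨L, hL⟩ : ∃ L, L = S.sup id + 1 := ⟨_, rfl⟩
  have hexL : ∀ p, ∀ q ∈ S, ex Q p0 kk p q < L := by
    intro p q hq
    have h1 : ex Q p0 kk p q ≤ q.factorization p := by
      unfold ex
      split_ifs
      · exact le_rfl
      · exact min_le_left _ _
    have h2 : q.factorization p < q := Nat.factorization_lt p (h.hS q hq).1.ne'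
    have h3 : q ≤ S.sup id := Finset.le_sup (f := id) hq
    omega
  refine tens L (TT η p0 kk) (NN η p0 kk) (ex Q p0 kk) m n (KO P Q p0 kk K)
    (fun p k l => UP_TT_nonneg _ _ _ _ _ _) (fun p => UP_NN_nonneg h.hη0 h.hη1 p0 kk p) h.hm h.hn
    (fun q r => ?_) (P \ Q) (fun p hp x y hx hy => ?_) (Bl S Q q0) (Bl S Q r0)
    (CB * ThQ η Q q0 r0) (mul_nonneg hCB hThQ) (fun p _ q hq => ?_) (fun p _ q hq => ?_)
    (fun V' hV W' hW q hq r hr hqe hre => ?_)
  · unfold KO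
    split_ifs
    · exact h.hK _ _
    · exact le_rfl
  · exact nb η h.hη0 h.hη1 p0 kk p (h.hP p (Finset.mem_sdiff.1 hp).1).two_le L x y hx hy
  · exact hexL p q (Finset.mem_filter.1 hq).1
  · exact hexL p q (Finset.mem_filter.1 hq).1
  · exact UP_main h CB hCB hB p0 kk hV hW hq hr hqe hre

end Vale.Agent.P028KM
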