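import Vale.Agent.P028KM.Defs
import Vale.Agent.P028KM.MX
import Vale.Agent.P028KM.HALF
import Vale.Agent.P028KM.UP
import Vale.Agent.P028KM.OM
import Vale.Agent.P028KM.PN

/-!
Module HVW: the abstract bilinear bound. If `FF K S S = 0` trivial. `hK0` for `mx` follows from
`BASE` with `V = {q}, W = {r}, a = q, b = r` (`0^(3/5) = 0`). `mx` with `P = primes ≤ X`, then
`half` and `up`: `c ThQ MN = FF ≤ 2 FF(KO) ≤ 2 CB ThQ ∏ NN MN`, so
`c ≤ 2 CB 8^p0 ∏_{p ∈ N} (...)`, `N = {p ∈ P \ Q, p ≥ p0, kk p ≠ 0}`, `om`, `pn`. Finally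
`Mx.le` with `Q = ∅`: `FF K S S ≤ c MN m n S S` (`ThQ = 1`, `Bl S ∅ a = S`).
-/

namespace Vale.Agent.P028KM

open Finset MeasureTheory
open Vale.Agent.P028EV (q1 r1 Del hh)

private theorem HVW_g_nonneg {η : ℝ} (hη1 : η ≤ 1 / 40) {p : ℕ} (hp : 2 ≤ p) :
    0 ≤ 1 + (1 / ((p : ℝ) ^ (1 - η) - 1) - 1 / (p : ℝ)) := by
  have h2 : (2 : ℝ) ≤ p := by exact_mod_cast hp
  have h1 : 1 < (p : ℝ) ^ (1 - η) := Real.one_lt_rpow (by linarith) (by linarith)
  have h3 : 0 ≤ 1 / ((p : ℝ) ^ (1 - η) - 1) := by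
    apply div_nonneg zero_le_one
    linarith
  have h4 : 1 / (p : ℝ) ≤ 1 := by
    rw [div_le_one (by linarith)]
    linarith
  linarith

private theorem HVW_prod {η : ℝ} (hη1 : η ≤ 1 / 40) (R : Finset ℕ) (hR : ∀ p ∈ R, 2 ≤ p) (p0 : ℕ)
    (kk : ℕ → ℕ) (B : ℝ)
    (hB : ∏ p ∈ (R.filter (fun p => ¬ p < p0)).filter (fun p => kk p ≠ 0),
      (1 + (1 / ((p : ℝ) ^ (1 - η) - 1) - 1 / (p : ℝ))) ≤ B) :
    ∏ p ∈ R, NN η p0 kk p ≤ 8 ^ p0 * B := by
  rw [← prod_filter_mul_prod_filter_not R (fun p => p < p0)]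
  have h1 : ∏ p ∈ R.filter (fun p => p < p0), NN η p0 kk p =
      8 ^ (R.filter (fun p => p < p0)).card := by
    rw [← prod_const]
    refine prod_congr rfl fun p hp => ?_
    rw [mem_filter] at hp
    unfold NN
    rw [if_pos hp.2]
  have h2 : ∏ p ∈ R.filter (fun p => ¬ p < p0), NN η p0 kk p =
      ∏ p ∈ (R.filter (fun p => ¬ p < p0)).filter (fun p => kk p ≠ 0),
      (1 + (1 / ((p : ℝ) ^ (1 - η) - 1) - 1 / (p : ℝ))) := by
    rw [prod_filter (fun p => kk p ≠ 0)]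
    refine prod_congr rfl fun p hp => ?_
    rw [mem_filter] at hp
    unfold NN
    rw [if_neg hp.2]
    by_cases hk : kk p = 0
    · rw [if_pos hk, if_neg (fun h => h hk)]
    · rw [if_neg hk, if_pos hk]
  rw [h1, h2]
  have h3 : (R.filter (fun p => p < p0)).card ≤ p0 := by
    have h4 : R.filter (fun p => p < p0) ⊆ range p0 := by
      intro p hp
      rw [mem_filter] at hp
      exact mem_range.2 hp.2
    have h5 := card_le_card h4
    rwa [card_range] at h5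
  refine mul_le_mul ?_ hB ?_ (by positivity)
  · exact pow_le_pow_right₀ (by norm_num) h3
  · refine prod_nonneg fun p hp => ?_
    rw [mem_filter, mem_filter] at hp
    exact HVW_g_nonneg hη1 (hR p hp.1.1)

theorem hvw : ∃ C1 : ℝ, 0 < C1 ∧ ∀ η : ℝ, 0 ≤ η → η ≤ 1 / 40 → ∀ X : ℝ, 2 ≤ X →
    ∀ S : Finset ℕ, (∀ q ∈ S, 0 < q ∧ (q : ℝ) ≤ X) → ∀ (m n : ℕ → ℝ) (K : ℕ → ℕ → ℝ),
    (∀ q, 0 ≤ m q) → (∀ q, 0 ≤ n q) → (∀ q r, 0 ≤ K q r) → ∀ CB : ℝ, 0 ≤ CB →
    BASE η CB S m n K →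
    FF K S S ≤ C1 * Real.exp (C1 * η * (Real.log X) ^ (1 / 2 : ℝ)) * CB * MN m n S S := by
  obtain ⟨p0, hp0, hhalf⟩ := half
  obtain ⟨C6, hC6, hpn⟩ := pn
  refine ⟨C6 + 2 * 8 ^ p0 * Real.exp C6, by positivity, ?_⟩
  intro η hη0 hη1 X hX S hS m n K hm hn hK CB hCB hB
  obtain ⟨C1, hC1⟩ : ∃ C1, C1 = C6 + 2 * 8 ^ p0 * Real.exp C6 := ⟨_, rfl⟩
  rw [← hC1]
  have hpos1 : 0 < 2 * 8 ^ p0 * Real.exp C6 := by positivity
  have hC1pos : 0 < C1 := by
    rw [hC1]
    linarith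
  obtain ⟨L, hL⟩ : ∃ L, L = (Real.log X) ^ (1 / 2 : ℝ) := ⟨_, rfl⟩
  rw [← hL]
  have hL0 : 0 ≤ L := by
    rw [hL]
    exact Real.rpow_nonneg (Real.log_nonneg (by linarith)) _
  have hMNn : ∀ V W : Finset ℕ, 0 ≤ MN m n V W := fun V W =>
    Real.rpow_nonneg (mul_nonneg (sum_nonneg fun i _ => hm i) (sum_nonneg fun i _ => hn i)) _
  have hMN0 : 0 ≤ MN m n S S := hMNn S S
  by_cases hpos : 0 < FF K S S
  · -- the primes
    obtain ⟨P, hPdef⟩ : ∃ P : Finset ℕ, P = (range (⌊X⌋₊ + 1)).filter Nat.Prime := ⟨_, rfl⟩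
    have hP : ∀ p ∈ P, p.Prime := by
      intro p hp
      rw [hPdef, mem_filter] at hp
      exact hp.2
    have hS' : ∀ q ∈ S, 0 < q ∧ q.primeFactors ⊆ P := by
      intro q hq
      refine ⟨(hS q hq).1, fun p hp => ?_⟩
      rw [hPdef, mem_filter, mem_range]
      have hpp := Nat.prime_of_mem_primeFactors hp
      refine ⟨Nat.lt_succ_of_le (Nat.le_floor ?_), hpp⟩
      have h1 : p ≤ q := Nat.le_of_dvd (hS q hq).1 (Nat.dvd_of_mem_primeFactors hp)
      exact (Nat.cast_le.2 h1).trans (hS q hq).2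
    have hK0 : ∀ q ∈ S, ∀ r ∈ S, m q * n r = 0 → K q r = 0 := by
      intro q hq r hr h
      have h1 := hB q r (hS q hq).1 (hS r hr).1 {q} {r} (singleton_subset_iff.2 hq)
        (singleton_subset_iff.2 hr) (fun x hx => by rw [mem_singleton.1 hx])
        (fun x hx => by rw [mem_singleton.1 hx])
      have h2 : MN m n {q} {r} = 0 := by
        unfold MN
        rw [sum_singleton, sum_singleton, h]
        exact Real.zero_rpow (by norm_num)
      rw [h2, mul_zero, sum_singleton, filter_true_of_mem (fun x hx => by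
        rw [mem_singleton.1 hx]), sum_singleton] at h1
      exact le_antisymm h1 (hK q r)
    obtain ⟨Q, q0, r0, c, hM⟩ := mx η hη0 hη1 P S hP hS' m n K hm hn hK hK0 hpos
    obtain ⟨kk, hkk, hh2⟩ := hhalf hM
    have hup := up hM CB hCB hB p0 kk
    have hTh : 0 < ThQ η Q q0 r0 := by
      unfold ThQ
      exact prod_pos fun p hp => th_pos η p _ _ (hP p (hM.hQ hp)).two_le
    have hMNpos : 0 < MN m n (Bl S Q q0) (Bl S Q r0) :=
      Real.rpow_pos_of_pos (mul_pos hM.pm hM.pn) _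
    have hBlX : ∀ q ∈ Bl S Q q0, 0 < q ∧ (q : ℝ) ≤ X := fun q hq =>
      hS q (filter_subset _ _ hq)
    obtain ⟨N, hN⟩ : ∃ N : Finset ℕ, N = ((P \ Q).filter (fun p => ¬ p < p0)).filter
      (fun p => kk p ≠ 0) := ⟨_, rfl⟩
    have hNmem : ∀ p ∈ N, p ∈ P ∧ p ∉ Q ∧ p0 ≤ p ∧ kk p ≠ 0 := by
      intro p hp
      rw [hN, mem_filter, mem_filter, mem_sdiff] at hp
      exact ⟨hp.1.1.1, hp.1.1.2, not_lt.1 hp.1.2, hp.2⟩
    have hNcard : (N.card : ℝ) ≤ 3 * Real.log X :=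
      om X (by linarith) (Bl S Q q0) N (fun p hp => hP p (hNmem p hp).1) hBlX m hm hM.pm kk
        (fun p hp => (hNmem p hp).2.2.2)
        (fun p hp => hkk p (hNmem p hp).1 (hNmem p hp).2.1 (hNmem p hp).2.2.1)
    have hprodN := hpn η hη0 hη1 X hX N (fun p hp => (hP p (hNmem p hp).1).two_le) hNcard
    rw [← hL] at hprodN
    rw [hN] at hprodN
    have hprod := HVW_prod hη1 (P \ Q)
      (fun p hp => (hP p (mem_sdiff.1 hp).1).two_le) p0 kk _ hprodN
    have hc : c ≤ 2 * CB * (8 ^ p0 * Real.exp (C6 * (1 + η * L))) := by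
      have h1 : c * (ThQ η Q q0 r0 * MN m n (Bl S Q q0) (Bl S Q r0)) ≤
          (2 * CB * ∏ p ∈ P \ Q, NN η p0 kk p) *
            (ThQ η Q q0 r0 * MN m n (Bl S Q q0) (Bl S Q r0)) := by
        have h2 := hM.eq
        have h3 : c * (ThQ η Q q0 r0 * MN m n (Bl S Q q0) (Bl S Q r0)) =
            FF K (Bl S Q q0) (Bl S Q r0) := by
          rw [h2]
          ring
        rw [h3]
        refine hh2.trans ?_
        have h4 : (2 * CB * ∏ p ∈ P \ Q, NN η p0 kk p) *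
            (ThQ η Q q0 r0 * MN m n (Bl S Q q0) (Bl S Q r0)) =
            2 * (CB * ThQ η Q q0 r0 * (∏ p ∈ P \ Q, NN η p0 kk p) *
              MN m n (Bl S Q q0) (Bl S Q r0)) := by ring
        rw [h4]
        linarith
      have h5 := le_of_mul_le_mul_right h1 (mul_pos hTh hMNpos)
      refine h5.trans ?_
      exact mul_le_mul_of_nonneg_left hprod (by positivity)
    have hfin := hM.le ∅ (empty_subset P) q0 hM.hq0 r0 hM.hr0
    have hBl : ∀ a, Bl S ∅ a = S := by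
      intro a
      unfold Bl
      simp
    have hThe : ThQ η ∅ q0 r0 = 1 := by
      unfold ThQ
      simp
    rw [hBl, hBl, hThe, mul_one] at hfin
    refine hfin.trans ?_
    refine mul_le_mul_of_nonneg_right ?_ hMN0
    refine hc.trans ?_
    have h6 : 2 * CB * (8 ^ p0 * Real.exp (C6 * (1 + η * L))) =
        ((2 * 8 ^ p0 * Real.exp C6) * Real.exp (C6 * η * L)) * CB := by
      have h7 : C6 * (1 + η * L) = C6 + C6 * η * L := by ring
      rw [h7, Real.exp_add]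
      ring
    rw [h6]
    refine mul_le_mul_of_nonneg_right ?_ hCB
    refine mul_le_mul ?_ ?_ (Real.exp_pos _).le hC1pos.le
    · rw [hC1]
      linarith
    · refine Real.exp_le_exp.2 ?_
      refine mul_le_mul_of_nonneg_right (mul_le_mul_of_nonneg_right ?_ hη0) hL0
      rw [hC1]
      linarith
  · refine (not_lt.1 hpos).trans ?_
    have := Real.exp_pos (C1 * η * L)
    positivity

end Vale.Agent.P028KM
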