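import Vale.Agent.P028KM.Defs


/-!
Module SPC: the spacing lemma (elements of `T` in increasing order: the first is `≥ H`, the gaps
are `≥ H`, because differences satisfy the condition with `2δ`).
-/

namespace Vale.Agent.P028KM

open Finset MeasureTheory
open Vale.Agent.P028EV (q1 r1 Del hh)

theorem SPC_aux (γ δ H : ℝ) (hδ : 0 < δ)
    (hH : ∀ n : ℕ, 0 < n → (∃ t : ℤ, |(n : ℝ) * γ - t| < 2 * δ) → H ≤ n) (T : Finset ℕ) :
    (∀ h ∈ T, 0 < h ∧ ∃ t : ℤ, |(h : ℝ) * γ - t| < δ) → ∀ U : ℕ, (∀ h ∈ T, h ≤ U) →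
      (T.card : ℝ) * H ≤ U := by
  classical
  induction T using Finset.induction_on_max with
  | empty =>
    intro _ U _
    rw [card_empty, Nat.cast_zero, zero_mul]
    exact Nat.cast_nonneg U
  | insert a s has ih =>
    intro hT U hU
    have ha := hT a (mem_insert_self a s)
    have haU := hU a (mem_insert_self a s)
    obtain ⟨t, ht⟩ := ha.2
    have haU' : (a : ℝ) ≤ U := by exact_mod_cast haU
    have hna : a ∉ s := fun h => absurd (has a h) (lt_irrefl a)
    rw [card_insert_of_notMem hna]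
    push_cast
    rcases s.eq_empty_or_nonempty with hs | hs
    · rw [hs, card_empty, Nat.cast_zero, zero_add, one_mul]
      exact (hH a ha.1 ⟨t, by linarith⟩).trans haU'
    · have hm := s.max'_mem hs
      have h1 := ih (fun h hh => hT h (mem_insert_of_mem hh)) (s.max' hs)
        (fun h hh => s.le_max' h hh)
      have hlt := has _ hm
      obtain ⟨t', ht'⟩ := (hT _ (mem_insert_of_mem hm)).2
      have h2 := hH (a - s.max' hs) (Nat.sub_pos_of_lt hlt) ⟨t - t', by
        rw [Nat.cast_sub hlt.le]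
        push_cast
        rw [abs_lt] at ht ht' ⊢
        constructor <;> nlinarith [ht.1, ht.2, ht'.1, ht'.2]⟩
      rw [Nat.cast_sub hlt.le] at h2
      linarith

theorem spc (γ δ H : ℝ) (hδ : 0 < δ) (U : ℕ) (T : Finset ℕ)
    (hT : ∀ h ∈ T, 0 < h ∧ h ≤ U ∧ ∃ t : ℤ, |(h : ℝ) * γ - t| < δ)
    (hH : ∀ n : ℕ, 0 < n → (∃ t : ℤ, |(n : ℝ) * γ - t| < 2 * δ) → H ≤ n) :
    (T.card : ℝ) * H ≤ U :=
  SPC_aux γ δ H hδ hH T (fun h hh => ⟨(hT h hh).1, (hT h hh).2.2⟩) U fun h hh => (hT h hh).2.1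

end Vale.Agent.P028KM
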