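import Vale.Agent.P028KM.Defs
import Vale.Agent.P028KM.DV
import Vale.Agent.P028KM.SPC

/-!
Module NRA: pairs with very small `Dm`. For fixed `q`: `mu r / Dm ≤ ψ r / Dm ≤ 1/q1 q r`. Group `r < q`
by `u = q1 q r ∣ q`; `r = (q/u) v`, `v = r1 q r < u`, `h = u - v ∈ [1,u]` determines `r` and
`|t + γ h'| < Del ≤ 2 Dm < 2 X^(-c5) =: δ`. `Dio`: `‖nγ‖ < 2δ` implies `n ≥ H := (c X^c5/4)^(1/m)`
(`m = 0`: impossible for large `X`), so by `spc` there are `≤ u/H` such `r`: the sum over `r` is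
`≤ τ(q)/H ≤ X^(-δ1)` by `dv` (`q ≤ X^16`).
-/

namespace Vale.Agent.P028KM

open Finset MeasureTheory
open Vale.Agent.P028EV (q1 r1 Del hh)

theorem NRA_w_le (r : ℕ) : w r ≤ 1 := by
  unfold w
  exact div_le_one_of_le₀ (by exact_mod_cast Nat.totient_le r) (Nat.cast_nonneg r)

theorem NRA_w_nonneg (r : ℕ) : 0 ≤ w r := by
  unfold w
  positivity

theorem NRA_q1_pos (q r : ℕ) (hq : 0 < q) : 0 < q1 q r := by
  have h := Vale.Agent.P028EV.q1_mul q r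
  rcases Nat.eq_zero_or_pos (q1 q r) with h0 | h0
  · rw [h0, zero_mul] at h
    omega
  · exact h0

theorem NRA_term (ψ : ℕ → ℝ) (hψ : ∀ q, 0 ≤ ψ q) (q r : ℕ) (hq : 0 < q) :
    mu ψ r / Dm ψ q r ≤ 1 / (q1 q r : ℝ) := by
  have hq1 : (0 : ℝ) < q1 q r := by exact_mod_cast NRA_q1_pos q r hq
  rcases (hψ r).eq_or_lt with h | h
  · unfold mu
    rw [← h, mul_zero, zero_div]
    positivity
  · have h1 : mu ψ r ≤ ψ r := by
      unfold mu
      have := mul_le_mul_of_nonneg_right (NRA_w_le r) h.le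
      linarith
    have h2 : (q1 q r : ℝ) * ψ r ≤ Dm ψ q r := le_max_right _ _
    have h3 : 0 < (q1 q r : ℝ) * ψ r := mul_pos hq1 h
    calc mu ψ r / Dm ψ q r ≤ ψ r / Dm ψ q r :=
          div_le_div_of_nonneg_right h1 (h3.le.trans h2)
      _ ≤ ψ r / ((q1 q r : ℝ) * ψ r) := div_le_div_of_nonneg_left h.le h3 h2
      _ = 1 / (q1 q r : ℝ) := by
          field_simp

open Classical in
theorem NRA_card (γ : ℝ) (ψ : ℕ → ℝ) (S : Finset ℕ) (κ H : ℝ) (hκ : 0 < κ) (hψ : ∀ q, 0 ≤ ψ q)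
    (hS : ∀ r ∈ S, 0 < r)
    (hH : ∀ n : ℕ, 0 < n → (∃ t : ℤ, |(n : ℝ) * γ - t| < 2 * (2 * κ)) → H ≤ n) (q : ℕ) (hq : 0 < q)
    (u : ℕ) :
    (((S.filter (fun r => r < q ∧ CO γ ψ q r ∧ Dm ψ q r < κ)).filter (fun r => q1 q r = u)).card : ℝ)
      * H ≤ u := by
  set A := (S.filter (fun r => r < q ∧ CO γ ψ q r ∧ Dm ψ q r < κ)).filter (fun r => q1 q r = u) with hA
  have key : ∀ r ∈ A, 0 < r1 q r ∧ r1 q r < u ∧ q1 q r = u ∧ CO γ ψ q r ∧ Dm ψ q r < κ := by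
    intro r hr
    rw [hA, mem_filter, mem_filter] at hr
    obtain ⟨⟨hrS, hrq, hco, hdm⟩, hu⟩ := hr
    have hr0 := hS r hrS
    have e1 := Vale.Agent.P028EV.q1_mul q r
    have e2 := Vale.Agent.P028EV.r1_mul q r
    refine ⟨?_, ?_, hu, hco, hdm⟩
    · rcases Nat.eq_zero_or_pos (r1 q r) with h0 | h0
      · rw [h0, zero_mul] at e2
        omega
      · exact h0
    · rw [← hu]
      refine lt_of_mul_lt_mul_right (a := Nat.gcd q r) ?_ (Nat.zero_le _)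
      rw [e1, e2]
      exact hrq
  have hinj : Set.InjOn (fun r => u - r1 q r) (A : Set ℕ) := by
    intro r hr r' hr' h
    obtain ⟨a1, a2, a3, -, -⟩ := key r (Finset.mem_coe.1 hr)
    obtain ⟨b1, b2, b3, -, -⟩ := key r' (Finset.mem_coe.1 hr')
    simp only at h
    have h1 : r1 q r = r1 q r' := by omega
    have e1 := Vale.Agent.P028EV.q1_mul q r
    have e1' := Vale.Agent.P028EV.q1_mul q r'
    have e2 := Vale.Agent.P028EV.r1_mul q r
    have e2' := Vale.Agent.P028EV.r1_mul q r'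
    rw [a3] at e1
    rw [b3] at e1'
    have h2 : Nat.gcd q r = Nat.gcd q r' := by
      have hu0 : 0 < u := by omega
      exact Nat.eq_of_mul_eq_mul_left hu0 (e1.trans e1'.symm)
    rw [← e2, ← e2', h1, h2]
  have hcard : (A.image (fun r => u - r1 q r)).card = A.card := Finset.card_image_of_injOn hinj
  rw [← hcard]
  refine spc γ (2 * κ) H (by positivity) u _ ?_ hH
  intro h hh'
  obtain ⟨r, hr, rfl⟩ := Finset.mem_image.1 hh'
  obtain ⟨a1, a2, a3, ⟨-, t, ht⟩, a5⟩ := key r hr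
  refine ⟨by omega, by omega, t, ?_⟩
  have hdel : Del ψ q r < 2 * κ := by
    have h1 : (r1 q r : ℝ) * ψ q ≤ Dm ψ q r := le_max_left _ _
    have h2 : (q1 q r : ℝ) * ψ r ≤ Dm ψ q r := le_max_right _ _
    unfold Vale.Agent.P028EV.Del
    linarith
  have hcast : ((u - r1 q r : ℕ) : ℝ) = -((hh q r : ℤ) : ℝ) := by
    rw [Nat.cast_sub a2.le]
    unfold Vale.Agent.P028EV.hh
    rw [a3]
    push_cast
    ring
  rw [hcast]
  have h3 : -((hh q r : ℤ) : ℝ) * γ - (t : ℝ) = -((t : ℝ) + γ * (hh q r : ℝ)) := by ring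
  rw [h3, abs_neg]
  exact ht.trans hdel

theorem NRA_Dm_nonneg {ψ : ℕ → ℝ} (hψ : ∀ q, 0 ≤ ψ q) (q r : ℕ) : 0 ≤ Dm ψ q r :=
  le_max_of_le_left (mul_nonneg (Nat.cast_nonneg _) (hψ q))

open Classical in
theorem NRA_sum (γ : ℝ) (ψ : ℕ → ℝ) (S : Finset ℕ) (κ H : ℝ) (hκ : 0 < κ) (hH0 : 0 < H)
    (hψ : ∀ q, 0 ≤ ψ q) (hS : ∀ r ∈ S, 0 < r)
    (hH : ∀ n : ℕ, 0 < n → (∃ t : ℤ, |(n : ℝ) * γ - t| < 2 * (2 * κ)) → H ≤ n) (q : ℕ) (hq : 0 < q) :
    ∑ r ∈ S with r < q ∧ CO γ ψ q r ∧ Dm ψ q r < κ, mu ψ r / Dm ψ q r ≤ (q.divisors.card : ℝ) / H := by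
  set T := S.filter (fun r => r < q ∧ CO γ ψ q r ∧ Dm ψ q r < κ) with hT
  have h1 : ∑ r ∈ T, mu ψ r / Dm ψ q r ≤ ∑ r ∈ T, 1 / (q1 q r : ℝ) :=
    Finset.sum_le_sum fun r _ => NRA_term ψ hψ q r hq
  refine h1.trans ?_
  have hmap : ∀ r ∈ T, q1 q r ∈ q.divisors := by
    intro r _
    rw [Nat.mem_divisors]
    exact ⟨⟨Nat.gcd q r, (Vale.Agent.P028EV.q1_mul q r).symm⟩, by omega⟩
  rw [← Finset.sum_fiberwise_of_maps_to hmap (fun r => 1 / (q1 q r : ℝ))]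
  have h2 : ∀ u ∈ q.divisors, ∑ r ∈ T with q1 q r = u, 1 / (q1 q r : ℝ) ≤ 1 / H := by
    intro u hu
    have hu0 : 0 < u := Nat.pos_of_mem_divisors hu
    have hur : (0 : ℝ) < u := by exact_mod_cast hu0
    have h3 : ∑ r ∈ T with q1 q r = u, 1 / (q1 q r : ℝ) =
        ((T.filter (fun r => q1 q r = u)).card : ℝ) * (1 / (u : ℝ)) := by
      rw [← nsmul_eq_mul, ← Finset.sum_const]
      refine Finset.sum_congr rfl fun r hr => ?_
      rw [(Finset.mem_filter.1 hr).2]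
    rw [h3]
    have h4 := NRA_card γ ψ S κ H hκ hψ hS hH q hq u
    rw [← hT] at h4
    rw [mul_one_div, div_le_div_iff₀ hur hH0, one_mul]
    exact h4
  refine (Finset.sum_le_sum h2).trans ?_
  rw [Finset.sum_const, nsmul_eq_mul, mul_one_div]

open Classical in
theorem nra (c : ℝ) (hc : 0 < c) (m : ℕ) (ε : ℝ) (hε : 0 < ε) (hε1 : ε ≤ 1) :
    ∃ δ1 : ℝ, 0 < δ1 ∧ ∃ X0 : ℝ, 2 ≤ X0 ∧ ∀ (X γ : ℝ) (ψ : ℕ → ℝ) (S : Finset ℕ), X0 ≤ X →
    Blk c m ε X γ ψ S →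
    ∑ q ∈ S, ∑ r ∈ S with r < q ∧ CO γ ψ q r ∧ Dm ψ q r < X ^ (-c5 ε m),
      mu ψ q * mu ψ r / Dm ψ q r ≤ X ^ (-δ1) * (∑ q ∈ S, mu ψ q) := by
  have hc5 : 0 < c5 ε m := by
    unfold c5 c4
    positivity
  obtain ⟨a, ha⟩ : ∃ a, a = c5 ε m := ⟨_, rfl⟩
  rw [← ha] at hc5 ⊢
  obtain ⟨M, hM⟩ : ∃ M : ℝ, M = (m : ℝ) + 1 := ⟨_, rfl⟩
  have hM0 : 0 < M := by rw [hM]; positivity
  obtain ⟨Cd, hCd, hdv⟩ := dv (a / (64 * M)) (by positivity)
  have hlim := tendsto_rpow_atTop (show 0 < a / (4 * M) by positivity)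
  obtain ⟨X1, hX1⟩ := Filter.eventually_atTop.1
    (hlim.eventually_ge_atTop (Cd * (4 / c) ^ (1 / M)))
  refine ⟨a / (2 * M), by positivity, max 2 X1, le_max_left _ _, ?_⟩
  intro X γ ψ S hX hB
  have hX2 : 2 ≤ X := (le_max_left _ _).trans hX
  have hXpos : 0 < X := by linarith
  have hXb := hX1 X ((le_max_right _ _).trans hX)
  obtain ⟨κ, hκ⟩ : ∃ κ, κ = X ^ (-a) := ⟨_, rfl⟩
  have hκ0 : 0 < κ := by rw [hκ]; positivity
  obtain ⟨H, hHdef⟩ : ∃ H, H = (c / (4 * κ)) ^ (1 / M) := ⟨_, rfl⟩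
  have hH0 : 0 < H := by rw [hHdef]; positivity
  have hS : ∀ r ∈ S, 0 < r := by
    intro r hr
    have h1 := hB.lo r hr
    have h2 : (0 : ℝ) < r := by linarith
    exact_mod_cast h2
  have hH : ∀ n : ℕ, 0 < n → (∃ t : ℤ, |(n : ℝ) * γ - t| < 2 * (2 * κ)) → H ≤ n := by
    rintro n hn ⟨t, ht⟩
    have h1 := hB.dio n hn t
    have hn0 : (0 : ℝ) < n := by exact_mod_cast hn
    have hn1 : (1 : ℝ) ≤ n := by exact_mod_cast hn
    have h2 : c / (n : ℝ) ^ m < 4 * κ := by linarith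
    rw [div_lt_iff₀ (by positivity)] at h2
    have h3 : c / (4 * κ) ≤ (n : ℝ) ^ m := by
      rw [div_le_iff₀ (by positivity)]
      linarith
    have h4 : (n : ℝ) ^ m ≤ (n : ℝ) ^ M := by
      rw [← Real.rpow_natCast]
      apply Real.rpow_le_rpow_of_exponent_le hn1
      rw [hM]
      linarith
    rw [hHdef]
    calc (c / (4 * κ)) ^ (1 / M) ≤ ((n : ℝ) ^ M) ^ (1 / M) :=
          Real.rpow_le_rpow (by positivity) (h3.trans h4) (by positivity)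
      _ = n := by
          rw [← Real.rpow_mul hn0.le, mul_one_div, div_self hM0.ne', Real.rpow_one]
  have hmu : ∀ q, 0 ≤ mu ψ q := fun q => mul_nonneg (NRA_w_nonneg q) (hB.psi0 q)
  rw [Finset.mul_sum]
  refine Finset.sum_le_sum fun q hq => ?_
  have hq0 := hS q hq
  have h5 := NRA_sum γ ψ S κ H hκ0 hH0 hB.psi0 hS hH q hq0
  have h6 : ∑ r ∈ S with r < q ∧ CO γ ψ q r ∧ Dm ψ q r < X ^ (-a), mu ψ q * mu ψ r / Dm ψ q r
      = mu ψ q * ∑ r ∈ S with r < q ∧ CO γ ψ q r ∧ Dm ψ q r < κ, mu ψ r / Dm ψ q r := by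
    rw [← hκ, Finset.mul_sum]
    exact Finset.sum_congr rfl fun r _ => mul_div_assoc _ _ _
  rw [h6, mul_comm (X ^ (-(a / (2 * M))))]
  refine mul_le_mul_of_nonneg_left (h5.trans ?_) (hmu q)
  have h7 := hdv q hq0
  have hq16 : (q : ℝ) ^ (a / (64 * M)) ≤ X ^ (a / (4 * M)) := by
    have h8 : (q : ℝ) ^ (a / (64 * M)) ≤ (X ^ 16) ^ (a / (64 * M)) :=
      Real.rpow_le_rpow (Nat.cast_nonneg q) (hB.hi q hq) (by positivity)
    refine h8.trans (le_of_eq ?_)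
    rw [← Real.rpow_natCast, ← Real.rpow_mul hXpos.le]
    congr 1
    push_cast
    field_simp
    norm_num
  have h9 : (q.divisors.card : ℝ) ≤ Cd * X ^ (a / (4 * M)) :=
    h7.trans (mul_le_mul_of_nonneg_left hq16 hCd.le)
  rw [div_le_iff₀ hH0]
  have h10 : H = (c / 4) ^ (1 / M) * X ^ (a / M) := by
    rw [hHdef, hκ]
    have h11 : c / (4 * X ^ (-a)) = (c / 4) * X ^ a := by
      rw [Real.rpow_neg hXpos.le]
      field_simp
    rw [h11, Real.mul_rpow (by positivity) (by positivity), ← Real.rpow_mul hXpos.le, mul_one_div]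
  rw [h10]
  have h12 : (4 / c) ^ (1 / M) * (c / 4) ^ (1 / M) = 1 := by
    rw [← Real.mul_rpow (by positivity) (by positivity)]
    have : 4 / c * (c / 4) = 1 := by field_simp
    rw [this, Real.one_rpow]
  have h13 : 0 < (c / 4) ^ (1 / M) := by positivity
  have h14 : Cd ≤ X ^ (a / (4 * M)) * (c / 4) ^ (1 / M) := by
    have h15 := mul_le_mul_of_nonneg_right hXb h13.le
    rw [mul_assoc, h12, mul_one] at h15
    exact h15
  have h16 : X ^ (-(a / (2 * M))) * ((c / 4) ^ (1 / M) * X ^ (a / M)) =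
      (X ^ (a / (4 * M)) * (c / 4) ^ (1 / M)) * X ^ (a / (4 * M)) := by
    have h17 : X ^ (-(a / (2 * M))) * X ^ (a / M) = X ^ (a / (4 * M)) * X ^ (a / (4 * M)) := by
      rw [← Real.rpow_add hXpos, ← Real.rpow_add hXpos]
      congr 1
      field_simp
      norm_num
    calc X ^ (-(a / (2 * M))) * ((c / 4) ^ (1 / M) * X ^ (a / M))
        = (c / 4) ^ (1 / M) * (X ^ (-(a / (2 * M))) * X ^ (a / M)) := by ring
      _ = (c / 4) ^ (1 / M) * (X ^ (a / (4 * M)) * X ^ (a / (4 * M))) := by rw [h17]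
      _ = _ := by ring
  rw [h16]
  exact h9.trans (mul_le_mul_of_nonneg_right h14 (by positivity))

end Vale.Agent.P028KM
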