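import Vale.Agent.P028KM.Defs
import Vale.Agent.P028KM.BS
import Vale.Agent.P028KM.HVW

/-!
Module LV: one level. `hvw` with `X^16`, `η = eta ε m X s ≤ (7/8)/1000`, `CB = C s^(-23/20)`:
`C1 η (16 log X)^(1/2) ≤ (1/100) log s` for `X ≥ X0`; `MN mu mu S S = (∑ mu)^(6/5)`;
`23/20 - 1/100 = 57/50`.
-/

namespace Vale.Agent.P028KM

open Finset MeasureTheory
open Vale.Agent.P028EV (q1 r1 Del hh)

theorem LV_c4_pos {ε : ℝ} (hε : 0 < ε) (m : ℕ) : 0 < c4 ε m := by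
  unfold c4
  positivity

theorem LV_w_nonneg (q : ℕ) : 0 ≤ w q := by
  unfold w
  positivity

theorem LV_mu_nonneg {ψ : ℕ → ℝ} (h : ∀ q, 0 ≤ ψ q) (q : ℕ) : 0 ≤ mu ψ q :=
  mul_nonneg (LV_w_nonneg q) (h q)

theorem LV_Ks_nonneg {ψ : ℕ → ℝ} (h : ∀ q, 0 ≤ ψ q) (γ s : ℝ) (q r : ℕ) : 0 ≤ Ks γ ψ s q r := by
  unfold Ks
  split_ifs
  · exact mul_nonneg (LV_mu_nonneg h q) (LV_mu_nonneg h r)
  · exact le_refl _

theorem lv (c : ℝ) (hc : 0 < c) (m : ℕ) (ε : ℝ) (hε : 0 < ε) (hε1 : ε ≤ 1) :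
    ∃ C : ℝ, 1 ≤ C ∧ ∃ X0 : ℝ, 2 ≤ X0 ∧ ∀ (X γ : ℝ) (ψ : ℕ → ℝ) (S : Finset ℕ), X0 ≤ X →
    Blk c m ε X γ ψ S → ∀ s : ℝ, 2 ≤ s → s ≤ X ^ c5 ε m →
    FF (Ks γ ψ s) S S ≤ C * s ^ (-(57 / 50) : ℝ) * (∑ q ∈ S, mu ψ q) ^ (6 / 5 : ℝ) := by
  obtain ⟨C, hC, X0, hX0, hbs⟩ := bs c hc m ε hε hε1
  obtain ⟨C1, hC1, hh1⟩ := hvw
  have h4 := LV_c4_pos hε m
  refine ⟨max 1 (C1 * C), le_max_left _ _,
    max X0 (Real.exp ((350 * C1 / c4 ε m) ^ 2)), hX0.trans (le_max_left _ _), ?_⟩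
  intro X γ ψ S hX hB s hs hsX
  have hXX : X0 ≤ X := (le_max_left _ _).trans hX
  have hX2 : 2 ≤ X := hX0.trans hXX
  have hXe : Real.exp ((350 * C1 / c4 ε m) ^ 2) ≤ X := (le_max_right _ _).trans hX
  have hXpos : 0 < X := by linarith
  have hspos : 0 < s := by linarith
  have hlX : 0 < Real.log X := Real.log_pos (by linarith)
  have hls : 0 < Real.log s := Real.log_pos (by linarith)
  have hlsX : Real.log s ≤ c5 ε m * Real.log X := by
    have h := Real.log_le_log hspos hsX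
    rwa [Real.log_rpow hXpos] at h
  have hη0 : 0 ≤ eta ε m X s := by
    unfold eta
    positivity
  have hη1 : eta ε m X s ≤ 1 / 40 := by
    unfold eta
    rw [div_le_iff₀ (by positivity)]
    unfold c5 at hlsX
    nlinarith [mul_pos h4 hlX]
  have hX16 : (2 : ℝ) ≤ X ^ 16 := hX2.trans (le_self_pow₀ (by linarith) (by norm_num))
  have hmu := LV_mu_nonneg hB.psi0
  have hK := LV_Ks_nonneg hB.psi0 γ s
  have hCB : 0 ≤ C * s ^ (-(23 / 20) : ℝ) := by positivity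
  have key := hh1 (eta ε m X s) hη0 hη1 (X ^ 16) hX16 S
    (fun q hq => ⟨by
      have h1 := hB.lo q hq
      have h2 : (0 : ℝ) < q := by linarith
      exact_mod_cast h2, hB.hi q hq⟩) (mu ψ) (mu ψ) (Ks γ ψ s) hmu hmu hK
    (C * s ^ (-(23 / 20) : ℝ)) hCB (hbs X γ ψ S hXX hB s hs hsX)
  have hexp : Real.exp (C1 * eta ε m X s * (Real.log (X ^ 16)) ^ (1 / 2 : ℝ)) ≤ s ^ (1 / 100 : ℝ) := by
    rw [Real.rpow_def_of_pos hspos]
    apply Real.exp_le_exp.2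
    have hl16 : Real.log (X ^ 16) = 16 * Real.log X := by
      rw [Real.log_pow]
      norm_num
    obtain ⟨y, hy⟩ : ∃ y, y = √(Real.log X) := ⟨_, rfl⟩
    have hy0 : 0 < y := by
      rw [hy]
      exact Real.sqrt_pos.2 hlX
    have hyy : Real.log X = y ^ 2 := by
      rw [hy, Real.sq_sqrt hlX.le]
    have hsq : (Real.log (X ^ 16)) ^ (1 / 2 : ℝ) = 4 * y := by
      rw [hl16, ← Real.sqrt_eq_rpow, hyy]
      rw [show (16 : ℝ) * y ^ 2 = (4 * y) ^ 2 by ring]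
      exact Real.sqrt_sq (by positivity)
    have hyl : 350 * C1 / c4 ε m ≤ y := by
      have h1 : (350 * C1 / c4 ε m) ^ 2 ≤ y ^ 2 := by
        rw [← hyy]
        have h2 := Real.log_le_log (Real.exp_pos _) hXe
        rwa [Real.log_exp] at h2
      exact le_of_sq_le_sq h1 hy0.le
    have hyl2 : 350 * C1 ≤ c4 ε m * y := by
      rw [div_le_iff₀ h4] at hyl
      linarith
    rw [hsq]
    unfold eta
    rw [hyy]
    have h5 : C1 * (7 / 8 * Real.log s / (c4 ε m * y ^ 2)) * (4 * y) =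
        (350 * C1) * Real.log s / (c4 ε m * y) * (1 / 100) := by
      field_simp
      ring
    rw [h5]
    have h6 : (350 * C1) * Real.log s / (c4 ε m * y) ≤ Real.log s := by
      rw [div_le_iff₀ (by positivity), mul_comm (Real.log s)]
      exact mul_le_mul_of_nonneg_right hyl2 hls.le
    exact mul_le_mul_of_nonneg_right h6 (by norm_num)
  have hsum : 0 ≤ ∑ q ∈ S, mu ψ q := Finset.sum_nonneg fun q _ => hmu q
  have hMN : MN (mu ψ) (mu ψ) S S = (∑ q ∈ S, mu ψ q) ^ (6 / 5 : ℝ) := by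
    unfold MN
    rw [← pow_two, ← Real.rpow_natCast, ← Real.rpow_mul hsum]
    norm_num
  rw [hMN] at key
  refine key.trans ?_
  have hP : 0 ≤ (∑ q ∈ S, mu ψ q) ^ (6 / 5 : ℝ) := Real.rpow_nonneg hsum _
  refine mul_le_mul_of_nonneg_right ?_ hP
  calc C1 * Real.exp (C1 * eta ε m X s * (Real.log (X ^ 16)) ^ (1 / 2 : ℝ)) * (C * s ^ (-(23 / 20) : ℝ))
      ≤ C1 * s ^ (1 / 100 : ℝ) * (C * s ^ (-(23 / 20) : ℝ)) := by
        refine mul_le_mul_of_nonneg_right ?_ hCB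
        exact mul_le_mul_of_nonneg_left hexp hC1.le
    _ = (C1 * C) * (s ^ (1 / 100 : ℝ) * s ^ (-(23 / 20) : ℝ)) := by ring
    _ = (C1 * C) * s ^ (-(57 / 50) : ℝ) := by
        rw [← Real.rpow_add hspos]
        norm_num
    _ ≤ max 1 (C1 * C) * s ^ (-(57 / 50) : ℝ) :=
        mul_le_mul_of_nonneg_right (le_max_right _ _) (by positivity)

end Vale.Agent.P028KM
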