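import Vale.Agent.P028KM.Defs
import Vale.Agent.P028KM.LV

/-!
Module NRB: sum over the levels `s = 2^j`, `j ≥ 1` (`CO` gives `Dm ≤ Del < 1/2`): every pair
with `Dm ≥ X^(-c5)` has `1/(2s) < Dm ≤ 1/s` for one `s = 2^j ≤ X^c5`, and `1/Dm ≤ 2s`:
`∑ ≤ ∑_j 2^(j+1) FF (Ks 2^j) ≤ 2C ∑_j 2^(-7j/50) (∑mu)^(6/5)`.
-/

namespace Vale.Agent.P028KM

open Finset MeasureTheory
open Vale.Agent.P028EV (q1 r1 Del hh)

open Classical in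
theorem nrb (c : ℝ) (hc : 0 < c) (m : ℕ) (ε : ℝ) (hε : 0 < ε) (hε1 : ε ≤ 1) :
    ∃ C : ℝ, 1 ≤ C ∧ ∃ X0 : ℝ, 2 ≤ X0 ∧ ∀ (X γ : ℝ) (ψ : ℕ → ℝ) (S : Finset ℕ), X0 ≤ X →
    Blk c m ε X γ ψ S →
    ∑ q ∈ S, ∑ r ∈ S with r < q ∧ CO γ ψ q r ∧ X ^ (-c5 ε m) ≤ Dm ψ q r,
      mu ψ q * mu ψ r / Dm ψ q r ≤ C * (∑ q ∈ S, mu ψ q) ^ (6 / 5 : ℝ) := by
  obtain ⟨C, hC, X0, hX0, h⟩ := lv c hc m ε hε hε1
  have hρ0 : 0 < (2 : ℝ) ^ (-(7 / 50) : ℝ) := by positivity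
  have hρ1 : (2 : ℝ) ^ (-(7 / 50) : ℝ) < 1 :=
    Real.rpow_lt_one_of_one_lt_of_neg (by norm_num) (by norm_num)
  obtain ⟨ρ, hρ⟩ : ∃ ρ : ℝ, ρ = (2 : ℝ) ^ (-(7 / 50) : ℝ) := ⟨_, rfl⟩
  rw [← hρ] at hρ0 hρ1
  refine ⟨2 * C * (1 - ρ)⁻¹, ?_, X0, hX0, fun X γ ψ S hX hB => ?_⟩
  · have h1 : 1 ≤ (1 - ρ)⁻¹ := (one_le_inv₀ (by linarith)).2 (by linarith)
    nlinarith
  have hX1 : 1 ≤ X := by linarith
  have hXp : 0 < X := by linarith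
  have hc5 : 0 ≤ c5 ε m := by unfold c5 c4; positivity
  have hXc : 1 ≤ X ^ c5 ε m := Real.one_le_rpow hX1 hc5
  have hfl : ⌊X ^ c5 ε m⌋₊ ≠ 0 := (Nat.floor_pos.2 hXc).ne'
  obtain ⟨M, hM⟩ : ∃ M : ℕ, M = Nat.log 2 ⌊X ^ c5 ε m⌋₊ := ⟨_, rfl⟩
  have hJ : ∀ j ∈ Finset.Icc 1 M, (2 : ℝ) ^ j ≤ X ^ c5 ε m := by
    intro j hj
    have h1 : 2 ^ j ≤ ⌊X ^ c5 ε m⌋₊ := Nat.pow_le_of_le_log hfl (by
      rw [← hM]; exact (Finset.mem_Icc.1 hj).2)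
    have h2 : ((2 ^ j : ℕ) : ℝ) ≤ (⌊X ^ c5 ε m⌋₊ : ℝ) := by exact_mod_cast h1
    push_cast at h2
    exact h2.trans (Nat.floor_le (by linarith))
  have hw : ∀ q, 0 ≤ mu ψ q := fun q => by
    unfold mu w
    exact mul_nonneg (by positivity) (hB.psi0 q)
  have hKs : ∀ s q r, 0 ≤ Ks γ ψ s q r := fun s q r => by
    unfold Ks
    split_ifs
    · exact mul_nonneg (hw q) (hw r)
    · exact le_rfl
  have hpt : ∀ q r, (r < q ∧ CO γ ψ q r ∧ X ^ (-c5 ε m) ≤ Dm ψ q r) →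
      mu ψ q * mu ψ r / Dm ψ q r ≤
        ∑ j ∈ Finset.Icc 1 M, (2 : ℝ) ^ (j + 1) * Ks γ ψ (2 ^ j) q r := by
    rintro q r ⟨hrq, hco, hD⟩
    have hD0 : 0 < Dm ψ q r := lt_of_lt_of_le (Real.rpow_pos_of_pos hXp _) hD
    have hDD : Dm ψ q r ≤ Del ψ q r := by
      unfold Dm Del
      have h1 : 0 ≤ (r1 q r : ℝ) * ψ q := mul_nonneg (Nat.cast_nonneg _) (hB.psi0 q)
      have h2 : 0 ≤ (q1 q r : ℝ) * ψ r := mul_nonneg (Nat.cast_nonneg _) (hB.psi0 r)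
      exact max_le (by linarith) (by linarith)
    have hDh : Dm ψ q r < 1 / 2 := lt_of_le_of_lt hDD hco.1
    obtain ⟨t, ht⟩ : ∃ t : ℝ, t = 1 / Dm ψ q r := ⟨_, rfl⟩
    have ht2 : 2 < t := by
      rw [ht, lt_div_iff₀ hD0]
      linarith
    have htX : t ≤ X ^ c5 ε m := by
      rw [ht, div_le_iff₀ hD0]
      have h1 : X ^ c5 ε m * X ^ (-c5 ε m) = 1 := by
        rw [← Real.rpow_add hXp, add_neg_cancel, Real.rpow_zero]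
      rw [← h1]
      exact mul_le_mul_of_nonneg_left hD (by linarith)
    have h2fl : 2 ≤ ⌊t⌋₊ := Nat.le_floor (by exact_mod_cast ht2.le)
    obtain ⟨j, hj⟩ : ∃ j : ℕ, j = Nat.log 2 ⌊t⌋₊ := ⟨_, rfl⟩
    have hj1 : 1 ≤ j := by rw [hj]; exact Nat.log_pos (by norm_num) h2fl
    have hjM : j ≤ M := by
      rw [hj, hM]
      exact Nat.log_mono_right (Nat.floor_le_floor htX)
    have hlo : (2 : ℝ) ^ j ≤ t := by
      have h1 : 2 ^ j ≤ ⌊t⌋₊ := Nat.pow_le_of_le_log (by omega) hj.le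
      have h2 : ((2 ^ j : ℕ) : ℝ) ≤ (⌊t⌋₊ : ℝ) := by exact_mod_cast h1
      push_cast at h2
      exact h2.trans (Nat.floor_le (by linarith))
    have hhi : t < (2 : ℝ) ^ (j + 1) := by
      have h1 : ⌊t⌋₊ < 2 ^ (j + 1) := by
        rw [hj]
        exact Nat.lt_pow_succ_log_self (by norm_num) _
      have h2 := Nat.lt_of_floor_lt h1
      push_cast at h2
      exact h2
    have h2j : (0 : ℝ) < 2 ^ j := by positivity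
    have hK : Ks γ ψ (2 ^ j) q r = mu ψ q * mu ψ r := by
      unfold Ks
      rw [if_pos]
      refine ⟨hrq, hco, ?_, ?_⟩
      · rw [div_lt_iff₀ (by positivity)]
        rw [ht, div_lt_iff₀ hD0, pow_succ] at hhi
        linarith
      · rw [le_div_iff₀ h2j]
        rw [ht, le_div_iff₀ hD0] at hlo
        linarith
    have hmm : 0 ≤ mu ψ q * mu ψ r := mul_nonneg (hw q) (hw r)
    calc mu ψ q * mu ψ r / Dm ψ q r = t * (mu ψ q * mu ψ r) := by rw [ht]; ring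
      _ ≤ (2 : ℝ) ^ (j + 1) * (mu ψ q * mu ψ r) := mul_le_mul_of_nonneg_right hhi.le hmm
      _ = (2 : ℝ) ^ (j + 1) * Ks γ ψ (2 ^ j) q r := by rw [hK]
      _ ≤ ∑ j ∈ Finset.Icc 1 M, (2 : ℝ) ^ (j + 1) * Ks γ ψ (2 ^ j) q r :=
        Finset.single_le_sum (f := fun j : ℕ => (2 : ℝ) ^ (j + 1) * Ks γ ψ (2 ^ j) q r)
          (fun j _ => mul_nonneg (by positivity) (hKs _ q r)) (Finset.mem_Icc.2 ⟨hj1, hjM⟩)
  have hB0 : 0 ≤ (∑ q ∈ S, mu ψ q) ^ (6 / 5 : ℝ) :=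
    Real.rpow_nonneg (Finset.sum_nonneg fun q _ => hw q) _
  calc ∑ q ∈ S, ∑ r ∈ S with r < q ∧ CO γ ψ q r ∧ X ^ (-c5 ε m) ≤ Dm ψ q r,
        mu ψ q * mu ψ r / Dm ψ q r
      ≤ ∑ q ∈ S, ∑ r ∈ S, ∑ j ∈ Finset.Icc 1 M, (2 : ℝ) ^ (j + 1) * Ks γ ψ (2 ^ j) q r := by
        refine Finset.sum_le_sum fun q _ => ?_
        refine le_trans (Finset.sum_le_sum fun r hr => hpt q r (Finset.mem_filter.1 hr).2) ?_
        exact Finset.sum_le_sum_of_subset_of_nonneg (Finset.filter_subset _ _) fun r _ _ =>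
          Finset.sum_nonneg fun j _ => mul_nonneg (by positivity) (hKs _ q r)
    _ = ∑ j ∈ Finset.Icc 1 M, (2 : ℝ) ^ (j + 1) * FF (Ks γ ψ (2 ^ j)) S S := by
        unfold FF
        simp only [Finset.mul_sum]
        rw [Finset.sum_congr rfl fun q _ => Finset.sum_comm]
        rw [Finset.sum_comm]
    _ ≤ ∑ j ∈ Finset.Icc 1 M, 2 * C * (∑ q ∈ S, mu ψ q) ^ (6 / 5 : ℝ) * ρ ^ j := by
        refine Finset.sum_le_sum fun j hj => ?_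
        have hj1 := (Finset.mem_Icc.1 hj).1
        have h2j : (0 : ℝ) < 2 ^ j := by positivity
        have hs2 : (2 : ℝ) ≤ 2 ^ j := by
          calc (2 : ℝ) = 2 ^ 1 := (pow_one 2).symm
            _ ≤ 2 ^ j := pow_le_pow_right₀ (by norm_num) hj1
        have h1 := h X γ ψ S hX hB (2 ^ j) hs2 (hJ j hj)
        have h2 : ρ ^ j = (2 : ℝ) ^ j * ((2 : ℝ) ^ j) ^ (-(57 / 50) : ℝ) := by
          rw [hρ, Real.rpow_pow_comm (by norm_num)]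
          nth_rewrite 2 [← Real.rpow_one ((2 : ℝ) ^ j)]
          rw [← Real.rpow_add h2j]
          norm_num
        calc (2 : ℝ) ^ (j + 1) * FF (Ks γ ψ (2 ^ j)) S S
            ≤ (2 : ℝ) ^ (j + 1) * (C * ((2 : ℝ) ^ j) ^ (-(57 / 50) : ℝ) *
              (∑ q ∈ S, mu ψ q) ^ (6 / 5 : ℝ)) :=
              mul_le_mul_of_nonneg_left h1 (by positivity)
          _ = 2 * C * (∑ q ∈ S, mu ψ q) ^ (6 / 5 : ℝ) * ρ ^ j := by
              rw [h2, pow_succ]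
              ring
    _ = 2 * C * (∑ q ∈ S, mu ψ q) ^ (6 / 5 : ℝ) * ∑ j ∈ Finset.Icc 1 M, ρ ^ j := by
        rw [Finset.mul_sum]
    _ ≤ 2 * C * (∑ q ∈ S, mu ψ q) ^ (6 / 5 : ℝ) * (1 - ρ)⁻¹ := by
        refine mul_le_mul_of_nonneg_left ?_ (by positivity)
        rw [← tsum_geometric_of_lt_one hρ0.le hρ1]
        exact (summable_geometric_of_lt_one hρ0.le hρ1).sum_le_tsum _ fun j _ => by positivity
    _ = 2 * C * (1 - ρ)⁻¹ * (∑ q ∈ S, mu ψ q) ^ (6 / 5 : ℝ) := by ring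

end Vale.Agent.P028KM
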