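import Vale.Agent.P028KM.Defs
import Vale.Agent.P028KM.NRA
import Vale.Agent.P028KM.NRB

/-!
Module NR: near pairs in one window and in all windows. `nr`: `nra` + `nrb`, `M^(6/5) ≤ ε0^(1/5) M`.
`nrs`: put `X_k = 2^(4^k)`; a pair `r < q < r^4` with `X_k ≤ r < X_(k+1)` lies in
`S_k = {q ∈ S : X_k ≤ q < X_(k+2)}`, `X_(k+2) = X_k^16`; apply `nr` to `S_k` (mass `≤ 2 ε0'`), and
`∑_k ∑_{S_k} mu ≤ 2 ∑_S mu`. Second claim: `(∑_{S_k} mu)^2 ≤ 2 ε0' ∑_{S_k} mu`.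
-/

namespace Vale.Agent.P028KM

open Finset MeasureTheory
open Vale.Agent.P028EV (q1 r1 Del hh)

/-- window index -/
def NR_k (q : ℕ) : ℕ := Nat.log 4 (Nat.log 2 q)

/-- two consecutive windows -/
def NR_S (S : Finset ℕ) (k : ℕ) : Finset ℕ := S.filter (fun q => NR_k q = k ∨ NR_k q = k + 1)

theorem NR_kk {q k : ℕ} (hq : 2 ≤ q) : NR_k q = k ↔ 2 ^ (4 ^ k) ≤ q ∧ q < 2 ^ (4 ^ (k + 1)) := by
  unfold NR_k
  have h1 : Nat.log 2 q ≠ 0 := by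
    have := Nat.log_pos (b := 2) (by norm_num) hq
    omega
  rw [Nat.log_eq_iff (Or.inr ⟨by norm_num, h1⟩), Nat.le_log_iff_pow_le (by norm_num) (by omega),
    Nat.log_lt_iff_lt_pow (by norm_num) (by omega)]

theorem NR_pow (k : ℕ) : (2 ^ (4 ^ k)) ^ 4 = 2 ^ (4 ^ (k + 1)) := by
  rw [← pow_mul, pow_succ 4 k]

theorem NR_step {q r : ℕ} (hr : 2 ≤ r) (h1 : r < q) (h2 : q < r ^ 4) :
    NR_k q = NR_k r ∨ NR_k q = NR_k r + 1 := by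
  have hr' := (NR_kk hr).1 rfl
  have hq : 2 ≤ q := by omega
  by_cases h : q < 2 ^ (4 ^ (NR_k r + 1))
  · left
    exact (NR_kk hq).2 ⟨hr'.1.trans h1.le, h⟩
  · right
    refine (NR_kk hq).2 ⟨not_lt.1 h, ?_⟩
    calc q < r ^ 4 := h2
      _ ≤ (2 ^ (4 ^ (NR_k r + 1))) ^ 4 := Nat.pow_le_pow_left hr'.2.le 4
      _ = 2 ^ (4 ^ (NR_k r + 1 + 1)) := NR_pow _

theorem NR_prod (S : Finset ℕ) (A : ℕ → ℕ → Prop) [∀ q r, Decidable (A q r)] (F : ℕ → ℕ → ℝ) :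
    ∑ q ∈ S, ∑ r ∈ S with A q r, F q r =
      ∑ p ∈ (S ×ˢ S).filter (fun p => A p.1 p.2), F p.1 p.2 := by
  rw [sum_filter, sum_product]
  exact sum_congr rfl fun q _ => sum_filter _ _

theorem NR_mass (S : Finset ℕ) (μ : ℕ → ℝ) (k : ℕ) :
    ∑ q ∈ NR_S S k, μ q =
      ∑ q ∈ S with NR_k q = k, μ q + ∑ q ∈ S with NR_k q = k + 1, μ q := by
  unfold NR_S
  rw [filter_or, sum_union]
  rw [disjoint_filter]
  intro q _ h1 h2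
  omega

theorem NR_masses (S : Finset ℕ) (μ : ℕ → ℝ) (hμ : ∀ q, 0 ≤ μ q) (K : ℕ)
    (hK : ∀ q ∈ S, NR_k q < K) : ∑ k ∈ range K, ∑ q ∈ NR_S S k, μ q ≤ 2 * ∑ q ∈ S, μ q := by
  have h7 : ∑ k ∈ range (K + 1), ∑ q ∈ S with NR_k q = k, μ q = ∑ q ∈ S, μ q :=
    sum_fiberwise_of_maps_to (fun q hq => mem_range.2 ((hK q hq).trans (Nat.lt_succ_self K))) _
  have h0 : ∀ k, 0 ≤ ∑ q ∈ S with NR_k q = k, μ q := fun k => sum_nonneg fun q _ => hμ q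
  have h8 := sum_range_succ (fun k => ∑ q ∈ S with NR_k q = k, μ q) K
  have h9 := sum_range_succ' (fun k => ∑ q ∈ S with NR_k q = k, μ q) K
  have h10 := h0 K
  have h11 := h0 0
  rw [sum_congr rfl fun k _ => NR_mass S μ k, sum_add_distrib]
  rw [h7] at h8 h9
  linarith

theorem NR_win (S : Finset ℕ) (hS : ∀ q ∈ S, 2 ≤ q) (A : ℕ → ℕ → Prop)
    [∀ q r, Decidable (A q r)] (hA : ∀ q r, A q r → r < q ∧ q < r ^ 4) (F : ℕ → ℕ → ℝ)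
    (hF : ∀ q r, 0 ≤ F q r) (μ : ℕ → ℝ) (hμ : ∀ q, 0 ≤ μ q) (κ : ℝ) (hκ : 0 ≤ κ)
    (h : ∀ k, (∃ r ∈ S, NR_k r = k) →
      ∑ q ∈ NR_S S k, ∑ r ∈ NR_S S k with A q r, F q r ≤ κ * ∑ q ∈ NR_S S k, μ q) :
    ∑ q ∈ S, ∑ r ∈ S with A q r, F q r ≤ (2 * κ) * ∑ q ∈ S, μ q := by
  have hK : ∀ q ∈ S, NR_k q < S.sup NR_k + 1 := fun q hq => Nat.lt_succ_of_le (le_sup hq)
  have e3 : ∀ k ∈ range (S.sup NR_k + 1),
      ∑ p ∈ ((S ×ˢ S).filter (fun p => A p.1 p.2)).filter (fun p => NR_k p.2 = k), F p.1 p.2 ≤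
        κ * ∑ q ∈ NR_S S k, μ q := by
    intro k _
    by_cases hk : ∃ r ∈ S, NR_k r = k
    · refine le_trans ?_ (h k hk)
      rw [NR_prod]
      refine sum_le_sum_of_subset_of_nonneg ?_ (fun _ _ _ => hF _ _)
      intro p hp
      rw [mem_filter, mem_filter, mem_product] at hp
      obtain ⟨⟨⟨hp1, hp2⟩, hpA⟩, hpk⟩ := hp
      have h3 := hA _ _ hpA
      have h4 := NR_step (hS _ hp2) h3.1 h3.2
      rw [hpk] at h4
      exact mem_filter.2 ⟨mem_product.2 ⟨mem_filter.2 ⟨hp1, h4⟩,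
        mem_filter.2 ⟨hp2, Or.inl hpk⟩⟩, hpA⟩
    · have h5 : ((S ×ˢ S).filter (fun p => A p.1 p.2)).filter (fun p => NR_k p.2 = k) = ∅ := by
        rw [filter_eq_empty_iff]
        intro p hp hpk
        rw [mem_filter, mem_product] at hp
        exact hk ⟨p.2, hp.1.2, hpk⟩
      rw [h5, sum_empty]
      exact mul_nonneg hκ (sum_nonneg fun q _ => hμ q)
  rw [NR_prod, ← sum_fiberwise_of_maps_to (s := (S ×ˢ S).filter (fun p => A p.1 p.2))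
    (t := range (S.sup NR_k + 1)) (g := fun p => NR_k p.2)
    (fun p hp => mem_range.2 (hK p.2 (mem_product.1 (mem_filter.1 hp).1).2))]
  refine (sum_le_sum e3).trans ?_
  rw [← mul_sum]
  have h6 := mul_le_mul_of_nonneg_left (NR_masses S μ hμ _ hK) hκ
  linarith

theorem NR_mu {ψ : ℕ → ℝ} (hψ : ∀ q, 0 ≤ ψ q) (q : ℕ) : 0 ≤ mu ψ q := by
  unfold mu w
  exact mul_nonneg (by positivity) (hψ q)

theorem NR_Dm {ψ : ℕ → ℝ} (hψ : ∀ q, 0 ≤ ψ q) (q r : ℕ) : 0 ≤ Dm ψ q r := by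
  unfold Dm
  exact le_max_of_le_left (mul_nonneg (Nat.cast_nonneg _) (hψ q))

open Classical in
theorem nr (c : ℝ) (hc : 0 < c) (m : ℕ) (ε : ℝ) (hε : 0 < ε) (hε1 : ε ≤ 1) (δ : ℝ) (hδ : 0 < δ) :
    ∃ ε0 : ℝ, 0 < ε0 ∧ ∃ X0 : ℝ, 2 ≤ X0 ∧ ∀ (X γ : ℝ) (ψ : ℕ → ℝ) (S : Finset ℕ), X0 ≤ X →
    Blk c m ε X γ ψ S → ∑ q ∈ S, mu ψ q ≤ ε0 →
    ∑ q ∈ S, ∑ r ∈ S with r < q ∧ CO γ ψ q r,
      mu ψ q * mu ψ r / Dm ψ q r ≤ δ * (∑ q ∈ S, mu ψ q) := by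
  obtain ⟨δ1, hδ1, X1, hX1, hA⟩ := nra c hc m ε hε hε1
  obtain ⟨C, hC, X2, hX2, hB⟩ := nrb c hc m ε hε hε1
  have h1 : Filter.Tendsto (fun X : ℝ => X ^ (-δ1)) Filter.atTop (nhds 0) :=
    tendsto_rpow_neg_atTop hδ1
  obtain ⟨X3, hX3⟩ := Filter.eventually_atTop.1 (h1.eventually_le_const (half_pos hδ))
  have hC0 : 0 < C := by linarith
  refine ⟨(δ / (2 * C)) ^ (5 : ℝ), Real.rpow_pos_of_pos (by positivity) _,
    max X1 (max X2 X3), le_max_of_le_left hX1, fun X γ ψ S hX hb hM => ?_⟩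
  have hM0 : 0 ≤ ∑ q ∈ S, mu ψ q := sum_nonneg fun q _ => NR_mu hb.psi0 q
  have hA' := hA X γ ψ S ((le_max_left _ _).trans hX) hb
  have hB' := hB X γ ψ S (((le_max_left _ _).trans (le_max_right _ _)).trans hX) hb
  have h3 := hX3 X (((le_max_right _ _).trans (le_max_right _ _)).trans hX)
  set M := ∑ q ∈ S, mu ψ q with hMdef
  have h4 : M ^ (6 / 5 : ℝ) ≤ δ / (2 * C) * M := by
    have e1 : (6 / 5 : ℝ) = 1 / 5 + 1 := by norm_num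
    rw [e1, Real.rpow_add' hM0 (by norm_num), Real.rpow_one]
    refine mul_le_mul_of_nonneg_right ?_ hM0
    have h5 := Real.rpow_le_rpow hM0 hM (by norm_num : (0 : ℝ) ≤ 1 / 5)
    rw [← Real.rpow_mul (by positivity)] at h5
    have e2 : (5 : ℝ) * (1 / 5) = 1 := by norm_num
    rw [e2, Real.rpow_one] at h5
    exact h5
  have hsplit : ∑ q ∈ S, ∑ r ∈ S with r < q ∧ CO γ ψ q r, mu ψ q * mu ψ r / Dm ψ q r =
      ∑ q ∈ S, ∑ r ∈ S with r < q ∧ CO γ ψ q r ∧ Dm ψ q r < X ^ (-c5 ε m),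
        mu ψ q * mu ψ r / Dm ψ q r +
      ∑ q ∈ S, ∑ r ∈ S with r < q ∧ CO γ ψ q r ∧ X ^ (-c5 ε m) ≤ Dm ψ q r,
        mu ψ q * mu ψ r / Dm ψ q r := by
    rw [← sum_add_distrib]
    refine sum_congr rfl fun q _ => ?_
    rw [← sum_filter_add_sum_filter_not (S.filter (fun r => r < q ∧ CO γ ψ q r))
      (fun r => Dm ψ q r < X ^ (-c5 ε m)), filter_filter, filter_filter]
    refine congrArg₂ (· + ·) (sum_congr (filter_congr fun r _ => ?_) fun _ _ => rfl)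
      (sum_congr (filter_congr fun r _ => ?_) fun _ _ => rfl)
    · rw [and_assoc]
    · rw [and_assoc, not_lt]
  rw [hsplit]
  have h6 : X ^ (-δ1) * M ≤ δ / 2 * M := mul_le_mul_of_nonneg_right h3 hM0
  have h7 : C * M ^ (6 / 5 : ℝ) ≤ δ / 2 * M := by
    calc C * M ^ (6 / 5 : ℝ) ≤ C * (δ / (2 * C) * M) := mul_le_mul_of_nonneg_left h4 hC0.le
      _ = δ / 2 * M := by field_simp
  linarith

open Classical in
theorem nrs (c : ℝ) (hc : 0 < c) (m : ℕ) (ε : ℝ) (hε : 0 < ε) (hε1 : ε ≤ 1) (δ : ℝ) (hδ : 0 < δ) :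
    ∃ ε0 : ℝ, 0 < ε0 ∧ ∃ N0 : ℕ, ∀ (γ : ℝ) (ψ : ℕ → ℝ) (S : Finset ℕ), Dio c m γ →
    (∀ q, 0 ≤ ψ q) → (∀ q ∈ S, N0 ≤ q ∧ 2 ≤ q ∧ ψ q ≤ (q : ℝ) ^ (-ε)) →
    (∀ k : ℕ, ∑ q ∈ S with 2 ^ (4 ^ k) ≤ q ∧ q < 2 ^ (4 ^ (k + 1)), mu ψ q ≤ ε0) →
    ∑ q ∈ S, ∑ r ∈ S with r < q ∧ q < r ^ 4 ∧ CO γ ψ q r,
      mu ψ q * mu ψ r / Dm ψ q r ≤ δ * (∑ q ∈ S, mu ψ q) ∧
    ∑ q ∈ S, ∑ r ∈ S with r < q ∧ q < r ^ 4, mu ψ q * mu ψ r ≤ δ * (∑ q ∈ S, mu ψ q) := by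
  obtain ⟨ε0, hε0, X0, hX0, hnr⟩ := nr c hc m ε hε hε1 (δ / 2) (half_pos hδ)
  refine ⟨min (ε0 / 2) (δ / 4), lt_min (half_pos hε0) (by linarith), ⌈X0⌉₊ ^ 4,
    fun γ ψ S hD hψ hS hwin => ?_⟩
  have hS2 : ∀ q ∈ S, 2 ≤ q := fun q hq => (hS q hq).2.1
  have hW : ∀ k, ∑ q ∈ S with NR_k q = k, mu ψ q ≤ min (ε0 / 2) (δ / 4) := by
    intro k
    have e : S.filter (fun q => NR_k q = k) =
        S.filter (fun q => 2 ^ (4 ^ k) ≤ q ∧ q < 2 ^ (4 ^ (k + 1))) :=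
      filter_congr fun q hq => NR_kk (hS2 q hq)
    rw [e]
    exact hwin k
  have hmass : ∀ k, ∑ q ∈ NR_S S k, mu ψ q ≤ ε0 ∧ ∑ q ∈ NR_S S k, mu ψ q ≤ δ / 2 := by
    intro k
    rw [NR_mass]
    have h1 := hW k
    have h2 := hW (k + 1)
    have h3 := min_le_left (ε0 / 2) (δ / 4)
    have h4 := min_le_right (ε0 / 2) (δ / 4)
    constructor <;> linarith
  have hδ2 : (2 : ℝ) * (δ / 2) = δ := by ring
  constructor
  · have h := NR_win S hS2 (fun q r => r < q ∧ q < r ^ 4 ∧ CO γ ψ q r)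
      (fun q r h => ⟨h.1, h.2.1⟩) (fun q r => mu ψ q * mu ψ r / Dm ψ q r)
      (fun q r => div_nonneg (mul_nonneg (NR_mu hψ q) (NR_mu hψ r)) (NR_Dm hψ q r))
      (mu ψ) (NR_mu hψ) (δ / 2) (half_pos hδ).le ?_
    · rw [hδ2] at h
      exact h
    · rintro k ⟨r0, hr0, hk⟩
      have hr0' := (NR_kk (hS2 r0 hr0)).1 hk
      have hX : X0 ≤ ((2 ^ (4 ^ k) : ℕ) : ℝ) := by
        have h2 : ⌈X0⌉₊ ^ 4 < (2 ^ (4 ^ k)) ^ 4 := by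
          rw [NR_pow]
          exact (hS r0 hr0).1.trans_lt hr0'.2
        have h3 : ⌈X0⌉₊ < 2 ^ (4 ^ k) := lt_of_pow_lt_pow_left₀ 4 (Nat.zero_le _) h2
        exact (Nat.le_ceil X0).trans (by exact_mod_cast h3.le)
      have hmem : ∀ q ∈ NR_S S k, q ∈ S ∧ 2 ^ (4 ^ k) ≤ q ∧ q < 2 ^ (4 ^ (k + 1 + 1)) := by
        intro q hq
        obtain ⟨hqS, hq2⟩ := mem_filter.1 hq
        have hmono : ∀ j : ℕ, 2 ^ (4 ^ j) ≤ 2 ^ (4 ^ (j + 1)) := fun j =>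
          Nat.pow_le_pow_right (by norm_num) (Nat.pow_le_pow_right (by norm_num) (by omega))
        rcases hq2 with h2 | h2
        · have h3 := (NR_kk (hS2 q hqS)).1 h2
          exact ⟨hqS, h3.1, h3.2.trans_le (hmono (k + 1))⟩
        · have h3 := (NR_kk (hS2 q hqS)).1 h2
          exact ⟨hqS, (hmono k).trans h3.1, h3.2⟩
      have hblk : Blk c m ε ((2 ^ (4 ^ k) : ℕ) : ℝ) γ ψ (NR_S S k) := by
        refine ⟨hD, hψ, fun q hq => by exact_mod_cast (hmem q hq).2.1, fun q hq => ?_,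
          fun q hq => (hS q (hmem q hq).1).2.2⟩
        have h2 : q ≤ (2 ^ (4 ^ k)) ^ 16 := by
          have e : (2 ^ (4 ^ k)) ^ 16 = 2 ^ (4 ^ (k + 1 + 1)) := by
            rw [← NR_pow, ← NR_pow, ← pow_mul (2 ^ (4 ^ k)) 4 4]
          rw [e]
          exact (hmem q hq).2.2.le
        exact_mod_cast h2
      refine le_trans ?_ (hnr _ γ ψ (NR_S S k) hX hblk (hmass k).1)
      refine sum_le_sum fun q _ => sum_le_sum_of_subset_of_nonneg ?_ fun r _ _ =>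
        div_nonneg (mul_nonneg (NR_mu hψ q) (NR_mu hψ r)) (NR_Dm hψ q r)
      intro r hr
      rw [mem_filter] at hr ⊢
      exact ⟨hr.1, hr.2.1, hr.2.2.2⟩
  · have h := NR_win S hS2 (fun q r => r < q ∧ q < r ^ 4)
      (fun q r h => h) (fun q r => mu ψ q * mu ψ r)
      (fun q r => mul_nonneg (NR_mu hψ q) (NR_mu hψ r))
      (mu ψ) (NR_mu hψ) (δ / 2) (half_pos hδ).le ?_
    · rw [hδ2] at h
      exact h
    · rintro k -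
      have h0 : 0 ≤ ∑ q ∈ NR_S S k, mu ψ q := sum_nonneg fun q _ => NR_mu hψ q
      calc ∑ q ∈ NR_S S k, ∑ r ∈ NR_S S k with r < q ∧ q < r ^ 4, mu ψ q * mu ψ r ≤
          ∑ q ∈ NR_S S k, ∑ r ∈ NR_S S k, mu ψ q * mu ψ r :=
            sum_le_sum fun q _ => sum_le_sum_of_subset_of_nonneg (filter_subset _ _)
              fun r _ _ => mul_nonneg (NR_mu hψ q) (NR_mu hψ r)
        _ = (∑ q ∈ NR_S S k, mu ψ q) * ∑ q ∈ NR_S S k, mu ψ q := by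
            rw [sum_mul_sum]
        _ ≤ δ / 2 * ∑ q ∈ NR_S S k, mu ψ q := mul_le_mul_of_nonneg_right (hmass k).2 h0

end Vale.Agent.P028KM
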