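import Vale.Agent.P028KM.Defs
import Vale.Agent.P028KM.AFM
import Vale.Agent.P028EV.Ov

/-!
Module OVF: overlap in one period. `q = g u`, `r = g v`. The points `(a+γ)/q`, `(b+γ)/r` give
intersecting intervals only if `t = v a - u b` satisfies `|t + γ(v-u)| < Del`; for each `t` there are
`g` pairs `(a,b)` modulo the period, each with an intersection of length
`≤ 2 min(ψ(q)/q, ψ(r)/r)`; `#t ≤ 2 Del + 1` (`card_Ts_le` in Vale/Agent/P028EV/Ov.lean), `≤ 1` if
`Del < 1/2`. `g min(ψ(q)/q, ψ(r)/r) = ψ(q)ψ(r)/Dm`, `Dm ≤ Del ≤ 2 Dm`. Compare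
Vale/Agent/P028EV/{Pair,Ov}.lean (`pair_main`, `pair_ov`: the same count for the sets `AS`).
If `Dm = 0` then one of the two sets is empty.
-/

namespace Vale.Agent.P028KM

open Finset MeasureTheory
open Vale.Agent.P028EV (q1 r1 Del hh)

/-- one-periodic sets: all the intervals of length one have the same share -/
private theorem OVF_per (A : Set ℝ) (hA : MeasurableSet A) (hp : ∀ x, x ∈ A ↔ x + 1 ∈ A)
    (x y : ℝ) : volume (A ∩ Set.Ioc x (x + 1)) = volume (A ∩ Set.Ioc y (y + 1)) := by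
  have hz : ∀ (n : ℤ) (x : ℝ), x ∈ A ↔ x + n ∈ A := by
    intro n
    induction n using Int.induction_on with
    | zero => intro x; simp
    | succ i ih =>
      intro x
      rw [ih x, hp (x + (i : ℤ))]
      push_cast
      rw [add_assoc]
    | pred i ih =>
      intro x
      rw [ih x, hp (x + ((-(i : ℤ) - 1 : ℤ) : ℝ))]
      push_cast
      ring_nf
  refine (isAddFundamentalDomain_Ioc (T := 1) one_pos x volume).measure_set_eq
    (isAddFundamentalDomain_Ioc (T := 1) one_pos y volume) hA ?_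
  rintro ⟨g, n, rfl⟩
  ext z
  simp only [Set.mem_preimage]
  rw [hz n z]
  have : (⟨n • (1 : ℝ), n, rfl⟩ : AddSubgroup.zmultiples (1 : ℝ)) +ᵥ z = z + n := by
    change n • (1 : ℝ) + z = z + n
    rw [zsmul_one, add_comm]
  rw [this]

/-- the covering of one point: the integers `t`, `k` -/
private theorem OVF_point (γ Q R s1 s2 X : ℝ) (g u v : ℕ) (hu : 0 < u) (hv : 0 < v)
    (hQ : Q = g * u) (hR : R = g * v) (h1 : s1 < 1 / 2)
    (x y a b : ℤ) (hxy : (v : ℤ) * x - (u : ℤ) * y = 1)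
    (ha : |Q * X - a - γ| < s1) (hb : |R * X - b - γ| < s2) (hX0 : γ + 1 / 2 < Q * X)
    (hX1 : Q * X ≤ γ + 1 / 2 + Q) :
    ∃ t k : ℤ, t * x + k * u = a ∧ t * y + k * v = b ∧
      |(t : ℝ) + γ * (((v : ℤ) - (u : ℤ) : ℤ) : ℝ)| < v * s1 + u * s2 ∧
      -((t * x - 1) / u) ≤ k ∧ k < -((t * x - 1) / u) + g := by
  have hu' : (0 : ℝ) < u := by exact_mod_cast hu
  have hv' : (0 : ℝ) < v := by exact_mod_cast hv
  have ea : (v * a - u * b) * x + (b * x - a * y) * u = a := by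
    linear_combination a * hxy
  have haX := abs_lt.1 ha
  have ha1 : 1 ≤ a := by
    have : (0 : ℝ) < a := by linarith
    have : (0 : ℤ) < a := by exact_mod_cast this
    omega
  have ha2 : a ≤ g * u := by
    have : (a : ℝ) < Q + 1 := by linarith
    rw [hQ] at this
    have : a < (g * u : ℤ) + 1 := by exact_mod_cast this
    omega
  have huz : (0 : ℤ) < u := by exact_mod_cast hu
  refine ⟨v * a - u * b, b * x - a * y, ea, ?_, ?_, ?_, ?_⟩
  · linear_combination b * hxy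
  · have e3 : ((v * a - u * b : ℤ) : ℝ) + γ * (((v : ℤ) - (u : ℤ) : ℤ) : ℝ) =
        (u : ℝ) * (R * X - b - γ) - (v : ℝ) * (Q * X - a - γ) := by
      rw [hQ, hR]; push_cast; ring
    rw [e3]
    calc |(u : ℝ) * (R * X - b - γ) - (v : ℝ) * (Q * X - a - γ)|
        ≤ |(u : ℝ) * (R * X - b - γ)| + |(v : ℝ) * (Q * X - a - γ)| := abs_sub _ _
      _ = u * |R * X - b - γ| + v * |Q * X - a - γ| := by
          rw [abs_mul, abs_mul, abs_of_pos hu', abs_of_pos hv']
      _ < u * s2 + v * s1 := by gcongr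
      _ = v * s1 + u * s2 := by ring
  all_goals
    set t : ℤ := v * a - u * b with ht
    set k : ℤ := b * x - a * y with hk
    set m : ℤ := (t * x - 1) / u with hm
    have hm1 : m * u ≤ t * x - 1 := Int.ediv_mul_le _ huz.ne'
    have hm2 : t * x - 1 < (m + 1) * u := Int.lt_ediv_add_one_mul_self _ huz
  · by_contra hcon
    push Not at hcon
    have h2 : (k + m + 1) * u ≤ 0 := by
      have : k + m + 1 ≤ 0 := by omega
      exact mul_nonpos_of_nonpos_of_nonneg this huz.le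
    nlinarith
  · by_contra hcon
    push Not at hcon
    have h2 : 0 ≤ (k + m - g) * u := mul_nonneg (by omega) huz.le
    nlinarith

/-- main estimate -/
private theorem OVF_main (γ : ℝ) (ψ : ℕ → ℝ) (g u v : ℕ) (hg : 0 < g) (hu : 0 < u) (hv : 0 < v)
    (h0 : 0 ≤ ψ (g * u)) (h0' : 0 ≤ ψ (g * v))
    (h1 : ψ (g * u) < 1 / 2) (x y : ℤ)
    (hxy : (v : ℤ) * x - (u : ℤ) * y = 1) (mn : ℝ)
    (hmn : mn = min (ψ (g * u) / ((g * u : ℕ) : ℝ)) (ψ (g * v) / ((g * v : ℕ) : ℝ)))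
    (T : Finset ℤ)
    (hT : T = Vale.Agent.P028EV.Ts γ ((v : ℤ) - (u : ℤ))
      ((v : ℝ) * ψ (g * u) + (u : ℝ) * ψ (g * v))) (x0 : ℝ) :
    (volume (AF γ ψ (g * u) ∩ AF γ ψ (g * v) ∩ Set.Ioc x0 (x0 + 1))).toReal ≤
      2 * (g * mn) * T.card := by
  have hq : 0 < g * u := Nat.mul_pos hg hu
  have hr : 0 < g * v := Nat.mul_pos hg hv
  have hq' : (0 : ℝ) < ((g * u : ℕ) : ℝ) := by exact_mod_cast hq
  obtain ⟨K, hK⟩ : ∃ K : ℤ → Finset ℤ, ∀ t, K t = Finset.Ico
      (-((t * x - 1) / u)) (-((t * x - 1) / u) + g) := ⟨_, fun _ => rfl⟩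
  have hKcard : ∀ t, (K t).card = g := by
    intro t
    rw [hK, Int.card_Ico]
    omega
  have hmn0 : 0 ≤ mn := by
    rw [hmn]
    exact le_min (div_nonneg h0 (Nat.cast_nonneg _)) (div_nonneg h0' (Nat.cast_nonneg _))
  obtain ⟨I, hI⟩ : ∃ I : (Σ _ : ℤ, ℤ) → Set ℝ, ∀ p, I p =
    {X : ℝ | |((g * u : ℕ) : ℝ) * X - ((p.1 * x + p.2 * u : ℤ) : ℝ) - γ| < ψ (g * u)} ∩
    {X : ℝ | |((g * v : ℕ) : ℝ) * X - ((p.1 * y + p.2 * v : ℤ) : ℝ) - γ| < ψ (g * v)} :=
      ⟨_, fun _ => rfl⟩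
  have hIvol : ∀ p, volume (I p) ≤ ENNReal.ofReal (2 * mn) := by
    intro p
    rw [hmn, mul_min_of_nonneg _ _ (by norm_num : (0 : ℝ) ≤ 2),
      (ENNReal.ofReal_mono).map_min, le_min_iff, hI]
    constructor
    · refine (measure_mono Set.inter_subset_left).trans ?_
      rw [← mul_div_assoc]
      exact Vale.Agent.P028EV.pair_vol (g * u) hq _ γ _
    · refine (measure_mono Set.inter_subset_right).trans ?_
      rw [← mul_div_assoc]
      exact Vale.Agent.P028EV.pair_vol (g * v) hr _ γ _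
  set y0 : ℝ := (γ + 1 / 2) / ((g * u : ℕ) : ℝ) with hy0
  have hA : MeasurableSet (AF γ ψ (g * u) ∩ AF γ ψ (g * v)) :=
    ((AF_isOpen γ ψ (g * u)).inter (AF_isOpen γ ψ (g * v))).measurableSet
  have hper := OVF_per (AF γ ψ (g * u) ∩ AF γ ψ (g * v)) hA (fun z => by
    rw [Set.mem_inter_iff, Set.mem_inter_iff, ← AF_per, ← AF_per]) x0 y0
  rw [hper]
  have hcov : AF γ ψ (g * u) ∩ AF γ ψ (g * v) ∩ Set.Ioc y0 (y0 + 1) ⊆
      ⋃ p ∈ T.sigma K, I p := by
    rintro X ⟨⟨⟨a, haX⟩, ⟨b, hbX⟩⟩, hX0, hX1⟩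
    have hX0' : γ + 1 / 2 < ((g * u : ℕ) : ℝ) * X := by
      rw [hy0, div_lt_iff₀ hq'] at hX0
      linarith
    have hX1' : ((g * u : ℕ) : ℝ) * X ≤ γ + 1 / 2 + ((g * u : ℕ) : ℝ) := by
      have h3 := mul_le_mul_of_nonneg_left hX1 hq'.le
      rw [mul_add, mul_one, hy0, mul_div_cancel₀ _ hq'.ne'] at h3
      exact h3
    obtain ⟨t, k, ea, eb, ht, hk1, hk2⟩ := OVF_point γ ((g * u : ℕ) : ℝ) ((g * v : ℕ) : ℝ)
      (ψ (g * u)) (ψ (g * v)) X g u v hu hv (by push_cast; ring) (by push_cast; ring) h1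
      x y a b hxy haX hbX hX0' hX1'
    have htT : t ∈ T := by
      rw [hT, Vale.Agent.P028EV.mem_Ts]
      exact ht
    have hkK : k ∈ K t := by
      rw [hK, Finset.mem_Ico]
      exact ⟨hk1, hk2⟩
    refine Set.mem_iUnion₂.2 ⟨⟨t, k⟩, Finset.mem_sigma.2 ⟨htT, hkK⟩, ?_⟩
    rw [hI]
    refine ⟨?_, ?_⟩
    · show |((g * u : ℕ) : ℝ) * X - ((t * x + k * u : ℤ) : ℝ) - γ| < ψ (g * u)
      rw [ea]; exact haX
    · show |((g * v : ℕ) : ℝ) * X - ((t * y + k * v : ℤ) : ℝ) - γ| < ψ (g * v)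
      rw [eb]; exact hbX
  refine ENNReal.toReal_le_of_le_ofReal (by positivity) ?_
  calc volume (AF γ ψ (g * u) ∩ AF γ ψ (g * v) ∩ Set.Ioc y0 (y0 + 1))
      ≤ volume (⋃ p ∈ T.sigma K, I p) := measure_mono hcov
    _ ≤ ∑ p ∈ T.sigma K, volume (I p) := measure_biUnion_finset_le _ _
    _ ≤ ∑ p ∈ T.sigma K, ENNReal.ofReal (2 * mn) := Finset.sum_le_sum fun p _ => hIvol p
    _ = ((T.card * g : ℕ) : ENNReal) * ENNReal.ofReal (2 * mn) := by
        rw [Finset.sum_const, Finset.card_sigma, nsmul_eq_mul]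
        simp only [hKcard, Finset.sum_const, smul_eq_mul]
    _ = ENNReal.ofReal (2 * (g * mn) * T.card) := by
        rw [← ENNReal.ofReal_natCast, ← ENNReal.ofReal_mul (Nat.cast_nonneg _)]
        congr 1
        push_cast
        ring

open Classical in
theorem ovf (γ : ℝ) (ψ : ℕ → ℝ) (q r : ℕ) (hq : 0 < q) (hr : 0 < r) (h0 : 0 ≤ ψ q)
    (h1 : 0 ≤ ψ r) (h2 : ψ q < 1 / 2) (h3 : ψ r < 1 / 2) (x0 ℓ : ℝ) (hℓ : 0 < ℓ) (hℓ1 : ℓ ≤ 1) :
    (volume (AF γ ψ q ∩ AF γ ψ r ∩ Set.Ico x0 (x0 + ℓ))).toReal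
      ≤ 16 * ψ q * ψ r + (if CO γ ψ q r then 4 * ψ q * ψ r / Dm ψ q r else 0) := by
  have hDm0 : 0 ≤ Dm ψ q r := le_max_of_le_left (mul_nonneg (Nat.cast_nonneg _) h0)
  have hlast : 0 ≤ (if CO γ ψ q r then 4 * ψ q * ψ r / Dm ψ q r else 0) := by
    split_ifs
    · positivity
    · exact le_rfl
  rcases h0.eq_or_lt with hz | hqpos
  · have hempty : AF γ ψ q = ∅ := by
      ext X
      simp only [AF, Set.mem_setOf_eq, Set.mem_empty_iff_false, iff_false, not_exists, not_lt]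
      intro a
      rw [← hz]
      exact abs_nonneg _
    rw [hempty]
    simp only [Set.empty_inter, measure_empty, ENNReal.toReal_zero]
    have : 0 ≤ 16 * ψ q * ψ r := by positivity
    linarith
  rcases h1.eq_or_lt with hz | hrpos
  · have hempty : AF γ ψ r = ∅ := by
      ext X
      simp only [AF, Set.mem_setOf_eq, Set.mem_empty_iff_false, iff_false, not_exists, not_lt]
      intro a
      rw [← hz]
      exact abs_nonneg _
    rw [hempty]
    simp only [Set.empty_inter, Set.inter_empty, measure_empty, ENNReal.toReal_zero]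
    have : 0 ≤ 16 * ψ q * ψ r := by positivity
    linarith
  obtain ⟨g, u, v, hg, hu, hv, huv, hqe, hre, hge, hue, hve⟩ :=
    Vale.Agent.P028EV.pair_cases hq hr
  obtain ⟨x, y, hxy⟩ := Vale.Agent.P028EV.ov_bezout huv
  have hgR : (0 : ℝ) < g := by exact_mod_cast hg
  have huR : (0 : ℝ) < u := by exact_mod_cast hu
  have hvR : (0 : ℝ) < v := by exact_mod_cast hv
  obtain ⟨mn, hmn⟩ : ∃ mn : ℝ, mn = min (ψ (g * u) / ((g * u : ℕ) : ℝ)) (ψ (g * v) / ((g * v : ℕ) : ℝ)) :=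
    ⟨_, rfl⟩
  obtain ⟨T, hT⟩ : ∃ T : Finset ℤ, T = Vale.Agent.P028EV.Ts γ ((v : ℤ) - (u : ℤ))
      ((v : ℝ) * ψ (g * u) + (u : ℝ) * ψ (g * v)) := ⟨_, rfl⟩
  have hmain := OVF_main γ ψ g u v hg hu hv (by rw [← hqe]; exact h0) (by rw [← hre]; exact h1)
    (by rw [← hqe]; exact h2) x y hxy mn hmn T hT x0
  rw [← hqe, ← hre] at hmain hmn hT
  have hDel : Del ψ q r = (v : ℝ) * ψ q + (u : ℝ) * ψ r := by
    unfold Del; rw [← hue, ← hve]
  have hDm : Dm ψ q r = max ((v : ℝ) * ψ q) ((u : ℝ) * ψ r) := by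
    unfold Dm; rw [← hue, ← hve]
  have hhe : hh q r = (v : ℤ) - (u : ℤ) := by unfold hh; rw [← hue, ← hve]
  have hDmpos : 0 < Dm ψ q r := by
    rw [hDm]
    exact lt_max_of_lt_left (mul_pos hvR hqpos)
  rw [← hDel, ← hhe] at hT
  have hle : (volume (AF γ ψ q ∩ AF γ ψ r ∩ Set.Ico x0 (x0 + ℓ))).toReal ≤
      (volume (AF γ ψ q ∩ AF γ ψ r ∩ Set.Ioc x0 (x0 + 1))).toReal := by
    have e1 : volume (AF γ ψ q ∩ AF γ ψ r ∩ Set.Ioc x0 (x0 + 1)) =
        volume (AF γ ψ q ∩ AF γ ψ r ∩ Set.Ico x0 (x0 + 1)) := by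
      refine measure_congr ?_
      exact (Filter.EventuallyEq.refl _ _).inter Ico_ae_eq_Ioc.symm
    rw [e1]
    refine ENNReal.toReal_mono ?_ (measure_mono ?_)
    · exact ne_top_of_le_ne_top (by rw [Real.volume_Ico]; exact ENNReal.ofReal_ne_top)
        (measure_mono Set.inter_subset_right)
    · exact Set.inter_subset_inter_right _ (Set.Ico_subset_Ico_right (by linarith))
  refine hle.trans (hmain.trans ?_)
  have hqR : (q : ℝ) = g * u := by rw [hqe]; push_cast; ring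
  have hrR : (r : ℝ) = g * v := by rw [hre]; push_cast; ring
  have hgm : g * mn * Dm ψ q r ≤ ψ q * ψ r := by
    have m1 : mn ≤ ψ q / q := by rw [hmn]; exact min_le_left _ _
    have m2 : mn ≤ ψ r / r := by rw [hmn]; exact min_le_right _ _
    have m1' : g * mn * u ≤ ψ q := by
      have : mn * q ≤ ψ q := by
        rwa [le_div_iff₀ (by exact_mod_cast hq)] at m1
      rw [hqR] at this
      linarith
    have m2' : g * mn * v ≤ ψ r := by
      have : mn * r ≤ ψ r := by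
        rwa [le_div_iff₀ (by exact_mod_cast hr)] at m2
      rw [hrR] at this
      linarith
    rw [hDm]
    rcases le_total ((v : ℝ) * ψ q) ((u : ℝ) * ψ r) with hm | hm
    · rw [max_eq_right hm]
      have := mul_le_mul_of_nonneg_right m1' h1
      linarith
    · rw [max_eq_left hm]
      have := mul_le_mul_of_nonneg_right m2' h0
      linarith
  have hgm' : g * mn ≤ ψ q * ψ r / Dm ψ q r := by
    rw [le_div_iff₀ hDmpos]
    exact hgm
  have hψψ : 0 ≤ ψ q * ψ r := mul_nonneg h0 h1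
  have hquot : 0 ≤ ψ q * ψ r / Dm ψ q r := div_nonneg hψψ hDm0
  have hDel0 : 0 ≤ Del ψ q r := by
    rw [hDel]
    positivity
  have hDel2 : Del ψ q r ≤ 2 * Dm ψ q r := by
    rw [hDel, hDm]
    have := le_max_left ((v : ℝ) * ψ q) ((u : ℝ) * ψ r)
    have := le_max_right ((v : ℝ) * ψ q) ((u : ℝ) * ψ r)
    linarith
  have hcard0 : (0 : ℝ) ≤ T.card := Nat.cast_nonneg _
  have hstep : 2 * (g * mn) * T.card ≤ 2 * (ψ q * ψ r / Dm ψ q r) * T.card :=
    mul_le_mul_of_nonneg_right (by linarith) hcard0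
  refine hstep.trans ?_
  by_cases hD : Del ψ q r < 1 / 2
  · have hT1 : T.card ≤ 1 := by
      rw [hT]
      exact Vale.Agent.P028EV.card_Ts_le_one _ _ _ hD.le
    have hT1' : (T.card : ℝ) ≤ 1 := by exact_mod_cast hT1
    by_cases hCO : CO γ ψ q r
    · rw [if_pos hCO]
      have e : 4 * ψ q * ψ r / Dm ψ q r = 4 * (ψ q * ψ r / Dm ψ q r) := by ring
      rw [e]
      nlinarith
    · rw [if_neg hCO]
      have hTe : T = ∅ := by
        rw [Finset.eq_empty_iff_forall_notMem]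
        intro t ht
        rw [hT, Vale.Agent.P028EV.mem_Ts] at ht
        exact hCO ⟨hD, t, ht⟩
      rw [hTe, Finset.card_empty, Nat.cast_zero, mul_zero]
      linarith
  · push Not at hD
    have hTc : (T.card : ℝ) ≤ 2 * Del ψ q r + 1 := by
      rw [hT]
      exact Vale.Agent.P028EV.card_Ts_le _ _ _ hDel0
    have hT8 : (T.card : ℝ) ≤ 8 * Dm ψ q r := by linarith
    have hfin : 2 * (ψ q * ψ r / Dm ψ q r) * T.card ≤ 16 * ψ q * ψ r := by
      calc 2 * (ψ q * ψ r / Dm ψ q r) * T.card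
          ≤ 2 * (ψ q * ψ r / Dm ψ q r) * (8 * Dm ψ q r) :=
            mul_le_mul_of_nonneg_left hT8 (by linarith)
        _ = 16 * ψ q * ψ r := by
            field_simp
            ring
    linarith

end Vale.Agent.P028KM
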