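import Vale.Agent.P028KM.Defs
import Vale.Agent.P028KM.AFM
import Vale.Agent.P028KM.FR
import Vale.Agent.P028KM.OVF

/-!
Module SM: second moment. Split the double sum into `q = r` (`AF_bounds`, `w ≤ 1`), `r < q` and
`q < r` (symmetric). For `r < q`: far (`fr`): `64 ℓ mu mu`; near: `ovf`.
-/

namespace Vale.Agent.P028KM

open Finset MeasureTheory
open Vale.Agent.P028EV (q1 r1 Del hh)

theorem SM_w_nonneg (q : ℕ) : 0 ≤ w q := by
  unfold w
  positivity

theorem SM_w_le (q : ℕ) : w q ≤ 1 := by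
  unfold w
  rcases Nat.eq_zero_or_pos q with h | h
  · rw [h]
    simp
  · have h1 : (0 : ℝ) < q := by exact_mod_cast h
    rw [div_le_one h1]
    exact_mod_cast Nat.totient_le q

theorem SM_split (S : Finset ℕ) (T : ℕ → ℕ → ℝ) (hT : ∀ q r, T q r = T r q) :
    ∑ q ∈ S, ∑ r ∈ S, T q r = ∑ q ∈ S, T q q + 2 * ∑ q ∈ S, ∑ r ∈ S, (if r < q then T q r else 0) := by
  have h1 : ∀ q ∈ S, ∑ r ∈ S, T q r = T q q + ∑ r ∈ S, (if r < q then T q r else 0) +
      ∑ r ∈ S, (if q < r then T q r else 0) := by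
    intro q hq
    have h2 : T q q = ∑ r ∈ S, (if r = q then T q r else 0) := by
      rw [Finset.sum_ite_eq' S q, if_pos hq]
    rw [h2, ← Finset.sum_add_distrib, ← Finset.sum_add_distrib]
    refine Finset.sum_congr rfl fun r _ => ?_
    rcases lt_trichotomy r q with h | h | h
    · rw [if_neg h.ne, if_pos h, if_neg h.not_gt]; ring
    · rw [if_pos h, if_neg (by omega), if_neg (by omega)]; ring
    · rw [if_neg h.ne', if_neg h.not_gt, if_pos h]; ring
  rw [Finset.sum_congr rfl h1, Finset.sum_add_distrib, Finset.sum_add_distrib]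
  have h3 : ∑ q ∈ S, ∑ r ∈ S, (if q < r then T q r else 0) =
      ∑ q ∈ S, ∑ r ∈ S, (if r < q then T q r else 0) := by
    rw [Finset.sum_comm]
    refine Finset.sum_congr rfl fun q _ => Finset.sum_congr rfl fun r _ => ?_
    rw [hT r q]
  rw [h3]
  ring

open Classical in
theorem sm (ℓ : ℝ) (hℓ : 0 < ℓ) (hℓ1 : ℓ ≤ 1) : ∃ Q : ℕ, 0 < Q ∧
    ∀ (γ : ℝ) (ψ : ℕ → ℝ) (S : Finset ℕ) (x0 : ℝ), (∀ q, 0 ≤ ψ q) →
    (∀ q ∈ S, Q ≤ q ∧ (q : ℝ) ^ (-(5 / 4) : ℝ) ≤ ψ q ∧ ψ q < 1 / 2) →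
    ∑ q ∈ S, ∑ r ∈ S, w q * w r * (volume (AF γ ψ q ∩ AF γ ψ r ∩ Set.Ico x0 (x0 + ℓ))).toReal
      ≤ 4 * ℓ * (∑ q ∈ S, mu ψ q) + 128 * ℓ * (∑ q ∈ S, mu ψ q) ^ 2
        + 32 * (∑ q ∈ S, ∑ r ∈ S with r < q ∧ q < r ^ 4, mu ψ q * mu ψ r)
        + 8 * (∑ q ∈ S, ∑ r ∈ S with r < q ∧ q < r ^ 4 ∧ CO γ ψ q r,
            mu ψ q * mu ψ r / Dm ψ q r) := by
  obtain ⟨Q1, hQ1, hb⟩ := AF_bounds ℓ hℓ
  obtain ⟨Q2, hQ2, hf⟩ := fr ℓ hℓ
  refine ⟨max Q1 Q2, lt_of_lt_of_le hQ1 (le_max_left _ _), fun γ ψ S x0 hψ hS => ?_⟩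
  have hmu : ∀ q, 0 ≤ mu ψ q := fun q => mul_nonneg (SM_w_nonneg q) (hψ q)
  rw [SM_split S (fun q r => w q * w r *
    (volume (AF γ ψ q ∩ AF γ ψ r ∩ Set.Ico x0 (x0 + ℓ))).toReal) (fun q r => by
      show w q * w r * _ = w r * w q * _
      rw [mul_comm (w q) (w r), Set.inter_comm (AF γ ψ q) (AF γ ψ r)])]
  have hdiag : ∑ q ∈ S, w q * w q * (volume (AF γ ψ q ∩ AF γ ψ q ∩ Set.Ico x0 (x0 + ℓ))).toReal ≤
      4 * ℓ * (∑ q ∈ S, mu ψ q) := by
    rw [Finset.mul_sum]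
    refine Finset.sum_le_sum fun q hq => ?_
    obtain ⟨h1, _, h3⟩ := hS q hq
    rw [Set.inter_self]
    have h4 := (hb q ((le_max_left _ _).trans h1) γ ψ x0 (hψ q) h3).2
    have hw0 := SM_w_nonneg q
    have hw1 := SM_w_le q
    calc w q * w q * (volume (AF γ ψ q ∩ Set.Ico x0 (x0 + ℓ))).toReal
        ≤ w q * w q * (4 * ℓ * ψ q) := mul_le_mul_of_nonneg_left h4 (mul_nonneg hw0 hw0)
      _ ≤ w q * 1 * (4 * ℓ * ψ q) := by
          refine mul_le_mul_of_nonneg_right (mul_le_mul_of_nonneg_left hw1 hw0) ?_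
          have := hψ q
          positivity
      _ = 4 * ℓ * mu ψ q := by unfold mu; ring
  have hoff : ∑ q ∈ S, ∑ r ∈ S, (if r < q then w q * w r *
      (volume (AF γ ψ q ∩ AF γ ψ r ∩ Set.Ico x0 (x0 + ℓ))).toReal else 0) ≤
      64 * ℓ * (∑ q ∈ S, mu ψ q) ^ 2
        + 16 * (∑ q ∈ S, ∑ r ∈ S with r < q ∧ q < r ^ 4, mu ψ q * mu ψ r)
        + 4 * (∑ q ∈ S, ∑ r ∈ S with r < q ∧ q < r ^ 4 ∧ CO γ ψ q r,
            mu ψ q * mu ψ r / Dm ψ q r) := by
    rw [pow_two, Finset.sum_mul_sum, Finset.mul_sum, Finset.mul_sum, Finset.mul_sum,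
      ← Finset.sum_add_distrib, ← Finset.sum_add_distrib]
    refine Finset.sum_le_sum fun q hq => ?_
    rw [Finset.sum_filter, Finset.sum_filter, Finset.mul_sum, Finset.mul_sum, Finset.mul_sum,
      ← Finset.sum_add_distrib, ← Finset.sum_add_distrib]
    refine Finset.sum_le_sum fun r hr => ?_
    obtain ⟨hq1, hq2, hq3⟩ := hS q hq
    obtain ⟨hr1, hr2, hr3⟩ := hS r hr
    have hmm : 0 ≤ mu ψ q * mu ψ r := mul_nonneg (hmu q) (hmu r)
    have hDm : 0 ≤ mu ψ q * mu ψ r / Dm ψ q r := by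
      refine div_nonneg hmm ?_
      unfold Dm
      exact le_max_of_le_left (mul_nonneg (Nat.cast_nonneg _) (hψ q))
    have hww : 0 ≤ w q * w r := mul_nonneg (SM_w_nonneg q) (SM_w_nonneg r)
    have hq0 : 0 < q := by
      have := le_max_left Q1 Q2
      omega
    have hr0 : 0 < r := by
      have := le_max_left Q1 Q2
      omega
    by_cases hrq : r < q
    · rw [if_pos hrq]
      by_cases hnear : q < r ^ 4
      · have h5 := ovf γ ψ q r hq0 hr0 (hψ q) (hψ r) hq3 hr3 x0 ℓ hℓ hℓ1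
        have h6 := mul_le_mul_of_nonneg_left h5 hww
        refine h6.trans ?_
        rw [if_pos (show r < q ∧ q < r ^ 4 from ⟨hrq, hnear⟩)]
        by_cases hco : CO γ ψ q r
        · rw [if_pos hco, if_pos ⟨hrq, hnear, hco⟩]
          have e : w q * w r * (16 * ψ q * ψ r + 4 * ψ q * ψ r / Dm ψ q r) =
              16 * (mu ψ q * mu ψ r) + 4 * (mu ψ q * mu ψ r / Dm ψ q r) := by
            unfold mu
            ring
          rw [e]
          have h7 : 0 ≤ 64 * ℓ * (mu ψ q * mu ψ r) := by positivity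
          linarith
        · rw [if_neg hco, if_neg (fun h => hco h.2.2)]
          have e : w q * w r * (16 * ψ q * ψ r + 0) = 16 * (mu ψ q * mu ψ r) := by
            unfold mu
            ring
          rw [e]
          have h7 : 0 ≤ 64 * ℓ * (mu ψ q * mu ψ r) := by positivity
          linarith
      · rw [if_neg (fun h => hnear h.2), if_neg (fun h => hnear h.2.1)]
        have h5 := hf q r ((le_max_right _ _).trans hr1) (not_lt.1 hnear) γ ψ x0 (hψ q) hq3 hr2 hr3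
        have h6 := mul_le_mul_of_nonneg_left h5 hww
        refine h6.trans (le_of_eq ?_)
        unfold mu
        ring
    · rw [if_neg hrq, if_neg (fun h => hrq h.1), if_neg (fun h => hrq h.1)]
      have h7 : 0 ≤ 64 * ℓ * (mu ψ q * mu ψ r) := by positivity
      linarith
  linarith

end Vale.Agent.P028KM
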