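import Vale.Agent.P028KM.Defs
import Vale.Agent.P028KM.SM
import Vale.Agent.P028KM.NR
import Vale.Agent.P028KM.CEW
import Vale.Agent.P028KM.BK

/-!
Module LC: local positivity; adapt `local_pos` of Vale/Agent/P028EV/Local.lean. `ψ1 = min ψ (q^-ε)`
(for `q ≥ 1`, with `ψ1 0 = 0`; use `ψ1/4` to have `< 1/2`), `bk` with `μ = mu ψ1`, `ψ2 = lam ψ1`, `nrs` with `δ = ℓ/100`,
first moment `≥ ℓ` (`AF_bounds`), second moment `≤ C ℓ`, `cew`.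
-/

namespace Vale.Agent.P028KM

open Finset MeasureTheory
open Vale.Agent.P028EV (q1 r1 Del hh)

theorem lc : ∃ c' : ℝ, 0 < c' ∧ ∀ (c : ℝ) (m : ℕ) (ε γ : ℝ) (ψ : ℕ → ℝ), 0 < c → 0 < ε → ε ≤ 1 →
    Dio c m γ → (∀ q, 0 ≤ ψ q) →
    ¬ Summable (fun q : ℕ => w q * min (ψ q) ((q : ℝ) ^ (-ε))) →
    ∀ x0 ℓ : ℝ, 0 < ℓ → ℓ ≤ 1 → 0 ≤ x0 → x0 + ℓ ≤ 1 → ∀ N : ℕ,
      c' * ℓ ≤ (volume ((⋃ q ∈ {q : ℕ | N ≤ q}, AF γ ψ q) ∩ Set.Ico x0 (x0 + ℓ))).toReal := by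
  refine ⟨1 / 600, by norm_num, ?_⟩
  intro c m ε γ ψ hc hε hε1 hdio hψ hdiv x0 ℓ hℓ hℓ1 _ _ N
  obtain ⟨ε0, hε0, N0, hnrs⟩ := nrs c hc m ε hε hε1 (ℓ / 100) (by positivity)
  obtain ⟨Qs, hQs, hsm⟩ := sm ℓ hℓ hℓ1
  obtain ⟨Qb, hQb, hbd⟩ := AF_bounds ℓ hℓ
  set ψ1 : ℕ → ℝ := fun q => min (ψ q) ((q : ℝ) ^ (-ε)) / 4 with hψ1
  have hpow0 : ∀ q : ℕ, 0 ≤ (q : ℝ) ^ (-ε) := fun q => Real.rpow_nonneg (Nat.cast_nonneg q) _
  have hpow1 : ∀ q : ℕ, (q : ℝ) ^ (-ε) ≤ 1 := by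
    intro q
    rcases Nat.eq_zero_or_pos q with h | h
    · rw [h, Nat.cast_zero, Real.zero_rpow (by linarith)]
      norm_num
    · exact Real.rpow_le_one_of_one_le_of_nonpos (by exact_mod_cast h) (by linarith)
  have hmin0 : ∀ q, 0 ≤ min (ψ q) ((q : ℝ) ^ (-ε)) := fun q => le_min (hψ q) (hpow0 q)
  have hψ10 : ∀ q, 0 ≤ ψ1 q := fun q => by
    have := hmin0 q
    simp only [hψ1]
    positivity
  have hψ1a : ∀ q, ψ1 q ≤ ψ q := fun q => by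
    have := hmin0 q
    have h2 := min_le_left (ψ q) ((q : ℝ) ^ (-ε))
    simp only [hψ1]
    linarith
  have hψ1b : ∀ q : ℕ, ψ1 q ≤ (q : ℝ) ^ (-ε) := fun q => by
    have := hmin0 q
    have h2 := min_le_right (ψ q) ((q : ℝ) ^ (-ε))
    simp only [hψ1]
    linarith
  have hψ1c : ∀ q : ℕ, ψ1 q ≤ 1 / 4 := fun q => by
    have h2 := min_le_right (ψ q) ((q : ℝ) ^ (-ε))
    have h3 := hpow1 q
    simp only [hψ1]
    linarith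
  have hμ0 : ∀ q, 0 ≤ mu ψ1 q := fun q => mul_nonneg (SM_w_nonneg q) (hψ10 q)
  have hμ1 : ∀ q, mu ψ1 q ≤ 1 := fun q => by
    unfold mu
    have h1 := hψ1c q
    exact mul_le_one₀ (SM_w_le q) (hψ10 q) (by linarith)
  have hμdiv : ¬ Summable (mu ψ1) := by
    intro hs
    apply hdiv
    have h4 := hs.mul_left 4
    refine h4.congr fun q => ?_
    simp only [mu, hψ1]
    ring
  obtain ⟨lam, S, hlam, hS, hM1, hM2, hblk⟩ := bk (mu ψ1) hμ0 hμ1 hμdiv ε0 hε0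
    (max N (max N0 (max Qs Qb)))
  set ψ2 : ℕ → ℝ := fun q => lam q * ψ1 q with hψ2
  have hψ20 : ∀ q, 0 ≤ ψ2 q := fun q => mul_nonneg (hlam q).1 (hψ10 q)
  have hψ21 : ∀ q, ψ2 q ≤ ψ1 q := fun q => mul_le_of_le_one_left (hψ10 q) (hlam q).2
  have hmu : ∀ q, mu ψ2 q = lam q * mu ψ1 q := fun q => by
    simp only [mu, hψ2]
    ring
  have hmule : ∀ q, mu ψ2 q ≤ ψ2 q := fun q => mul_le_of_le_one_left (hψ20 q) (SM_w_le q)
  set M : ℝ := ∑ q ∈ S, mu ψ2 q with hM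
  have hMeq : M = ∑ q ∈ S, lam q * mu ψ1 q := Finset.sum_congr rfl fun q _ => hmu q
  have hMa : 1 ≤ M := by rw [hMeq]; exact hM1
  have hMb : M ≤ 2 := by rw [hMeq]; exact hM2
  have hSb : ∀ q ∈ S, N ≤ q ∧ N0 ≤ q ∧ Qs ≤ q ∧ Qb ≤ q ∧ 2 ≤ q ∧ (q : ℝ) ^ (-(5 / 4) : ℝ) ≤ ψ2 q := by
    intro q hq
    obtain ⟨h1, h2, h3⟩ := hS q hq
    have a1 := le_max_left N (max N0 (max Qs Qb))
    have a2 := le_max_right N (max N0 (max Qs Qb))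
    have a3 := le_max_left N0 (max Qs Qb)
    have a4 := le_max_right N0 (max Qs Qb)
    have a5 := le_max_left Qs Qb
    have a6 := le_max_right Qs Qb
    refine ⟨by omega, by omega, by omega, by omega, h2, ?_⟩
    rw [← hmu q] at h3
    exact h3.trans (hmule q)
  have hhalf : ∀ q, ψ2 q < 1 / 2 := fun q => by
    have h1 := hψ21 q
    have h2 := hψ1c q
    linarith
  obtain ⟨hn1, hn2⟩ := hnrs γ ψ2 S hdio hψ20
    (fun q hq => ⟨(hSb q hq).2.1, (hSb q hq).2.2.2.2.1, (hψ21 q).trans (hψ1b q)⟩)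
    (fun k => by
      refine le_trans (le_of_eq ?_) (hblk k)
      exact Finset.sum_congr rfl fun q _ => hmu q)
  have hs2 := hsm γ ψ2 S x0 hψ20 fun q hq => ⟨(hSb q hq).2.2.1, (hSb q hq).2.2.2.2.2, hhalf q⟩
  rw [← hM] at hn1 hn2 hs2
  have hupper : ∑ q ∈ S, ∑ r ∈ S, w q * w r *
      (volume (AF γ ψ2 q ∩ AF γ ψ2 r ∩ Set.Ico x0 (x0 + ℓ))).toReal ≤ 600 * ℓ := by
    refine hs2.trans ?_
    have hM0 : 0 ≤ M := by linarith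
    have e1 : ℓ * M ≤ 2 * ℓ := by nlinarith
    have e2 : ℓ * M ^ 2 ≤ 4 * ℓ := by
      have : M ^ 2 ≤ 4 := by nlinarith
      nlinarith
    have e3 : ℓ / 100 * M ≤ ℓ / 50 := by nlinarith
    linarith
  -- lower bound of the first moment
  have hlower : ℓ ≤ ∑ q ∈ S, w q * (volume (AF γ ψ2 q ∩ Set.Ico x0 (x0 + ℓ))).toReal := by
    have h1 : ℓ * M ≤ ∑ q ∈ S, w q * (volume (AF γ ψ2 q ∩ Set.Ico x0 (x0 + ℓ))).toReal := by
      rw [hM, Finset.mul_sum]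
      apply Finset.sum_le_sum
      intro q hq
      have h5 := (hbd q (hSb q hq).2.2.2.1 γ ψ2 x0 (hψ20 q) (hhalf q)).1
      have h6 := mul_le_mul_of_nonneg_left h5 (SM_w_nonneg q)
      refine le_trans (le_of_eq ?_) h6
      unfold mu
      ring
    nlinarith
  -- Chung-Erdos
  have hce := cew (volume.restrict (Set.Ico x0 (x0 + ℓ))) S (fun q => AF γ ψ2 q)
    (fun q _ => (AF_isOpen γ ψ2 q).measurableSet) w
  have hmeas : ∀ q, (volume.restrict (Set.Ico x0 (x0 + ℓ))) (AF γ ψ2 q) =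
      volume (AF γ ψ2 q ∩ Set.Ico x0 (x0 + ℓ)) := fun q =>
    Measure.restrict_apply (AF_isOpen γ ψ2 q).measurableSet
  have hmeas2 : ∀ q r, (volume.restrict (Set.Ico x0 (x0 + ℓ))) (AF γ ψ2 q ∩ AF γ ψ2 r) =
      volume (AF γ ψ2 q ∩ AF γ ψ2 r ∩ Set.Ico x0 (x0 + ℓ)) := fun q r =>
    Measure.restrict_apply ((AF_isOpen γ ψ2 q).inter (AF_isOpen γ ψ2 r)).measurableSet
  have hmeasU : (volume.restrict (Set.Ico x0 (x0 + ℓ))) (⋃ q ∈ S, AF γ ψ2 q) =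
      volume ((⋃ q ∈ S, AF γ ψ2 q) ∩ Set.Ico x0 (x0 + ℓ)) :=
    Measure.restrict_apply (Finset.measurableSet_biUnion S fun q _ => (AF_isOpen γ ψ2 q).measurableSet)
  simp only [hmeas, hmeas2, hmeasU] at hce
  have hsub : (⋃ q ∈ S, AF γ ψ2 q) ∩ Set.Ico x0 (x0 + ℓ) ⊆
      (⋃ q ∈ {q : ℕ | N ≤ q}, AF γ ψ q) ∩ Set.Ico x0 (x0 + ℓ) := by
    apply Set.inter_subset_inter_left
    intro x hx
    rw [Set.mem_iUnion₂] at hx ⊢
    obtain ⟨q, hq, hxq⟩ := hx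
    refine ⟨q, (hSb q hq).1, ?_⟩
    exact AF_mono ((hψ21 q).trans (hψ1a q)) hxq
  have hfin : volume ((⋃ q ∈ {q : ℕ | N ≤ q}, AF γ ψ q) ∩ Set.Ico x0 (x0 + ℓ)) ≠ ⊤ :=
    ne_top_of_le_ne_top (by rw [Real.volume_Ico]; exact ENNReal.ofReal_ne_top)
      (measure_mono Set.inter_subset_right)
  have hvol := ENNReal.toReal_mono hfin (measure_mono hsub)
  set V : ℝ := (volume ((⋃ q ∈ S, AF γ ψ2 q) ∩ Set.Ico x0 (x0 + ℓ))).toReal with hV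
  have hV0 : 0 ≤ V := ENNReal.toReal_nonneg
  have h1 : ℓ ^ 2 ≤ V * (600 * ℓ) := by
    calc ℓ ^ 2 ≤ (∑ q ∈ S, w q * (volume (AF γ ψ2 q ∩ Set.Ico x0 (x0 + ℓ))).toReal) ^ 2 :=
          pow_le_pow_left₀ hℓ.le hlower 2
      _ ≤ _ := hce
      _ ≤ V * (600 * ℓ) := mul_le_mul_of_nonneg_left hupper hV0
  have h2 : ℓ ≤ V * 600 := by
    have h3 : ℓ * ℓ ≤ V * 600 * ℓ := by
      calc ℓ * ℓ = ℓ ^ 2 := by ring
        _ ≤ V * (600 * ℓ) := h1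
        _ = V * 600 * ℓ := by ring
    exact le_of_mul_le_mul_right h3 hℓ
  refine le_trans ?_ hvol
  linarith

end Vale.Agent.P028KM
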