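import Vale.Agent.P028KM.Defs
import Vale.Agent.P028KM.LC
import Vale.Agent.P028KM.DI
import Vale.Agent.P028EV.Full

/-!
Module RES: final theorem (`full_of_local` of P028EV; if `ε > 1` use `ε = 1`: `q^(-ε) ≤ q^(-1)`).
-/

namespace Vale.Agent.P028KM

open Finset MeasureTheory
open Vale.Agent.P028EV (q1 r1 Del hh)

private lemma res_meas (γ : ℝ) (ψ : ℕ → ℝ) (q : ℕ) : MeasurableSet (AF γ ψ q) := by
  have h : AF γ ψ q = ⋃ a : ℤ, {x : ℝ | |(q : ℝ) * x - a - γ| < ψ q} := by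
    ext x
    simp [AF]
  rw [h]
  refine MeasurableSet.iUnion fun a => ?_
  exact measurableSet_lt (by fun_prop) measurable_const

private lemma res_per (γ : ℝ) (ψ : ℕ → ℝ) (q : ℕ) (x : ℝ) :
    x ∈ AF γ ψ q ↔ x + 1 ∈ AF γ ψ q := by
  constructor
  · rintro ⟨a, ha⟩
    refine ⟨a + q, ?_⟩
    have : (q : ℝ) * (x + 1) - ((a + q : ℤ) : ℝ) - γ = (q : ℝ) * x - a - γ := by
      push_cast
      ring
    rw [this]
    exact ha
  · rintro ⟨a, ha⟩
    refine ⟨a - q, ?_⟩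
    have : (q : ℝ) * x - ((a - q : ℤ) : ℝ) - γ = (q : ℝ) * (x + 1) - a - γ := by
      push_cast
      ring
    rw [this]
    exact ha

theorem main (γ : ℝ) (h1 : Irrational γ) (h2 : ¬ Liouville γ) (ψ : ℕ → ℝ) (hψ : ∀ q, 0 ≤ ψ q)
    (ε : ℝ) (hε : 0 < ε)
    (hdiv : ¬ Summable (fun q : ℕ => (Nat.totient q : ℝ) / q * min (ψ q) ((q : ℝ) ^ (-ε)))) :
    volume {x : ℝ | {q : ℕ | 1 ≤ q ∧ ∃ a : ℤ, |(q : ℝ) * x - a - γ| < ψ q}.Infinite}ᶜ = 0 := by
  obtain ⟨c, hc, m, hD⟩ := di γ h1 h2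
  obtain ⟨c', hc', hlc⟩ := lc
  have hε1 : 0 < min ε 1 := lt_min hε one_pos
  have hdiv' : ¬ Summable (fun q : ℕ => w q * min (ψ q) ((q : ℝ) ^ (-(min ε 1)))) := by
    intro hs
    apply hdiv
    refine Summable.of_nonneg_of_le (fun q => ?_) (fun q => ?_) hs
    · have : 0 ≤ (q : ℝ) ^ (-ε) := Real.rpow_nonneg (Nat.cast_nonneg q) _
      exact mul_nonneg (by positivity) (le_min (hψ q) this)
    · unfold w
      rcases Nat.eq_zero_or_pos q with hq | hq
      · subst hq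
        simp
      · have hq1 : (1 : ℝ) ≤ (q : ℝ) := by exact_mod_cast hq
        refine mul_le_mul_of_nonneg_left ?_ (by positivity)
        refine min_le_min le_rfl ?_
        exact Real.rpow_le_rpow_of_exponent_le hq1 (neg_le_neg (min_le_left _ _))
  have hmain := Vale.Agent.P028EV.full_of_local (AF γ ψ) (res_meas γ ψ) (res_per γ ψ) c' hc'
    (hlc c m (min ε 1) γ ψ hc hε1 (min_le_right _ _) hD hψ hdiv')
  refine measure_mono_null ?_ hmain
  intro x hx hx2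
  apply hx
  have hx3 : {q : ℕ | x ∈ AF γ ψ q}.Infinite := hx2
  have hsub : {q : ℕ | x ∈ AF γ ψ q} ⊆
      {q : ℕ | 1 ≤ q ∧ ∃ a : ℤ, |(q : ℝ) * x - a - γ| < ψ q} ∪ {0} := by
    intro q hq
    rcases Nat.eq_zero_or_pos q with h0 | h0
    · right
      exact h0
    · left
      exact ⟨h0, hq⟩
  have hinf := hx3.mono hsub
  rw [Set.infinite_union] at hinf
  rcases hinf with h | h
  · exact h
  · exact absurd (Set.finite_singleton 0) h

end Vale.Agent.P028KM
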