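import Mathlib

/-! Module SUMP: proofs -/

namespace Vale.Agent.P028KM.SumpPf

open Finset

theorem sump (C : ℝ) (hC : 0 < C) (δ : ℝ) (hδ : 0 < δ) : ∃ p0 : ℕ, 2 ≤ p0 ∧
    ∀ P : Finset ℕ, (∀ p ∈ P, p0 ≤ p) → ∑ p ∈ P, C * (p : ℝ) ^ (-(117 / 100) : ℝ) ≤ δ := by
  have hs : Summable (fun n : ℕ => C * (n : ℝ) ^ (-(117 / 100) : ℝ)) :=
    (Real.summable_nat_rpow.2 (by norm_num)).mul_left C
  obtain ⟨s, hs'⟩ := summable_iff_vanishing_norm.1 hs δ hδ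
  refine ⟨max 2 (s.sup id + 1), le_max_left _ _, fun P hP => ?_⟩
  have hd : Disjoint P s := by
    rw [Finset.disjoint_left]
    intro p hp hps
    have h1 := (le_max_right 2 (s.sup id + 1)).trans (hP p hp)
    have h2 : p ≤ s.sup id := Finset.le_sup (f := id) hps
    omega
  exact (le_abs_self _).trans (hs' P hd).le

theorem sump2 (C : ℝ) (hC : 0 < C) : ∃ p0 : ℕ, 2 ≤ p0 ∧
    ∀ p : ℕ, p0 ≤ p → C * (p : ℝ) ^ (-(39 / 40) : ℝ) ≤ 1 / 2 := by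
  have h1 : Filter.Tendsto (fun n : ℕ => C * (n : ℝ) ^ (-(39 / 40) : ℝ)) Filter.atTop
      (nhds (C * 0)) :=
    ((tendsto_rpow_neg_atTop (by norm_num : (0 : ℝ) < 39 / 40)).comp
      tendsto_natCast_atTop_atTop).const_mul C
  rw [mul_zero] at h1
  obtain ⟨p0, hp0⟩ := Filter.eventually_atTop.1
    (h1.eventually (eventually_le_nhds (by norm_num : (0 : ℝ) < 1 / 2)))
  exact ⟨max 2 p0, le_max_left _ _, fun p hp => hp0 p ((le_max_right _ _).trans hp)⟩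

end Vale.Agent.P028KM.SumpPf
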